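import Vale.Agent.Lib.P335.Defs

namespace Vale.Agent.Lib.P335
open Finset

/-! T1 -/

/-- extension by zero of a vector indexed by `Ω` -/
noncomputable def extZ {α : Type} [DecidableEq α] (Ω : Finset α) (u : EuclideanSpace ℝ Ω) : α → ℝ :=
  fun x => if h : x ∈ Ω then u ⟨x, h⟩ else 0

theorem extZ_coe {α : Type} [DecidableEq α] (Ω : Finset α) (u : EuclideanSpace ℝ Ω) (ω : Ω) :
    extZ Ω u ω.1 = u ω := by
  unfold extZ
  rw [dif_pos ω.2]

theorem extZ_add {α : Type} [DecidableEq α] (Ω : Finset α) (u w : EuclideanSpace ℝ Ω) :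
    extZ Ω (u + w) = extZ Ω u + extZ Ω w := by
  funext x
  unfold extZ
  by_cases h : x ∈ Ω
  · simp [h]
  · simp [h]

theorem extZ_smul {α : Type} [DecidableEq α] (Ω : Finset α) (k : ℝ) (u : EuclideanSpace ℝ Ω) :
    extZ Ω (k • u) = k • extZ Ω u := by
  funext x
  unfold extZ
  by_cases h : x ∈ Ω
  · simp [h]
  · simp [h]

theorem inner_eq_sum_extZ {α : Type} [DecidableEq α] (Ω : Finset α) (u w : EuclideanSpace ℝ Ω) :
    inner ℝ u w = ∑ x ∈ Ω, extZ Ω u x * extZ Ω w x := by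
  rw [PiLp.inner_apply, ← Finset.sum_coe_sort Ω (fun x => extZ Ω u x * extZ Ω w x)]
  refine Finset.sum_congr rfl fun ω _ => ?_
  rw [extZ_coe, extZ_coe]
  simp [mul_comm]

theorem specOn {α : Type} [DecidableEq α] (Ω : Finset α) (T : (α → ℝ) → (α → ℝ))
    (hadd : ∀ f g, ∀ x ∈ Ω, T (f + g) x = T f x + T g x)
    (hsmul : ∀ (c : ℝ) f, ∀ x ∈ Ω, T (c • f) x = c * T f x)
    (hloc : ∀ f g, (∀ x ∈ Ω, f x = g x) → ∀ x ∈ Ω, T f x = T g x)
    (hsymm : ∀ f g, ∑ x ∈ Ω, f x * T g x = ∑ x ∈ Ω, T f x * g x)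
    (K : (α → ℝ) → Prop) (θ : ℝ)
    (h : ∀ (lam : ℝ) (v : α → ℝ), (∃ x ∈ Ω, v x ≠ 0) → (∀ x ∈ Ω, T v x = lam * v x) → θ ≤ lam ∨ K v)
    (f : α → ℝ) (hf : ∀ k, K k → ∑ x ∈ Ω, k x * f x = 0) :
    θ * ∑ x ∈ Ω, f x ^ 2 ≤ ∑ x ∈ Ω, f x * T f x := by
  let A : EuclideanSpace ℝ Ω →ₗ[ℝ] EuclideanSpace ℝ Ω :=
    { toFun := fun u => WithLp.toLp 2 (fun ω : Ω => T (extZ Ω u) ω.1)
      map_add' := by
        intro u w
        ext ω
        simp only [PiLp.add_apply]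
        rw [extZ_add]
        exact hadd _ _ ω.1 ω.2
      map_smul' := by
        intro k u
        ext ω
        simp only [PiLp.smul_apply, RingHom.id_apply, smul_eq_mul]
        rw [extZ_smul]
        exact hsmul _ _ ω.1 ω.2 }
  have hA : ∀ u, ∀ x ∈ Ω, extZ Ω (A u) x = T (extZ Ω u) x := by
    intro u x hx
    have := extZ_coe Ω (A u) ⟨x, hx⟩
    exact this
  have hAsymm : A.IsSymmetric := by
    intro u w
    rw [inner_eq_sum_extZ, inner_eq_sum_extZ]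
    calc ∑ x ∈ Ω, extZ Ω (A u) x * extZ Ω w x = ∑ x ∈ Ω, T (extZ Ω u) x * extZ Ω w x :=
          Finset.sum_congr rfl fun x hx => by rw [hA u x hx]
      _ = ∑ x ∈ Ω, extZ Ω u x * T (extZ Ω w) x := (hsymm _ _).symm
      _ = ∑ x ∈ Ω, extZ Ω u x * extZ Ω (A w) x :=
          Finset.sum_congr rfl fun x hx => by rw [hA w x hx]
  let F : EuclideanSpace ℝ Ω := WithLp.toLp 2 (fun ω : Ω => f ω.1)
  have hF : ∀ x ∈ Ω, extZ Ω F x = f x := by
    intro x hx
    exact extZ_coe Ω F ⟨x, hx⟩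
  have hTF : ∀ x ∈ Ω, T (extZ Ω F) x = T f x := hloc _ _ hF
  set n := Module.finrank ℝ (EuclideanSpace ℝ Ω) with hn
  let bs := hAsymm.eigenvectorBasis hn.symm
  let ev := hAsymm.eigenvalues hn.symm
  have hb : ∀ i, A (bs i) = ev i • bs i := fun i => hAsymm.apply_eigenvectorBasis hn.symm i
  have h1 : ∑ x ∈ Ω, f x ^ 2 = ∑ i, inner ℝ F (bs i) * inner ℝ (bs i) F := by
    rw [bs.sum_inner_mul_inner, inner_eq_sum_extZ]
    refine Finset.sum_congr rfl fun x hx => ?_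
    rw [hF x hx]; ring
  have h2 : ∑ x ∈ Ω, f x * T f x = ∑ i, inner ℝ F (bs i) * inner ℝ (bs i) (A F) := by
    rw [bs.sum_inner_mul_inner, inner_eq_sum_extZ]
    refine Finset.sum_congr rfl fun x hx => ?_
    rw [hF x hx, hA F x hx, hTF x hx]
  rw [h1, h2, Finset.mul_sum]
  refine Finset.sum_le_sum fun i _ => ?_
  have h3 : inner ℝ (bs i) (A F) = ev i * inner ℝ (bs i) F := by
    rw [← hAsymm (bs i) F, hb i, real_inner_smul_left]
  have h4 : inner ℝ F (bs i) = inner ℝ (bs i) F := real_inner_comm _ _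
  rw [h3, h4]
  have hne : ∃ x ∈ Ω, extZ Ω (bs i) x ≠ 0 := by
    by_contra hcon
    push Not at hcon
    have h5 : inner ℝ (bs i) (bs i) = 0 := by
      rw [inner_eq_sum_extZ]
      refine Finset.sum_eq_zero fun x hx => ?_
      rw [hcon x hx, zero_mul]
    have h6 : ‖bs i‖ = 1 := bs.orthonormal.1 i
    rw [real_inner_self_eq_norm_sq, h6] at h5
    norm_num at h5
  have heig : ∀ x ∈ Ω, T (extZ Ω (bs i)) x = ev i * extZ Ω (bs i) x := by
    intro x hx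
    rw [← hA (bs i) x hx, hb i, extZ_smul]
    rfl
  rcases h (ev i) (extZ Ω (bs i)) hne heig with h7 | h7
  · have h8 : 0 ≤ inner ℝ (bs i) F * inner ℝ (bs i) F := mul_self_nonneg _
    nlinarith
  · have h9 : inner ℝ (bs i) F = 0 := by
      rw [inner_eq_sum_extZ, ← hf _ h7]
      refine Finset.sum_congr rfl fun x hx => ?_
      rw [hF x hx]
    rw [h9]; simp

end Vale.Agent.Lib.P335
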