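import Vale.Agent.Lib.P335.Defs

namespace Vale.Agent.Lib.P335
open Finset

/-! T3 : abstract averaging -/
section Avg
variable {α : Type} [DecidableEq α] (Ω : Finset α) (r : α → α → Prop) [DecidableRel r]

theorem avgFib_eq_of_rel (hr : Equivalence r) {x y : α} (h : r x y) : fib Ω r x = fib Ω r y := by
  unfold fib
  apply Finset.filter_congr
  intro z _
  exact ⟨fun hz => hr.trans (hr.symm h) hz, fun hz => hr.trans h hz⟩

theorem avgFib_self_mem (hr : Equivalence r) {x : α} (hx : x ∈ Ω) : x ∈ fib Ω r x := by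
  unfold fib
  exact mem_filter.mpr ⟨hx, hr.refl x⟩

theorem cE_class (hr : Equivalence r) (f : α → ℝ) {x y : α} (h : r x y) : cE Ω r f x = cE Ω r f y := by
  unfold cE
  rw [avgFib_eq_of_rel Ω r hr h]

theorem cE_symm (hr : Equivalence r) (f g : α → ℝ) :
    ∑ x ∈ Ω, f x * cE Ω r g x = ∑ x ∈ Ω, cE Ω r f x * g x := by
  have hL : ∑ x ∈ Ω, f x * cE Ω r g x =
      ∑ x ∈ Ω, ∑ y ∈ Ω, if r x y then f x * g y / ((fib Ω r x).card : ℝ) else 0 := by
    apply Finset.sum_congr rfl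
    intro x _
    unfold cE fib
    rw [Finset.sum_filter, Finset.sum_div, Finset.mul_sum]
    apply Finset.sum_congr rfl
    intro y _
    split_ifs
    · ring
    · simp
  have hR : ∑ x ∈ Ω, cE Ω r f x * g x =
      ∑ x ∈ Ω, ∑ y ∈ Ω, if r x y then f y * g x / ((fib Ω r x).card : ℝ) else 0 := by
    apply Finset.sum_congr rfl
    intro x _
    unfold cE fib
    rw [Finset.sum_filter, Finset.sum_div, Finset.sum_mul]
    apply Finset.sum_congr rfl
    intro y _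
    split_ifs
    · ring
    · simp
  rw [hL, hR, Finset.sum_comm]
  apply Finset.sum_congr rfl
  intro y _
  apply Finset.sum_congr rfl
  intro x _
  by_cases h : r x y
  · have h' : r y x := hr.symm h
    rw [if_pos h, if_pos h', avgFib_eq_of_rel Ω r hr h]
  · have h' : ¬ r y x := fun hh => h (hr.symm hh)
    rw [if_neg h, if_neg h']

theorem cE_of_inv (hr : Equivalence r) (f : α → ℝ) {x : α} (hx : x ∈ Ω) (h : ∀ y ∈ Ω, r x y → f y = f x) :
    cE Ω r f x = f x := by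
  unfold cE
  have hne : ((fib Ω r x).card : ℝ) ≠ 0 := by
    have : 0 < (fib Ω r x).card := Finset.card_pos.mpr ⟨x, avgFib_self_mem Ω r hr hx⟩
    positivity
  have hsum : ∑ y ∈ fib Ω r x, f y = ((fib Ω r x).card : ℝ) * f x := by
    rw [Finset.sum_congr rfl (g := fun _ => f x)]
    · simp
    · intro y hy
      unfold fib at hy
      exact h y (mem_filter.mp hy).1 (mem_filter.mp hy).2
  rw [hsum]
  field_simp

theorem cE_idem (hr : Equivalence r) (f : α → ℝ) {x : α} (hx : x ∈ Ω) : cE Ω r (cE Ω r f) x = cE Ω r f x :=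
  cE_of_inv Ω r hr _ hx (fun _ _ hxy => (cE_class Ω r hr f hxy).symm)

theorem cE_add (f g : α → ℝ) (x : α) : cE Ω r (f + g) x = cE Ω r f x + cE Ω r g x := by
  unfold cE
  simp only [Pi.add_apply]
  rw [Finset.sum_add_distrib, add_div]

theorem cE_sub (f g : α → ℝ) (x : α) : cE Ω r (f - g) x = cE Ω r f x - cE Ω r g x := by
  unfold cE
  simp only [Pi.sub_apply]
  rw [Finset.sum_sub_distrib, sub_div]

theorem cE_smul (c : ℝ) (f : α → ℝ) (x : α) : cE Ω r (c • f) x = c * cE Ω r f x := by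
  unfold cE
  simp only [Pi.smul_apply, smul_eq_mul]
  rw [← Finset.mul_sum, mul_div_assoc]

theorem cE_ext (f g : α → ℝ) (h : ∀ y ∈ Ω, f y = g y) (x : α) : cE Ω r f x = cE Ω r g x := by
  unfold cE
  rw [Finset.sum_congr rfl]
  intro y hy
  unfold fib at hy
  exact h y (mem_filter.mp hy).1

theorem cE_abs_le (f : α → ℝ) (L : ℝ) (hL : 0 ≤ L) (x : α) (h : ∀ y ∈ fib Ω r x, |f y| ≤ L) : |cE Ω r f x| ≤ L := by
  unfold cE
  rcases Nat.eq_zero_or_pos (fib Ω r x).card with h0 | h0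
  · rw [h0]
    simpa using hL
  · have hpos : (0 : ℝ) < ((fib Ω r x).card : ℝ) := by exact_mod_cast h0
    rw [abs_div, abs_of_pos hpos, div_le_iff₀ hpos]
    calc |∑ y ∈ fib Ω r x, f y| ≤ ∑ y ∈ fib Ω r x, |f y| := Finset.abs_sum_le_sum_abs _ _
      _ ≤ ∑ _y ∈ fib Ω r x, L := Finset.sum_le_sum h
      _ = L * ((fib Ω r x).card : ℝ) := by
          rw [Finset.sum_const, nsmul_eq_mul]
          ring

/-- coarser after finer -/
theorem cE_cE_of_le (r' : α → α → Prop) [DecidableRel r'] (hr : Equivalence r) (hr' : Equivalence r')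
    (hle : ∀ x y, r x y → r' x y) (f : α → ℝ) {x : α} (hx : x ∈ Ω) :
    cE Ω r (cE Ω r' f) x = cE Ω r' f x :=
  cE_of_inv Ω r hr _ hx (fun y _ hxy => (cE_class Ω r' hr' f (hle x y hxy)).symm)

theorem sum_mul_sub_cE (hr : Equivalence r) (f : α → ℝ) :
    ∑ x ∈ Ω, f x * (f x - cE Ω r f x) = ∑ x ∈ Ω, (f x - cE Ω r f x) ^ 2 := by
  have h1 := cE_symm Ω r hr f (cE Ω r f)
  have h2 : ∑ x ∈ Ω, f x * cE Ω r (cE Ω r f) x = ∑ x ∈ Ω, f x * cE Ω r f x := by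
    apply Finset.sum_congr rfl
    intro x hx
    rw [cE_idem Ω r hr f hx]
  rw [h2] at h1
  have e1 : ∑ x ∈ Ω, f x * (f x - cE Ω r f x) =
      ∑ x ∈ Ω, f x * f x - ∑ x ∈ Ω, f x * cE Ω r f x := by
    rw [← Finset.sum_sub_distrib]
    apply Finset.sum_congr rfl
    intro x _
    ring
  have e2 : ∑ x ∈ Ω, (f x - cE Ω r f x) ^ 2 =
      ∑ x ∈ Ω, f x * f x - 2 * ∑ x ∈ Ω, f x * cE Ω r f x + ∑ x ∈ Ω, cE Ω r f x * cE Ω r f x := by
    rw [Finset.mul_sum, ← Finset.sum_sub_distrib, ← Finset.sum_add_distrib]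
    apply Finset.sum_congr rfl
    intro x _
    ring
  rw [e1, e2, ← h1]
  ring

/-- comparison of two class averages through a bijection of the classes -/
theorem cE_sub_le_of_bij (f : α → ℝ) (L : ℝ) (x y : α) (hx : (fib Ω r x).Nonempty) (φ : α → α)
    (hφ : Set.BijOn φ (fib Ω r x) (fib Ω r y)) (h : ∀ z ∈ fib Ω r x, |f z - f (φ z)| ≤ L) :
    |cE Ω r f x - cE Ω r f y| ≤ L := by
  have hcard : (fib Ω r x).card = (fib Ω r y).card := by
    apply Finset.card_bij (fun z _ => φ z)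
    · intro z hz
      exact hφ.mapsTo hz
    · intro a ha b hb hab
      exact hφ.injOn ha hb hab
    · intro b hb
      obtain ⟨a, ha, hab⟩ := hφ.surjOn hb
      exact ⟨a, ha, hab⟩
  have hsum : ∑ z ∈ fib Ω r y, f z = ∑ z ∈ fib Ω r x, f (φ z) := by
    symm
    apply Finset.sum_bij (fun z _ => φ z)
    · intro z hz
      exact hφ.mapsTo hz
    · intro a ha b hb hab
      exact hφ.injOn ha hb hab
    · intro b hb
      obtain ⟨a, ha, hab⟩ := hφ.surjOn hb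
      exact ⟨a, ha, hab⟩
    · intro _ _
      rfl
  have hpos : (0 : ℝ) < ((fib Ω r x).card : ℝ) := by
    exact_mod_cast Finset.card_pos.mpr hx
  unfold cE
  rw [← hcard, hsum, ← sub_div, ← Finset.sum_sub_distrib, abs_div, abs_of_pos hpos,
    div_le_iff₀ hpos]
  calc |∑ z ∈ fib Ω r x, (f z - f (φ z))| ≤ ∑ z ∈ fib Ω r x, |f z - f (φ z)| :=
        Finset.abs_sum_le_sum_abs _ _
    _ ≤ ∑ _z ∈ fib Ω r x, L := Finset.sum_le_sum h
    _ = L * ((fib Ω r x).card : ℝ) := by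
        rw [Finset.sum_const, nsmul_eq_mul]
        ring
end Avg

/-- biregular relation lemma (cross-multiplied form) -/
theorem biregular {α γ : Type} [DecidableEq α] [DecidableEq γ] (X Y : Finset α) (S S' : α → Finset γ) (Φ Ψ : α → γ → α)
    (f : α → ℝ) (L : ℝ) (p q : ℕ) (hp : 0 < p)
    (hS : ∀ x ∈ X, (S x).card = q) (hS' : ∀ y ∈ Y, (S' y).card = p)
    (h1 : ∀ x ∈ X, ∀ l ∈ S x, Φ x l ∈ Y ∧ l ∈ S' (Φ x l) ∧ Ψ (Φ x l) l = x)
    (h2 : ∀ y ∈ Y, ∀ l ∈ S' y, Ψ y l ∈ X ∧ l ∈ S (Ψ y l) ∧ Φ (Ψ y l) l = y)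
    (hf : ∀ x ∈ X, ∀ l ∈ S x, |f x - f (Φ x l)| ≤ L) :
    |(X.card : ℝ) * ∑ y ∈ Y, f y - (Y.card : ℝ) * ∑ x ∈ X, f x| ≤ L * X.card * Y.card := by
  have key : ∀ g : α → ℝ, ∑ x ∈ X, ∑ l ∈ S x, g (Φ x l) = ∑ y ∈ Y, ∑ _l ∈ S' y, g y := by
    intro g
    rw [Finset.sum_sigma', Finset.sum_sigma']
    apply Finset.sum_bij' (fun (a : Σ _ : α, γ) _ => (⟨Φ a.1 a.2, a.2⟩ : Σ _ : α, γ))
      (fun (a : Σ _ : α, γ) _ => (⟨Ψ a.1 a.2, a.2⟩ : Σ _ : α, γ))
    · rintro ⟨x, l⟩ ha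
      rw [Finset.mem_sigma] at ha ⊢
      exact ⟨(h1 x ha.1 l ha.2).1, (h1 x ha.1 l ha.2).2.1⟩
    · rintro ⟨y, l⟩ ha
      rw [Finset.mem_sigma] at ha ⊢
      exact ⟨(h2 y ha.1 l ha.2).1, (h2 y ha.1 l ha.2).2.1⟩
    · rintro ⟨x, l⟩ ha
      rw [Finset.mem_sigma] at ha
      simp only
      rw [(h1 x ha.1 l ha.2).2.2]
    · rintro ⟨y, l⟩ ha
      rw [Finset.mem_sigma] at ha
      simp only
      rw [(h2 y ha.1 l ha.2).2.2]
    · rintro ⟨x, l⟩ _
      rfl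
  have hY : ∀ g : α → ℝ, ∑ y ∈ Y, ∑ _l ∈ S' y, g y = (p : ℝ) * ∑ y ∈ Y, g y := by
    intro g
    rw [Finset.mul_sum]
    apply Finset.sum_congr rfl
    intro y hy
    rw [Finset.sum_const, hS' y hy, nsmul_eq_mul]
  have hX : ∀ g : α → ℝ, ∑ x ∈ X, ∑ _l ∈ S x, g x = (q : ℝ) * ∑ x ∈ X, g x := by
    intro g
    rw [Finset.mul_sum]
    apply Finset.sum_congr rfl
    intro x hx
    rw [Finset.sum_const, hS x hx, nsmul_eq_mul]
  have hcount : (q : ℝ) * X.card = (p : ℝ) * Y.card := by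
    have a1 := key (fun _ => 1)
    rw [hY, hX] at a1
    simpa using a1
  have hdiff : ∑ x ∈ X, ∑ l ∈ S x, (f x - f (Φ x l)) =
      (q : ℝ) * ∑ x ∈ X, f x - (p : ℝ) * ∑ y ∈ Y, f y := by
    rw [← hX f, ← hY f, ← key f, ← Finset.sum_sub_distrib]
    apply Finset.sum_congr rfl
    intro x _
    rw [Finset.sum_sub_distrib]
  have hbound : |(q : ℝ) * ∑ x ∈ X, f x - (p : ℝ) * ∑ y ∈ Y, f y| ≤ L * ((q : ℝ) * X.card) := by
    rw [← hdiff]
    calc |∑ x ∈ X, ∑ l ∈ S x, (f x - f (Φ x l))| ≤ ∑ x ∈ X, |∑ l ∈ S x, (f x - f (Φ x l))| :=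
          Finset.abs_sum_le_sum_abs _ _
      _ ≤ ∑ x ∈ X, ∑ l ∈ S x, |f x - f (Φ x l)| :=
          Finset.sum_le_sum (fun x _ => Finset.abs_sum_le_sum_abs _ _)
      _ ≤ ∑ x ∈ X, ∑ _l ∈ S x, L :=
          Finset.sum_le_sum (fun x hx => Finset.sum_le_sum (fun l hl => hf x hx l hl))
      _ = L * ((q : ℝ) * X.card) := by
          rw [hX (fun _ => L)]
          simp
          ring
  have hpp : (0 : ℝ) < (p : ℝ) := by exact_mod_cast hp
  have hid : (p : ℝ) * ((X.card : ℝ) * ∑ y ∈ Y, f y - (Y.card : ℝ) * ∑ x ∈ X, f x) =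
      -((X.card : ℝ) * ((q : ℝ) * ∑ x ∈ X, f x - (p : ℝ) * ∑ y ∈ Y, f y)) := by
    have : (p : ℝ) * (Y.card : ℝ) * ∑ x ∈ X, f x = (q : ℝ) * X.card * ∑ x ∈ X, f x := by
      rw [hcount]
    linarith [this]
  have habs : (p : ℝ) * |(X.card : ℝ) * ∑ y ∈ Y, f y - (Y.card : ℝ) * ∑ x ∈ X, f x| ≤
      (p : ℝ) * (L * X.card * Y.card) := by
    rw [← abs_of_pos hpp, ← abs_mul, abs_of_pos hpp, hid, abs_neg, abs_mul,
      abs_of_nonneg (Nat.cast_nonneg _)]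
    calc (X.card : ℝ) * |(q : ℝ) * ∑ x ∈ X, f x - (p : ℝ) * ∑ y ∈ Y, f y|
        ≤ (X.card : ℝ) * (L * ((q : ℝ) * X.card)) :=
          mul_le_mul_of_nonneg_left hbound (Nat.cast_nonneg _)
      _ = (p : ℝ) * (L * X.card * Y.card) := by
          rw [hcount]
          ring
  exact le_of_mul_le_mul_left habs hpp

end Vale.Agent.Lib.P335
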