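import Vale.Agent.Lib.P335.Defs

namespace Vale.Agent.Lib.P335
open Finset

section Model
variable {ι κ : Type} [Fintype ι] [DecidableEq ι] [Fintype κ] [DecidableEq κ]

/-! T4 : basics on colSwap -/
theorem rel_equiv (R : Finset ι) : Equivalence (rel (κ := κ) R) where
  refl := fun _ _ _ => rfl
  symm := fun h i hi => (h i hi).symm
  trans := fun h1 h2 i hi => (h2 i hi).trans (h1 i hi)

theorem colSum_eq_pSum_add (R : Finset ι) (x : Mat ι κ) (j : κ) :
    colSum x j = pSum R x j + ∑ i ∈ univ.filter (fun i => i ∉ R), (x i j).toNat := by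
  unfold colSum pSum
  rw [← Finset.sum_filter_add_sum_filter_not univ (fun i => i ∈ R)]
  congr 1
  apply Finset.sum_congr _ (fun _ _ => rfl)
  ext i
  simp

theorem colSwap_mem {r : ι → ℕ} {c : κ → ℕ} {x : Mat ι κ} (hx : x ∈ Om r c) (R : Finset ι) (j j' : κ)
    (h : pSum R x j = pSum R x j') : colSwap R (Equiv.swap j j') x ∈ Om r c := by
  simp only [Om, mem_filter, mem_univ, true_and] at hx ⊢
  obtain ⟨hr, hc⟩ := hx
  constructor
  · intro i
    rw [← hr i]
    unfold rowSum colSwap
    by_cases hi : i ∈ R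
    · simp only [hi, if_true]
      exact Equiv.sum_comp (Equiv.swap j j') (fun k => (x i k).toNat)
    · simp only [hi, if_false]
  · intro k
    rw [← hc k, colSum_eq_pSum_add R, colSum_eq_pSum_add R x]
    congr 1
    · unfold pSum colSwap
      have e1 : ∑ i ∈ R, (if i ∈ R then x i (Equiv.swap j j' k) else x i k).toNat
          = ∑ i ∈ R, (x i (Equiv.swap j j' k)).toNat :=
        Finset.sum_congr rfl (fun i hi => by simp [hi])
      rw [e1]
      by_cases hk : k = j
      · subst hk
        rw [Equiv.swap_apply_left]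
        exact h.symm
      · by_cases hk' : k = j'
        · subst hk'
          rw [Equiv.swap_apply_right]
          exact h
        · rw [Equiv.swap_apply_of_ne_of_ne hk hk']
    · apply Finset.sum_congr rfl
      intro i hi
      simp only [mem_filter, mem_univ, true_and] at hi
      simp [colSwap, hi]

theorem colSwap_invol (R : Finset ι) (j j' : κ) (x : Mat ι κ) :
    colSwap R (Equiv.swap j j') (colSwap R (Equiv.swap j j') x) = x := by
  funext i k
  unfold colSwap
  by_cases hi : i ∈ R
  · simp [hi]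
  · simp [hi]

theorem colSwap_rel (R : Finset ι) (σ : Equiv.Perm κ) (x : Mat ι κ) : rel R x (colSwap R σ x) := by
  intro i hi
  funext k
  simp [colSwap, hi]

theorem colSwap_mul (R : Finset ι) (σ τ : Equiv.Perm κ) (x : Mat ι κ) :
    colSwap R τ (colSwap R σ x) = colSwap R (σ * τ) x := by
  funext i k
  unfold colSwap
  by_cases hi : i ∈ R
  · simp [hi]
  · simp [hi]

theorem pSum_eq_of_rel {r : ι → ℕ} {c : κ → ℕ} {x y : Mat ι κ} (hx : x ∈ Om r c) (hy : y ∈ Om r c) {R : Finset ι}
    (h : rel R x y) (j : κ) : pSum R y j = pSum R x j := by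
  simp only [Om, mem_filter, mem_univ, true_and] at hx hy
  have h1 := hx.2 j
  have h2 := hy.2 j
  rw [colSum_eq_pSum_add R] at h1 h2
  have h3 : ∑ i ∈ univ.filter (fun i => i ∉ R), (y i j).toNat
      = ∑ i ∈ univ.filter (fun i => i ∉ R), (x i j).toNat := by
    apply Finset.sum_congr rfl
    intro i hi
    simp only [mem_filter, mem_univ, true_and] at hi
    rw [h i hi]
  omega

theorem chk_mem {r : ι → ℕ} {c : κ → ℕ} {x : Mat ι κ} (hx : x ∈ Om r c) {a b : ι} {j j' : κ} (h : Chk x a b j j') :
    colSwap {a, b} (Equiv.swap j j') x ∈ Om r c := by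
  apply colSwap_mem hx
  obtain ⟨h1, h2, h3, h4⟩ := h
  have hab : a ≠ b := by
    rintro rfl
    rw [h1] at h2
    exact absurd h2 (by simp)
  unfold pSum
  rw [Finset.sum_pair hab, Finset.sum_pair hab, h1, h2, h3, h4]
  simp

end Model

end Vale.Agent.Lib.P335
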