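import Vale.Agent.Lib.P335.Basic

namespace Vale.Agent.Lib.P335
open Finset

section Model
variable {ι κ : Type} [Fintype ι] [DecidableEq ι] [Fintype κ] [DecidableEq κ]

/-- rows of `R` taken from `y`, all other rows from `z` -/
def mrg (R : Finset ι) (y z : Mat ι κ) : Mat ι κ := fun i => if i ∈ R then y i else z i

theorem cm_colSum_mrg (R : Finset ι) (y z : Mat ι κ) (j : κ) (h : pSum R y j = pSum R z j) :
    colSum (mrg R y z) j = colSum z j := by
  unfold colSum
  rw [← Finset.sum_add_sum_compl R, ← Finset.sum_add_sum_compl R (fun i => (z i j).toNat)]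
  have h1 : ∑ i ∈ R, (mrg R y z i j).toNat = pSum R y j := by
    unfold pSum
    apply Finset.sum_congr rfl
    intro i hi
    simp [mrg, hi]
  have h2 : ∑ i ∈ Rᶜ, (mrg R y z i j).toNat = ∑ i ∈ Rᶜ, (z i j).toNat := by
    apply Finset.sum_congr rfl
    intro i hi
    have : i ∉ R := Finset.mem_compl.mp hi
    simp [mrg, this]
  rw [h1, h2, h]
  rfl

theorem cm_mrg_mem {r : ι → ℕ} {c : κ → ℕ} {R R' : Finset ι} (hd : Disjoint R R')
    {x y z : Mat ι κ} (hx : x ∈ Om r c) (hy : y ∈ Om r c) (hxy : rel R x y)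
    (hz : z ∈ fib (Om r c) (rel R') x) : mrg R y z ∈ fib (Om r c) (rel R') y := by
  obtain ⟨hzO, hxz⟩ := Finset.mem_filter.mp hz
  have hzR : ∀ i ∈ R, z i = x i := fun i hi => hxz i (Finset.disjoint_left.mp hd hi)
  unfold fib
  rw [Finset.mem_filter]
  constructor
  · unfold Om
    rw [Finset.mem_filter]
    refine ⟨Finset.mem_univ _, ?_, ?_⟩
    · intro i
      by_cases hi : i ∈ R
      · have : rowSum (mrg R y z) i = rowSum y i := by simp [rowSum, mrg, hi]
        rw [this]; exact (Finset.mem_filter.mp hy).2.1 i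
      · have : rowSum (mrg R y z) i = rowSum z i := by simp [rowSum, mrg, hi]
        rw [this]; exact (Finset.mem_filter.mp hzO).2.1 i
    · intro j
      rw [cm_colSum_mrg]
      · exact (Finset.mem_filter.mp hzO).2.2 j
      · rw [pSum_eq_of_rel hx hy hxy j]
        unfold pSum
        apply Finset.sum_congr rfl
        intro i hi
        rw [hzR i hi]
  · intro i hi
    by_cases hiR : i ∈ R
    · simp [mrg, hiR]
    · simp only [mrg, hiR, if_false]
      rw [hxz i hi, hxy i hiR]

theorem cm_sum {r : ι → ℕ} {c : κ → ℕ} {R R' : Finset ι} (hd : Disjoint R R')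
    {x y : Mat ι κ} (hx : x ∈ Om r c) (hy : y ∈ fib (Om r c) (rel R) x) (g : Mat ι κ → ℝ) :
    ∑ u ∈ fib (Om r c) (rel R') y, g u = ∑ z ∈ fib (Om r c) (rel R') x, g (mrg R y z) := by
  obtain ⟨hyO, hxy⟩ := Finset.mem_filter.mp hy
  have hyx : rel R y x := (rel_equiv R).symm hxy
  symm
  apply Finset.sum_bij' (fun z _ => mrg R y z) (fun u _ => mrg R x u)
  · intro z hz
    exact cm_mrg_mem hd hx hyO hxy hz
  · intro u hu
    exact cm_mrg_mem hd hyO hx hyx hu
  · intro z hz
    obtain ⟨hzO, hxz⟩ := Finset.mem_filter.mp hz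
    funext i
    by_cases hi : i ∈ R
    · simp only [mrg, hi, if_true]
      exact (hxz i (Finset.disjoint_left.mp hd hi)).symm
    · simp [mrg, hi]
  · intro u hu
    obtain ⟨huO, hyu⟩ := Finset.mem_filter.mp hu
    funext i
    by_cases hi : i ∈ R
    · simp only [mrg, hi, if_true]
      exact (hyu i (Finset.disjoint_left.mp hd hi)).symm
    · simp [mrg, hi]
  · intro z hz
    rfl

theorem cm_card {r : ι → ℕ} {c : κ → ℕ} {R R' : Finset ι} (hd : Disjoint R R')
    {x y : Mat ι κ} (hx : x ∈ Om r c) (hy : y ∈ fib (Om r c) (rel R) x) :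
    ((fib (Om r c) (rel R') y).card : ℝ) = ((fib (Om r c) (rel R') x).card : ℝ) := by
  have h := cm_sum (R' := R') hd hx hy (fun _ => (1 : ℝ))
  simpa using h

/-! T6 : commutation -/
theorem avg_comm (r : ι → ℕ) (c : κ → ℕ) (R R' : Finset ι) (hd : Disjoint R R') (f : Mat ι κ → ℝ)
    (x : Mat ι κ) (hx : x ∈ Om r c) :
    avg (Om r c) R (avg (Om r c) R' f) x = avg (Om r c) R' (avg (Om r c) R f) x := by
  unfold avg cE
  have hL : ∑ y ∈ fib (Om r c) (rel R) x,
      (∑ u ∈ fib (Om r c) (rel R') y, f u) / ((fib (Om r c) (rel R') y).card : ℝ) =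
      ∑ y ∈ fib (Om r c) (rel R) x,
      (∑ z ∈ fib (Om r c) (rel R') x, f (mrg R y z)) / ((fib (Om r c) (rel R') x).card : ℝ) := by
    apply Finset.sum_congr rfl
    intro y hy
    rw [cm_sum hd hx hy f, cm_card hd hx hy]
  have hR : ∑ z ∈ fib (Om r c) (rel R') x,
      (∑ u ∈ fib (Om r c) (rel R) z, f u) / ((fib (Om r c) (rel R) z).card : ℝ) =
      ∑ z ∈ fib (Om r c) (rel R') x,
      (∑ y ∈ fib (Om r c) (rel R) x, f (mrg R y z)) / ((fib (Om r c) (rel R) x).card : ℝ) := by
    apply Finset.sum_congr rfl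
    intro z hz
    rw [cm_sum hd.symm hx hz f, cm_card hd.symm hx hz]
    congr 1
    apply Finset.sum_congr rfl
    intro y hy
    congr 1
    obtain ⟨hzO, hxz⟩ := Finset.mem_filter.mp hz
    obtain ⟨hyO, hxy⟩ := Finset.mem_filter.mp hy
    funext i
    by_cases hi : i ∈ R
    · have hi' : i ∉ R' := Finset.disjoint_left.mp hd hi
      simp [mrg, hi, hi']
    · by_cases hi' : i ∈ R'
      · simp [mrg, hi, hi']
      · simp only [mrg, hi, hi', if_false]
        rw [hxy i hi, hxz i hi']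
  rw [hL, hR, ← Finset.sum_div, ← Finset.sum_div, Finset.sum_comm, div_div, div_div, mul_comm]

end Model

end Vale.Agent.Lib.P335
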