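import Vale.Agent.Lib.P335.Basic

namespace Vale.Agent.Lib.P335
open Finset

section Model
variable {ι κ : Type} [Fintype ι] [DecidableEq ι] [Fintype κ] [DecidableEq κ]

/-! T5 : connectivity -/

theorem conn_exists_tf (u v : κ → Bool) (hs : ∑ j, (u j).toNat = ∑ j, (v j).toNat)
    (hne : u ≠ v) : ∃ j, u j = true ∧ v j = false := by
  by_contra h
  apply hne
  have hle : ∀ j ∈ (univ : Finset κ), (u j).toNat ≤ (v j).toNat := by
    intro j _
    by_contra hlt
    apply h
    refine ⟨j, ?_, ?_⟩
    · cases hu : u j
      · simp [hu] at hlt
      · rfl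
    · cases hv : v j
      · rfl
      · exfalso
        apply hlt
        rw [hv]
        cases u j <;> simp
  have heq := (Finset.sum_eq_sum_iff_of_le hle).mp hs
  funext j
  have := heq j (mem_univ j)
  cases hu : u j <;> cases hv : v j <;> simp [hu, hv] at this ⊢

theorem conn_colSwap_mem {R : Finset ι} {σ : Equiv.Perm κ} {x : Mat ι κ} {i : ι} (hi : i ∈ R)
    (k : κ) : colSwap R σ x i k = x i (σ k) := by
  simp [colSwap, hi]

theorem conn_colSwap_notMem {R : Finset ι} {σ : Equiv.Perm κ} {x : Mat ι κ} {i : ι}
    (hi : i ∉ R) : colSwap R σ x i = x i := by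
  funext k
  simp [colSwap, hi]

/-- the counting dichotomy -/
theorem conn_dichotomy {r : ι → ℕ} {c : κ → ℕ} {R : Finset ι} {x y : Mat ι κ}
    (hx : x ∈ Om r c) (hy : y ∈ Om r c) (hrel : rel R x y) {a : ι} (ha : a ∈ R) {j j2 : κ}
    (h1 : x a j = true) (h2 : y a j = false) (h3 : x a j2 = false) (h4 : y a j2 = true) :
    (∃ b ∈ R, x b j = false ∧ x b j2 = true) ∨ (∃ b ∈ R, y b j = true ∧ y b j2 = false) := by
  by_contra hcon
  rw [not_or] at hcon
  obtain ⟨hA, hB⟩ := hcon
  have e1 := pSum_eq_of_rel hx hy hrel j
  have e2 := pSum_eq_of_rel hx hy hrel j2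
  unfold pSum at e1 e2
  rw [← Finset.add_sum_erase R _ ha, ← Finset.add_sum_erase R (fun i => (x i j).toNat) ha] at e1
  rw [← Finset.add_sum_erase R _ ha, ← Finset.add_sum_erase R (fun i => (x i j2).toNat) ha] at e2
  simp only [h1, h2, h3, h4] at e1 e2
  have l1 : ∑ b ∈ R.erase a, (x b j2).toNat ≤ ∑ b ∈ R.erase a, (x b j).toNat := by
    apply Finset.sum_le_sum
    intro b hb
    have hbR := Finset.mem_of_mem_erase hb
    by_contra hlt
    apply hA
    refine ⟨b, hbR, ?_, ?_⟩
    · cases hu : x b j
      · rfl
      · exfalso
        apply hlt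
        rw [hu]
        cases x b j2 <;> simp
    · cases hu : x b j2
      · simp [hu] at hlt
      · rfl
  have l2 : ∑ b ∈ R.erase a, (y b j).toNat ≤ ∑ b ∈ R.erase a, (y b j2).toNat := by
    apply Finset.sum_le_sum
    intro b hb
    have hbR := Finset.mem_of_mem_erase hb
    by_contra hlt
    apply hB
    refine ⟨b, hbR, ?_, ?_⟩
    · cases hu : y b j
      · simp [hu] at hlt
      · rfl
    · cases hu : y b j2
      · rfl
      · exfalso
        apply hlt
        rw [hu]
        cases y b j <;> simp
  simp only [Bool.toNat_true, Bool.toNat_false] at e1 e2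
  omega

theorem conn_fix_row (r : ι → ℕ) (c : κ → ℕ) (R : Finset ι) (f : Mat ι κ → ℝ)
    (hf : ∀ x ∈ Om r c, ∀ a ∈ R, ∀ b ∈ R, ∀ j j', Chk x a b j j' →
      f (colSwap {a, b} (Equiv.swap j j') x) = f x) {a : ι} (ha : a ∈ R) :
    ∀ (d : ℕ) (x y : Mat ι κ), x ∈ Om r c → y ∈ Om r c → rel R x y →
      (univ.filter fun k => x a k ≠ y a k).card ≤ d →
      ∃ x' y', x' ∈ Om r c ∧ y' ∈ Om r c ∧ f x' = f x ∧ f y' = f y ∧ rel (R.erase a) x' y' := by
  intro d
  induction d with
  | zero =>
    intro x y hx hy hrel hd
    refine ⟨x, y, hx, hy, rfl, rfl, ?_⟩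
    intro i hi
    by_cases hia : i = a
    · subst hia
      funext k
      by_contra hne
      have : k ∈ univ.filter fun k => x i k ≠ y i k := by
        simp only [mem_filter, mem_univ, true_and]
        exact fun h => hne h.symm
      have hpos := Finset.card_pos.mpr ⟨k, this⟩
      omega
    · apply hrel i
      intro hiR
      exact hi (Finset.mem_erase.mpr ⟨hia, hiR⟩)
  | succ d ih =>
    intro x y hx hy hrel hd
    by_cases hrow : x a = y a
    · refine ⟨x, y, hx, hy, rfl, rfl, ?_⟩
      intro i hi
      by_cases hia : i = a
      · subst hia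
        exact hrow.symm
      · apply hrel i
        intro hiR
        exact hi (Finset.mem_erase.mpr ⟨hia, hiR⟩)
    · have hxs := (mem_filter.mp hx).2.1 a
      have hys := (mem_filter.mp hy).2.1 a
      have hs : ∑ k, (x a k).toNat = ∑ k, (y a k).toNat := by
        unfold rowSum at hxs hys
        rw [hxs, hys]
      obtain ⟨j, h1, h2⟩ := conn_exists_tf (x a) (y a) hs hrow
      obtain ⟨j2, h4, h3⟩ := conn_exists_tf (y a) (x a) hs.symm (fun h => hrow h.symm)
      have hjj : j ≠ j2 := by
        intro h
        rw [h, h3] at h1
        exact absurd h1 (by simp)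
      rcases conn_dichotomy hx hy hrel ha h1 h2 h3 h4 with ⟨b, hb, hb1, hb2⟩ | ⟨b, hb, hb1, hb2⟩
      · -- switch x
        have hchk : Chk x a b j j2 := ⟨h1, hb1, h3, hb2⟩
        set x' := colSwap {a, b} (Equiv.swap j j2) x with hx'
        have hx'm : x' ∈ Om r c := chk_mem hx hchk
        have hfx : f x' = f x := hf x hx a ha b hb j j2 hchk
        have hrel' : rel R x' y := by
          intro i hi
          have : i ∉ ({a, b} : Finset ι) := by
            intro h
            rw [mem_insert, mem_singleton] at h
            rcases h with h | h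
            · exact hi (h ▸ ha)
            · exact hi (h ▸ hb)
          rw [hx', conn_colSwap_notMem this]
          exact hrel i hi
        have hcard : (univ.filter fun k => x' a k ≠ y a k).card ≤ d := by
          have hsub : (univ.filter fun k => x' a k ≠ y a k) ⊆
              (univ.filter fun k => x a k ≠ y a k).erase j := by
            intro k hk
            simp only [mem_filter, mem_univ, true_and] at hk
            rw [hx', conn_colSwap_mem (by simp)] at hk
            rw [mem_erase]
            by_cases hkj : k = j
            · exfalso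
              subst hkj
              rw [Equiv.swap_apply_left, h3, h2] at hk
              exact hk rfl
            · refine ⟨hkj, ?_⟩
              simp only [mem_filter, mem_univ, true_and]
              by_cases hkj2 : k = j2
              · exfalso
                subst hkj2
                rw [Equiv.swap_apply_right, h1, h4] at hk
                exact hk rfl
              · rw [Equiv.swap_apply_of_ne_of_ne hkj hkj2] at hk
                exact hk
          have hjmem : j ∈ univ.filter fun k => x a k ≠ y a k := by
            simp only [mem_filter, mem_univ, true_and]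
            rw [h1, h2]
            simp
          have := Finset.card_le_card hsub
          rw [Finset.card_erase_of_mem hjmem] at this
          omega
        obtain ⟨x'', y'', m1, m2, e1, e2, hr⟩ := ih x' y hx'm hy hrel' hcard
        exact ⟨x'', y'', m1, m2, e1.trans hfx, e2, hr⟩
      · -- switch y
        have hchk : Chk y b a j j2 := ⟨hb1, h2, hb2, h4⟩
        set y' := colSwap {b, a} (Equiv.swap j j2) y with hy'
        have hy'm : y' ∈ Om r c := chk_mem hy hchk
        have hfy : f y' = f y := hf y hy b hb a ha j j2 hchk
        have hrel' : rel R x y' := by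
          intro i hi
          have : i ∉ ({b, a} : Finset ι) := by
            intro h
            rw [mem_insert, mem_singleton] at h
            rcases h with h | h
            · exact hi (h ▸ hb)
            · exact hi (h ▸ ha)
          rw [hy', conn_colSwap_notMem this]
          exact hrel i hi
        have hcard : (univ.filter fun k => x a k ≠ y' a k).card ≤ d := by
          have hsub : (univ.filter fun k => x a k ≠ y' a k) ⊆
              (univ.filter fun k => x a k ≠ y a k).erase j := by
            intro k hk
            simp only [mem_filter, mem_univ, true_and] at hk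
            rw [hy', conn_colSwap_mem (by simp)] at hk
            rw [mem_erase]
            by_cases hkj : k = j
            · exfalso
              subst hkj
              rw [Equiv.swap_apply_left, h1, h4] at hk
              exact hk rfl
            · refine ⟨hkj, ?_⟩
              simp only [mem_filter, mem_univ, true_and]
              by_cases hkj2 : k = j2
              · exfalso
                subst hkj2
                rw [Equiv.swap_apply_right, h3, h2] at hk
                exact hk rfl
              · rw [Equiv.swap_apply_of_ne_of_ne hkj hkj2] at hk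
                exact hk
          have hjmem : j ∈ univ.filter fun k => x a k ≠ y a k := by
            simp only [mem_filter, mem_univ, true_and]
            rw [h1, h2]
            simp
          have := Finset.card_le_card hsub
          rw [Finset.card_erase_of_mem hjmem] at this
          omega
        obtain ⟨x'', y'', m1, m2, e1, e2, hr⟩ := ih x y' hx hy'm hrel' hcard
        exact ⟨x'', y'', m1, m2, e1, e2.trans hfy, hr⟩

theorem conn_aux (r : ι → ℕ) (c : κ → ℕ) (f : Mat ι κ → ℝ) :
    ∀ (n : ℕ) (R : Finset ι), R.card = n →
    (∀ x ∈ Om r c, ∀ a ∈ R, ∀ b ∈ R, ∀ j j', Chk x a b j j' →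
      f (colSwap {a, b} (Equiv.swap j j') x) = f x) →
    ∀ x ∈ Om r c, ∀ y ∈ Om r c, rel R x y → f y = f x := by
  intro n
  induction n with
  | zero =>
    intro R hR _ x _ y _ hrel
    have : R = ∅ := Finset.card_eq_zero.mp hR
    subst this
    have : y = x := by
      funext i
      exact hrel i (by simp)
    rw [this]
  | succ n ih =>
    intro R hR hf x hx y hy hrel
    have hne : R.Nonempty := by
      rw [← Finset.card_pos]
      omega
    obtain ⟨a, ha⟩ := hne
    obtain ⟨x', y', m1, m2, e1, e2, hr⟩ :=
      conn_fix_row r c R f hf ha _ x y hx hy hrel (le_refl _)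
    have hcard : (R.erase a).card = n := by
      rw [Finset.card_erase_of_mem ha]
      omega
    have := ih (R.erase a) hcard
      (fun z hz p hp q hq j j' h =>
        hf z hz p (Finset.mem_of_mem_erase hp) q (Finset.mem_of_mem_erase hq) j j' h)
      x' m1 y' m2 hr
    rw [← e1, ← e2, this]

theorem conn (r : ι → ℕ) (c : κ → ℕ) (R : Finset ι) (f : Mat ι κ → ℝ)
    (hf : ∀ x ∈ Om r c, ∀ a ∈ R, ∀ b ∈ R, ∀ j j', Chk x a b j j' →
      f (colSwap {a, b} (Equiv.swap j j') x) = f x) :
    ∀ x ∈ Om r c, ∀ y ∈ Om r c, rel R x y → f y = f x :=
  conn_aux r c f R.card R rfl hf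

end Model

end Vale.Agent.Lib.P335
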