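import Mathlib

/-!
# P335: matrix model (bipartite graphs with given degrees), averaging operators

States are 0/1 matrices `x : ι → κ → Bool` with prescribed row sums `r` and column sums `c`.
-/

namespace Vale.Agent.Lib.P335

open Finset

section Abstract

variable {α : Type} [DecidableEq α]

/-- the class of `x` inside `Ω` for the relation `r` -/
def fib (Ω : Finset α) (r : α → α → Prop) [DecidableRel r] (x : α) : Finset α :=
  Ω.filter fun y => r x y

/-- averaging over classes (conditional expectation for the uniform measure on `Ω`) -/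
noncomputable def cE (Ω : Finset α) (r : α → α → Prop) [DecidableRel r] (f : α → ℝ) (x : α) : ℝ :=
  (∑ y ∈ fib Ω r x, f y) / ((fib Ω r x).card : ℝ)

end Abstract

section Model

variable {ι κ : Type} [Fintype ι] [DecidableEq ι] [Fintype κ] [DecidableEq κ]

/-- 0/1 matrices -/
abbrev Mat (ι κ : Type) := ι → κ → Bool

def rowSum (x : Mat ι κ) (i : ι) : ℕ := ∑ j, (x i j).toNat

def colSum (x : Mat ι κ) (j : κ) : ℕ := ∑ i, (x i j).toNat

/-- all 0/1 matrices with row sums `r` and column sums `c` -/
def Om (r : ι → ℕ) (c : κ → ℕ) : Finset (Mat ι κ) :=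
  univ.filter fun x => (∀ i, rowSum x i = r i) ∧ ∀ j, colSum x j = c j

/-- permute the columns by `σ`, but only inside the rows of `R` -/
def colSwap (R : Finset ι) (σ : Equiv.Perm κ) (x : Mat ι κ) : Mat ι κ :=
  fun i j => if i ∈ R then x i (σ j) else x i j

/-- `y` agrees with `x` on all rows outside `R` -/
def rel (R : Finset ι) (x y : Mat ι κ) : Prop := ∀ i, i ∉ R → y i = x i

instance relDecidable (R : Finset ι) : DecidableRel (rel (κ := κ) R) :=
  fun x y => inferInstanceAs (Decidable (∀ i, i ∉ R → y i = x i))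

/-- resample the rows of `R` (all other rows kept): average over the class -/
noncomputable def avg (Ω : Finset (Mat ι κ)) (R : Finset ι) (f : Mat ι κ → ℝ) (x : Mat ι κ) : ℝ :=
  cE Ω (rel R) f x

/-- checkerboard in rows `a b`, columns `j j'` -/
def Chk (x : Mat ι κ) (a b : ι) (j j' : κ) : Prop :=
  x a j = true ∧ x b j = false ∧ x a j' = false ∧ x b j' = true

instance chkDecidable (x : Mat ι κ) (a b : ι) (j j' : κ) : Decidable (Chk x a b j j') :=
  inferInstanceAs (Decidable (_ ∧ _ ∧ _ ∧ _))

/-- in the three rows `a b e`: column `w` is `(1,0,0)` and column `w'` is `(0,1,1)` -/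
def Neu (x : Mat ι κ) (a b e : ι) (w w' : κ) : Prop :=
  x a w = true ∧ x b w = false ∧ x e w = false ∧ x a w' = false ∧ x b w' = true ∧ x e w' = true

instance neuDecidable (x : Mat ι κ) (a b e : ι) (w w' : κ) : Decidable (Neu x a b e w w') :=
  inferInstanceAs (Decidable (_ ∧ _ ∧ _ ∧ _ ∧ _ ∧ _))

/-- sum of the entries of column `j` in the rows of `R` -/
def pSum (R : Finset ι) (x : Mat ι κ) (j : κ) : ℕ := ∑ i ∈ R, (x i j).toNat

end Model

end Vale.Agent.Lib.P335
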