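import Vale.Agent.Lib.P335.GraphDefs

namespace Vale.Agent.Lib.P335
open Finset
open scoped Classical

/-! G4 : elementary properties of the transition matrix -/

/-- `(a, b, c, d)` witnesses the switch from `G` to `H` -/
def Wit {n : ℕ} (G H : SimpleGraph (Fin n)) (a b c d : Fin n) : Prop :=
  a ≠ b ∧ a ≠ c ∧ a ≠ d ∧ b ≠ c ∧ b ≠ d ∧ c ≠ d ∧
    G.Adj a b ∧ G.Adj c d ∧ ¬ G.Adj a c ∧ ¬ G.Adj b d ∧
    ∀ u v, H.Adj u v ↔
      (G.Adj u v ∧ s(u, v) ≠ s(a, b) ∧ s(u, v) ≠ s(c, d)) ∨ s(u, v) = s(a, c) ∨ s(u, v) = s(b, d)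

theorem isSwitch_iff_wit {n : ℕ} {G H : SimpleGraph (Fin n)} :
    IsSwitch G H ↔ ∃ a b c d, Wit G H a b c d := Iff.rfl

theorem adj_of_sym2_eq {n : ℕ} (G : SimpleGraph (Fin n)) {u v a b : Fin n}
    (h : s(u, v) = s(a, b)) : G.Adj u v ↔ G.Adj a b := by
  rw [← SimpleGraph.mem_edgeSet, ← SimpleGraph.mem_edgeSet, h]

theorem Wit.symm1 {n : ℕ} {G H : SimpleGraph (Fin n)} {a b c d : Fin n} (h : Wit G H a b c d) :
    Wit G H b a d c := by
  obtain ⟨h1, h2, h3, h4, h5, h6, g1, g2, g3, g4, hiff⟩ := h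
  refine ⟨h1.symm, h5, h4, h3, h2, h6.symm, g1.symm, g2.symm, g4, g3, ?_⟩
  intro u v
  rw [hiff u v, Sym2.eq_swap (a := b) (b := a), Sym2.eq_swap (a := d) (b := c)]
  tauto

theorem Wit.symm2 {n : ℕ} {G H : SimpleGraph (Fin n)} {a b c d : Fin n} (h : Wit G H a b c d) :
    Wit G H c d a b := by
  obtain ⟨h1, h2, h3, h4, h5, h6, g1, g2, g3, g4, hiff⟩ := h
  refine ⟨h6, h2.symm, h4.symm, h3.symm, h5.symm, h1, g2, g1, fun h => g3 h.symm,
    fun h => g4 h.symm, ?_⟩
  intro u v
  rw [hiff u v, Sym2.eq_swap (a := c) (b := a), Sym2.eq_swap (a := d) (b := b)]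
  tauto

theorem Wit.unique {n : ℕ} {G H H' : SimpleGraph (Fin n)} {a b c d : Fin n}
    (h : Wit G H a b c d) (h' : Wit G H' a b c d) : H = H' := by
  ext u v
  rw [h.2.2.2.2.2.2.2.2.2.2 u v, h'.2.2.2.2.2.2.2.2.2.2 u v]

theorem Wit.not_adj {n : ℕ} {G H : SimpleGraph (Fin n)} {a b c d : Fin n}
    (h : Wit G H a b c d) : ¬ H.Adj a b := by
  obtain ⟨h1, h2, h3, h4, h5, h6, g1, g2, g3, g4, hiff⟩ := h
  rw [hiff a b]
  simp only [Sym2.eq_iff]
  tauto

theorem isSwitch_symm {n : ℕ} {G H : SimpleGraph (Fin n)} (h : IsSwitch G H) : IsSwitch H G := by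
  obtain ⟨a, b, c, d, hw⟩ := h
  have hw' : Wit G H a b c d := hw
  have n1 : ¬ H.Adj a b := hw'.not_adj
  have n2 : ¬ H.Adj c d := hw'.symm2.not_adj
  obtain ⟨h1, h2, h3, h4, h5, h6, g1, g2, g3, g4, hiff⟩ := hw
  refine ⟨a, c, b, d, h2, h1, h3, h4.symm, h6, h5, ?_, ?_, n1, n2, ?_⟩
  · rw [hiff]; tauto
  · rw [hiff]; tauto
  · intro u v
    have e1 : s(u, v) = s(a, b) → G.Adj u v := fun h => (adj_of_sym2_eq G h).mpr g1
    have e2 : s(u, v) = s(c, d) → G.Adj u v := fun h => (adj_of_sym2_eq G h).mpr g2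
    have e3 : s(u, v) = s(a, c) → ¬ G.Adj u v := fun h h' => g3 ((adj_of_sym2_eq G h).mp h')
    have e4 : s(u, v) = s(b, d) → ¬ G.Adj u v := fun h h' => g4 ((adj_of_sym2_eq G h).mp h')
    rw [hiff u v]
    tauto

theorem isSwitch_ne {n : ℕ} {G H : SimpleGraph (Fin n)} (h : IsSwitch G H) : G ≠ H := by
  obtain ⟨a, b, c, d, hw⟩ := h
  have hw' : Wit G H a b c d := hw
  rintro rfl
  exact hw'.not_adj hw'.2.2.2.2.2.2.1

/-- the Klein four group acting on positions -/
def V4 : Finset (Equiv.Perm (Fin 4)) :=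
  {1, Equiv.swap 0 1 * Equiv.swap 2 3, Equiv.swap 0 2 * Equiv.swap 1 3,
    Equiv.swap 0 3 * Equiv.swap 1 2}

theorem V4_card : V4.card = 4 := by decide

/-- at most `6 * C(n,4)` switches are available at a graph -/
theorem card_switch_le (n : ℕ) (d : Fin n → ℕ) (G : St n d) :
    (univ.filter fun K : St n d => IsSwitch G.1 K.1).card ≤ 6 * n.choose 4 := by
  set s := univ.filter fun K : St n d => IsSwitch G.1 K.1 with hs
  let r : St n d → (Fin 4 ↪ Fin n) → Prop := fun K e => Wit G.1 K.1 (e 0) (e 1) (e 2) (e 3)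
  have key : s.card * 4 ≤ (univ : Finset (Fin 4 ↪ Fin n)).card * 1 := by
    apply Finset.card_mul_le_card_mul r
    · intro K hK
      rw [hs, mem_filter] at hK
      obtain ⟨a, b, c, d', hw⟩ := hK.2
      have hw' : Wit G.1 K.1 a b c d' := hw
      obtain ⟨h1, h2, h3, h4, h5, h6, -⟩ := hw
      let e : Fin 4 ↪ Fin n := ⟨![a, b, c, d'], by
        intro i j hij
        fin_cases i <;> fin_cases j <;> simp_all⟩
      have hinj : Function.Injective (fun τ : Equiv.Perm (Fin 4) => τ.toEmbedding.trans e) := by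
        intro τ τ' h
        ext i
        have := DFunLike.congr_fun h i
        simp only [Function.Embedding.trans_apply, Equiv.coe_toEmbedding] at this
        exact congrArg _ (e.injective this)
      have h4 : (V4.image (fun τ : Equiv.Perm (Fin 4) => τ.toEmbedding.trans e)).card = 4 := by
        rw [Finset.card_image_of_injective V4 hinj, V4_card]
      refine h4.symm.le.trans ?_
      apply Finset.card_le_card
      intro e' he'
      obtain ⟨τ, hτ, rfl⟩ := Finset.mem_image.mp he'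
      simp only [Finset.bipartiteAbove, mem_filter, mem_univ, true_and]
      show Wit G.1 K.1 (e (τ 0)) (e (τ 1)) (e (τ 2)) (e (τ 3))
      simp only [V4, mem_insert, mem_singleton] at hτ
      rcases hτ with rfl | rfl | rfl | rfl
      · exact hw'
      · exact hw'.symm1
      · exact hw'.symm2
      · exact hw'.symm2.symm1
    · intro e _
      rw [Finset.card_le_one]
      intro K hK K' hK'
      simp only [Finset.bipartiteBelow, mem_filter] at hK hK'
      exact Subtype.ext (Wit.unique hK.2 hK'.2)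
  have hcard : (univ : Finset (Fin 4 ↪ Fin n)).card = 24 * n.choose 4 := by
    rw [Finset.card_univ, Fintype.card_embedding_eq, Fintype.card_fin, Fintype.card_fin,
      Nat.descFactorial_eq_factorial_mul_choose]
    rfl
  omega

theorem switchP_symm (n : ℕ) (d : Fin n → ℕ) (G H : St n d) : switchP n d G H = switchP n d H G := by
  unfold switchP
  by_cases h : G = H
  · subst h; rfl
  · have h' : ¬ H = G := fun h2 => h h2.symm
    rw [if_neg h, if_neg h']
    by_cases hs : IsSwitch G.1 H.1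
    · rw [if_pos hs, if_pos (isSwitch_symm hs)]
    · have hs' : ¬ IsSwitch H.1 G.1 := fun h2 => hs (isSwitch_symm h2)
      rw [if_neg hs, if_neg hs']

theorem switch_frac_le (n : ℕ) (hn : 4 ≤ n) (d : Fin n → ℕ) (G : St n d) :
    ((univ.filter fun K : St n d => IsSwitch G.1 K.1).card : ℝ) / (12 * (n.choose 4 : ℝ))
      ≤ 1 / 2 := by
  have hC : (0 : ℝ) < n.choose 4 := by exact_mod_cast Nat.choose_pos hn
  have h := card_switch_le n d G
  have h' : ((univ.filter fun K : St n d => IsSwitch G.1 K.1).card : ℝ) ≤ 6 * (n.choose 4 : ℝ) := by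
    exact_mod_cast h
  rw [div_le_iff₀ (by positivity)]
  linarith

theorem switchP_lazy (n : ℕ) (hn : 4 ≤ n) (d : Fin n → ℕ) (G : St n d) : 1 / 2 ≤ switchP n d G G := by
  unfold switchP
  rw [if_pos rfl]
  have := switch_frac_le n hn d G
  linarith

theorem switchP_nonneg (n : ℕ) (hn : 4 ≤ n) (d : Fin n → ℕ) (G H : St n d) : 0 ≤ switchP n d G H := by
  by_cases h : G = H
  · subst h
    have := switchP_lazy n hn d G
    linarith
  · unfold switchP
    rw [if_neg h]
    split_ifs
    · positivity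
    · exact le_refl _

theorem switchP_row (n : ℕ) (d : Fin n → ℕ) (G : St n d) : ∑ H, switchP n d G H = 1 := by
  rw [← Finset.add_sum_erase univ _ (mem_univ G)]
  have h1 : switchP n d G G
      = 1 - ((univ.filter fun K : St n d => IsSwitch G.1 K.1).card : ℝ) / (12 * (n.choose 4 : ℝ)) := by
    unfold switchP
    rw [if_pos rfl]
  have h2 : ∑ H ∈ univ.erase G, switchP n d G H
      = ((univ.filter fun K : St n d => IsSwitch G.1 K.1).card : ℝ) / (12 * (n.choose 4 : ℝ)) := by
    have e1 : ∀ H ∈ univ.erase G, switchP n d G H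
        = if IsSwitch G.1 H.1 then 1 / (12 * (n.choose 4 : ℝ)) else 0 := by
      intro H hH
      have hne : ¬ G = H := fun h => (Finset.mem_erase.mp hH).1 h.symm
      unfold switchP
      rw [if_neg hne]
    rw [Finset.sum_congr rfl e1, ← Finset.sum_filter, Finset.sum_const, nsmul_eq_mul]
    have e2 : (univ.erase G).filter (fun H : St n d => IsSwitch G.1 H.1)
        = univ.filter fun K : St n d => IsSwitch G.1 K.1 := by
      ext H
      simp only [mem_filter, mem_erase, mem_univ, and_true, true_and, and_iff_right_iff_imp]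
      intro hs h
      exact isSwitch_ne hs (by rw [h])
    rw [e2]
    ring
  rw [h1, h2]
  ring

end Vale.Agent.Lib.P335
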