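import Vale.Agent.Lib.P335.Basic

namespace Vale.Agent.Lib.P335
open Finset

set_option linter.unusedSectionVars false

section Model
variable {ι κ : Type} [Fintype ι] [DecidableEq ι] [Fintype κ] [DecidableEq κ]

/-! G6 : a pair `(x, y)` of matrices arises from at most two checkerboard tuples -/

/-- the entries that a checkerboard switch turns from `true` to `false` -/
theorem chk_lost_gc {x : Mat ι κ} {a b : ι} {j j' : κ} (h : Chk x a b j j') (i : ι) (k : κ)
    (h1 : x i k = true) (h2 : colSwap {a, b} (Equiv.swap j j') x i k = false) :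
    (i = a ∧ k = j) ∨ (i = b ∧ k = j') := by
  obtain ⟨haj, hbj, haj', hbj'⟩ := h
  by_cases hi : i ∈ ({a, b} : Finset ι)
  · simp only [colSwap, hi, if_true] at h2
    by_cases hk1 : k = j
    · subst hk1
      simp only [Finset.mem_insert, Finset.mem_singleton] at hi
      rcases hi with rfl | rfl
      · exact Or.inl ⟨rfl, rfl⟩
      · rw [hbj] at h1; exact absurd h1 (by simp)
    · by_cases hk2 : k = j'
      · subst hk2
        simp only [Finset.mem_insert, Finset.mem_singleton] at hi
        rcases hi with rfl | rfl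
        · rw [haj'] at h1; exact absurd h1 (by simp)
        · exact Or.inr ⟨rfl, rfl⟩
      · rw [Equiv.swap_apply_of_ne_of_ne hk1 hk2, h1] at h2
        exact absurd h2 (by simp)
  · simp only [colSwap, hi, if_false] at h2
    rw [h1] at h2
    exact absurd h2 (by simp)

theorem chk_lost_left_gc {x : Mat ι κ} {a b : ι} {j j' : κ} (h : Chk x a b j j') :
    colSwap {a, b} (Equiv.swap j j') x a j = false := by
  obtain ⟨_, _, haj', _⟩ := h
  simp [colSwap, haj']

theorem chk_lost_right_gc {x : Mat ι κ} {a b : ι} {j j' : κ} (h : Chk x a b j j') :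
    colSwap {a, b} (Equiv.swap j j') x b j' = false := by
  obtain ⟨_, hbj, _, _⟩ := h
  simp [colSwap, hbj]

theorem chk_tuple_card_le (x y : Mat ι κ) :
    (univ.filter fun t : ι × ι × κ × κ =>
      Chk x t.1 t.2.1 t.2.2.1 t.2.2.2 ∧
        colSwap {t.1, t.2.1} (Equiv.swap t.2.2.1 t.2.2.2) x = y).card ≤ 2 := by
  classical
  rcases Finset.eq_empty_or_nonempty (univ.filter fun t : ι × ι × κ × κ =>
      Chk x t.1 t.2.1 t.2.2.1 t.2.2.2 ∧
        colSwap {t.1, t.2.1} (Equiv.swap t.2.2.1 t.2.2.2) x = y) with he | ⟨⟨a, b, j, j'⟩, h0⟩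
  · rw [he]; simp
  · simp only [Finset.mem_filter, Finset.mem_univ, true_and] at h0
    obtain ⟨hc0, hy0⟩ := h0
    have hsub : (univ.filter fun t : ι × ι × κ × κ =>
        Chk x t.1 t.2.1 t.2.2.1 t.2.2.2 ∧
          colSwap {t.1, t.2.1} (Equiv.swap t.2.2.1 t.2.2.2) x = y)
        ⊆ {(a, b, j, j'), (b, a, j', j)} := by
      rintro ⟨a', b', k, k'⟩ ht
      simp only [Finset.mem_filter, Finset.mem_univ, true_and] at ht
      obtain ⟨hc, hy⟩ := ht
      have hne : a' ≠ b' := by
        rintro rfl
        have h1 := hc.1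
        rw [hc.2.1] at h1
        exact absurd h1 (by simp)
      have e1 : y a' k = false := by rw [← hy]; exact chk_lost_left_gc hc
      have e2 : y b' k' = false := by rw [← hy]; exact chk_lost_right_gc hc
      rw [← hy0] at e1 e2
      have c1 := chk_lost_gc hc0 a' k hc.1 e1
      have c2 := chk_lost_gc hc0 b' k' hc.2.2.2 e2
      simp only [Finset.mem_insert, Finset.mem_singleton, Prod.mk.injEq]
      rcases c1 with ⟨rfl, rfl⟩ | ⟨rfl, rfl⟩
      · rcases c2 with ⟨rfl, rfl⟩ | ⟨rfl, rfl⟩
        · exact absurd rfl hne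
        · exact Or.inl ⟨rfl, rfl, rfl, rfl⟩
      · rcases c2 with ⟨rfl, rfl⟩ | ⟨rfl, rfl⟩
        · exact Or.inr ⟨rfl, rfl, rfl, rfl⟩
        · exact absurd rfl hne
    exact (Finset.card_le_card hsub).trans Finset.card_le_two

end Model

end Vale.Agent.Lib.P335
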