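import Vale.Agent.Lib.P335.GSplit

namespace Vale.Agent.Lib.P335
open Finset
open scoped Classical

/-- the bipartite adjacency matrix between `U` and its complement -/
noncomputable def toMat {n : ℕ} (U : Finset (Fin n)) (G : SimpleGraph (Fin n)) :
    Mat {u : Fin n // u ∈ U} {w : Fin n // w ∉ U} := fun u w => decide (G.Adj u.1 w.1)

theorem card_adj_eq {n : ℕ} (G : SimpleGraph (Fin n)) (U : Finset (Fin n)) (v : Fin n) :
    (univ.filter fun w => G.Adj v w).card
      = ∑ w ∈ U, adjInd G v w + ∑ w ∈ Uᶜ, adjInd G v w := by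
  rw [Finset.sum_add_sum_compl, Finset.card_filter]
  rfl

theorem toNat_decide_adj {n : ℕ} (G : SimpleGraph (Fin n)) (u w : Fin n) :
    (decide (G.Adj u w)).toNat = adjInd G u w := by
  unfold adjInd
  by_cases h : G.Adj u w <;> simp [h]

theorem rowSum_toMat {n : ℕ} (U : Finset (Fin n)) (G : SimpleGraph (Fin n))
    (u : {u : Fin n // u ∈ U}) :
    rowSum (toMat U G) u = ∑ w ∈ Uᶜ, adjInd G u.1 w := by
  unfold rowSum toMat
  rw [Finset.sum_subtype Uᶜ (fun x => Finset.mem_compl) (fun w => adjInd G u.1 w)]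
  exact Finset.sum_congr rfl (fun w _ => toNat_decide_adj G u.1 w.1)

theorem colSum_toMat {n : ℕ} (U : Finset (Fin n)) (G : SimpleGraph (Fin n))
    (w : {w : Fin n // w ∉ U}) :
    colSum (toMat U G) w = ∑ u ∈ U, adjInd G w.1 u := by
  unfold colSum toMat
  rw [Finset.sum_subtype U (fun x => Iff.rfl) (fun u => adjInd G w.1 u)]
  exact Finset.sum_congr rfl (fun u _ => by rw [toNat_decide_adj, adjInd_comm])

/-- in a clique `U`, a vertex of `U` has `|U| - 1` neighbours in `U` -/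
theorem sum_adjInd_clique {n : ℕ} (G : SimpleGraph (Fin n)) (U : Finset (Fin n))
    (hcl : ∀ u ∈ U, ∀ v ∈ U, u ≠ v → G.Adj u v) {u : Fin n} (hu : u ∈ U) :
    ∑ w ∈ U, adjInd G u w = U.card - 1 := by
  rw [← Finset.add_sum_erase U _ hu, adjInd_self, zero_add, ← Finset.card_erase_of_mem hu]
  have : ∀ w ∈ U.erase u, adjInd G u w = 1 := by
    intro w hw
    obtain ⟨h1, h2⟩ := Finset.mem_erase.1 hw
    unfold adjInd
    simp [hcl u hu w h2 h1.symm]
  rw [Finset.sum_congr rfl this]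
  simp

theorem sum_adjInd_indep {n : ℕ} (G : SimpleGraph (Fin n)) (U : Finset (Fin n))
    (hin : ∀ u, u ∉ U → ∀ v, v ∉ U → ¬ G.Adj u v) {u : Fin n} (hu : u ∉ U) :
    ∑ w ∈ Uᶜ, adjInd G u w = 0 := by
  apply Finset.sum_eq_zero
  intro w hw
  unfold adjInd
  simp [hin u hu w (Finset.mem_compl.1 hw)]

/-- the split graph built from a matrix -/
noncomputable def ofMat {n : ℕ} (U : Finset (Fin n))
    (x : Mat {u : Fin n // u ∈ U} {w : Fin n // w ∉ U}) : SimpleGraph (Fin n) :=
  SimpleGraph.fromRel (fun u v => (u ∈ U ∧ v ∈ U) ∨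
    ∃ (hu : u ∈ U) (hv : v ∉ U), x ⟨u, hu⟩ ⟨v, hv⟩ = true)

theorem ofMat_adj_UU {n : ℕ} (U : Finset (Fin n))
    (x : Mat {u : Fin n // u ∈ U} {w : Fin n // w ∉ U}) {u v : Fin n} (hu : u ∈ U) (hv : v ∈ U)
    (huv : u ≠ v) : (ofMat U x).Adj u v := by
  unfold ofMat
  rw [SimpleGraph.fromRel_adj]
  exact ⟨huv, Or.inl (Or.inl ⟨hu, hv⟩)⟩

theorem ofMat_adj_CC {n : ℕ} (U : Finset (Fin n))
    (x : Mat {u : Fin n // u ∈ U} {w : Fin n // w ∉ U}) {u v : Fin n} (hu : u ∉ U) (hv : v ∉ U) :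
    ¬ (ofMat U x).Adj u v := by
  unfold ofMat
  rw [SimpleGraph.fromRel_adj]
  rintro ⟨_, (⟨h, _⟩ | ⟨h, _, _⟩) | (⟨h, _⟩ | ⟨h, _, _⟩)⟩
  · exact hu h
  · exact hu h
  · exact hv h
  · exact hv h

theorem ofMat_adj_UC {n : ℕ} (U : Finset (Fin n))
    (x : Mat {u : Fin n // u ∈ U} {w : Fin n // w ∉ U}) {u v : Fin n} (hu : u ∈ U) (hv : v ∉ U) :
    (ofMat U x).Adj u v ↔ x ⟨u, hu⟩ ⟨v, hv⟩ = true := by
  unfold ofMat
  rw [SimpleGraph.fromRel_adj]
  constructor
  · rintro ⟨_, (⟨_, h⟩ | ⟨_, _, h⟩) | (⟨h, _⟩ | ⟨h, _, _⟩)⟩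
    · exact absurd h hv
    · exact h
    · exact absurd h hv
    · exact absurd h hv
  · intro h
    refine ⟨?_, Or.inl (Or.inr ⟨hu, hv, h⟩)⟩
    rintro rfl
    exact hv hu

theorem toMat_ofMat {n : ℕ} (U : Finset (Fin n))
    (x : Mat {u : Fin n // u ∈ U} {w : Fin n // w ∉ U}) : toMat U (ofMat U x) = x := by
  funext u w
  unfold toMat
  by_cases h : x u w = true
  · rw [h]
    exact decide_eq_true ((ofMat_adj_UC U x u.2 w.2).2 h)
  · have h' : x u w = false := by simpa using h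
    rw [h']
    exact decide_eq_false (fun hadj => h ((ofMat_adj_UC U x u.2 w.2).1 hadj))

theorem sum_rowSum_eq_sum_colSum {ι κ : Type} [Fintype ι] [Fintype κ] (x : Mat ι κ) :
    ∑ i, rowSum x i = ∑ j, colSum x j := by
  unfold rowSum colSum
  exact Finset.sum_comm

/-! G2 : realizations of a split degree vector correspond to 0/1 matrices with given margins -/
theorem toMat_bijOn (n : ℕ) (d : Fin n → ℕ) (U : Finset (Fin n))
    (hU : ∑ u ∈ U, d u = U.card * (U.card - 1) + ∑ w ∈ Uᶜ, d w) :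
    Set.BijOn (toMat U) (realizations n d : Set (SimpleGraph (Fin n)))
      (Om (fun u : {u : Fin n // u ∈ U} => d u.1 - (U.card - 1)) (fun w : {w : Fin n // w ∉ U} => d w.1) :
        Set (Mat {u : Fin n // u ∈ U} {w : Fin n // w ∉ U})) := by
  refine ⟨?_, ?_, ?_⟩
  · -- MapsTo
    intro G hG
    have hG' : G ∈ realizations n d := hG
    obtain ⟨hcl, hin⟩ := split_structure n d U hU G hG'
    have : toMat U G ∈ Om (fun u : {u : Fin n // u ∈ U} => d u.1 - (U.card - 1))
        (fun w : {w : Fin n // w ∉ U} => d w.1) := by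
      unfold Om
      refine Finset.mem_filter.2 ⟨Finset.mem_univ _, ?_, ?_⟩
      · intro u
        rw [rowSum_toMat]
        have h1 := deg_eq_sum_adjInd hG' U u.1
        rw [sum_adjInd_clique G U hcl u.2] at h1
        show _ = d u.1 - (U.card - 1)
        omega
      · intro w
        rw [colSum_toMat]
        have h1 := deg_eq_sum_adjInd hG' U w.1
        rw [sum_adjInd_indep G U hin w.2] at h1
        show _ = d w.1
        omega
    exact this
  · -- InjOn
    intro G hG H hH hGH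
    obtain ⟨hclG, hinG⟩ := split_structure n d U hU G hG
    obtain ⟨hclH, hinH⟩ := split_structure n d U hU H hH
    have key : ∀ u v, u ∈ U → v ∉ U → (G.Adj u v ↔ H.Adj u v) := by
      intro u v hu hv
      have h1 := congrFun (congrFun hGH ⟨u, hu⟩) ⟨v, hv⟩
      unfold toMat at h1
      simpa using h1
    ext u v
    by_cases hu : u ∈ U <;> by_cases hv : v ∈ U
    · by_cases huv : u = v
      · subst huv
        simp
      · exact ⟨fun _ => hclH u hu v hv huv, fun _ => hclG u hu v hv huv⟩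
    · exact key u v hu hv
    · rw [G.adj_comm, H.adj_comm]
      exact key v u hv hu
    · exact ⟨fun h => absurd h (hinG u hu v hv), fun h => absurd h (hinH u hu v hv)⟩
  · -- SurjOn
    intro x hx
    have hx' : x ∈ Om (fun u : {u : Fin n // u ∈ U} => d u.1 - (U.card - 1))
        (fun w : {w : Fin n // w ∉ U} => d w.1) := hx
    unfold Om at hx'
    obtain ⟨hrow, hcol⟩ := (Finset.mem_filter.1 hx').2
    -- the truncated subtraction is a true subtraction
    have hsum : ∑ u ∈ U, (d u - (U.card - 1)) = ∑ w ∈ Uᶜ, d w := by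
      rw [Finset.sum_subtype U (fun x => Iff.rfl) (fun u => d u - (U.card - 1)),
        Finset.sum_subtype Uᶜ (fun x => Finset.mem_compl) (fun w => d w)]
      rw [← Finset.sum_congr rfl (fun u _ => hrow u), ← Finset.sum_congr rfl (fun w _ => hcol w)]
      exact sum_rowSum_eq_sum_colSum x
    have hge : ∀ u ∈ U, U.card - 1 ≤ d u := by
      by_contra hcon
      push Not at hcon
      obtain ⟨u₀, hu₀, hlt⟩ := hcon
      have h1 : ∑ u ∈ U, d u < ∑ u ∈ U, ((d u - (U.card - 1)) + (U.card - 1)) := by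
        apply Finset.sum_lt_sum
        · intro u _
          omega
        · exact ⟨u₀, hu₀, by omega⟩
      rw [Finset.sum_add_distrib, hsum] at h1
      have h2 : ∑ _u ∈ U, (U.card - 1) = U.card * (U.card - 1) := by simp
      omega
    refine ⟨ofMat U x, ?_, toMat_ofMat U x⟩
    have hcl : ∀ u ∈ U, ∀ v ∈ U, u ≠ v → (ofMat U x).Adj u v :=
      fun u hu v hv huv => ofMat_adj_UU U x hu hv huv
    have hin : ∀ u, u ∉ U → ∀ v, v ∉ U → ¬ (ofMat U x).Adj u v :=
      fun u hu v hv => ofMat_adj_CC U x hu hv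
    have : ofMat U x ∈ realizations n d := by
      unfold realizations
      refine Finset.mem_filter.2 ⟨Finset.mem_univ _, ?_⟩
      intro v
      rw [card_adj_eq (ofMat U x) U v]
      by_cases hv : v ∈ U
      · rw [sum_adjInd_clique _ U hcl hv]
        have h1 := rowSum_toMat U (ofMat U x) ⟨v, hv⟩
        rw [toMat_ofMat, hrow] at h1
        have h2 := hge v hv
        simp only at h1
        omega
      · rw [sum_adjInd_indep _ U hin hv]
        have h1 := colSum_toMat U (ofMat U x) ⟨v, hv⟩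
        rw [toMat_ofMat, hcol] at h1
        simp only at h1
        omega
    exact this

theorem sym2_mixed_iff {n : ℕ} {U : Finset (Fin n)} {u v p q : Fin n} (hu : u ∈ U) (hv : v ∉ U)
    (hp : p ∈ U) (hq : q ∉ U) : s(u, v) = s(p, q) ↔ u = p ∧ v = q := by
  rw [Sym2.eq_iff]
  constructor
  · rintro (h | ⟨h, _⟩)
    · exact h
    · exact absurd (h ▸ hu) hq
  · intro h
    exact Or.inl h

theorem sym2_mixed_iff' {n : ℕ} {U : Finset (Fin n)} {u v p q : Fin n} (hu : u ∈ U) (hv : v ∉ U)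
    (hp : p ∈ U) (hq : q ∉ U) : s(u, v) = s(q, p) ↔ u = p ∧ v = q := by
  rw [Sym2.eq_swap (a := q) (b := p)]
  exact sym2_mixed_iff hu hv hp hq

theorem sym2_UU_ne {n : ℕ} {U : Finset (Fin n)} {u v p q : Fin n} (hu : u ∈ U) (hv : v ∈ U)
    (hq : q ∉ U) : s(u, v) ≠ s(p, q) := by
  rw [Ne, Sym2.eq_iff]
  rintro (⟨_, h⟩ | ⟨h, _⟩)
  · exact hq (h ▸ hv)
  · exact hq (h ▸ hu)

theorem sym2_CC_ne {n : ℕ} {U : Finset (Fin n)} {u v p q : Fin n} (hu : u ∉ U) (hv : v ∉ U)
    (hp : p ∈ U) : s(u, v) ≠ s(p, q) := by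
  rw [Ne, Sym2.eq_iff]
  rintro (⟨h, _⟩ | ⟨_, h⟩)
  · exact hu (h ▸ hp)
  · exact hv (h ▸ hp)

/-! G3 : a matrix switch is a graph switch -/
theorem toMat_switch (n : ℕ) (d : Fin n → ℕ) (U : Finset (Fin n))
    (hU : ∑ u ∈ U, d u = U.card * (U.card - 1) + ∑ w ∈ Uᶜ, d w)
    (G H : SimpleGraph (Fin n)) (hG : G ∈ realizations n d) (hH : H ∈ realizations n d)
    (a b : {u : Fin n // u ∈ U}) (j j' : {w : Fin n // w ∉ U}) (h : Chk (toMat U G) a b j j')
    (hGH : toMat U H = colSwap {a, b} (Equiv.swap j j') (toMat U G)) : IsSwitch G H := by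
  obtain ⟨hclG, hinG⟩ := split_structure n d U hU G hG
  obtain ⟨hclH, hinH⟩ := split_structure n d U hU H hH
  obtain ⟨h1, h2, h3, h4⟩ := h
  have haj : G.Adj a.1 j.1 := by simpa [toMat] using h1
  have hbj : ¬ G.Adj b.1 j.1 := by simpa [toMat] using h2
  have haj' : ¬ G.Adj a.1 j'.1 := by simpa [toMat] using h3
  have hbj' : G.Adj b.1 j'.1 := by simpa [toMat] using h4
  have hab : a ≠ b := by
    rintro rfl
    exact hbj haj
  have hjj' : j ≠ j' := by
    rintro rfl
    exact haj' haj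
  have hUC : ∀ (p : {u : Fin n // u ∈ U}) (q : {w : Fin n // w ∉ U}), p.1 ≠ q.1 := by
    intro p q hpq
    exact q.2 (hpq ▸ p.2)
  -- the entries of `H`
  have hent : ∀ (u : {u : Fin n // u ∈ U}) (v : {w : Fin n // w ∉ U}),
      H.Adj u.1 v.1 ↔ if u ∈ ({a, b} : Finset _) then G.Adj u.1 (Equiv.swap j j' v).1
        else G.Adj u.1 v.1 := by
    intro u v
    have h5 := congrFun (congrFun hGH u) v
    unfold toMat colSwap at h5
    by_cases hu : u ∈ ({a, b} : Finset _)
    · rw [if_pos hu] at h5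
      rw [if_pos hu]
      simpa using h5
    · rw [if_neg hu] at h5
      rw [if_neg hu]
      simpa using h5
  have key : ∀ (u : {u : Fin n // u ∈ U}) (v : {w : Fin n // w ∉ U}),
      H.Adj u.1 v.1 ↔ (G.Adj u.1 v.1 ∧ ¬ (u = a ∧ v = j) ∧ ¬ (u = b ∧ v = j')) ∨
        (u = a ∧ v = j') ∨ (u = b ∧ v = j) := by
    intro u v
    rw [hent u v]
    by_cases hua : u = a
    · subst hua
      rw [if_pos (by simp)]
      by_cases hvj : v = j
      · subst hvj
        rw [Equiv.swap_apply_left]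
        simp [haj', hjj', hab]
      · by_cases hvj' : v = j'
        · subst hvj'
          rw [Equiv.swap_apply_right]
          simp [haj]
        · rw [Equiv.swap_apply_of_ne_of_ne hvj hvj']
          simp [hvj, hvj', hab]
    · by_cases hub : u = b
      · subst hub
        rw [if_pos (by simp)]
        by_cases hvj : v = j
        · subst hvj
          rw [Equiv.swap_apply_left]
          simp [hbj']
        · by_cases hvj' : v = j'
          · subst hvj'
            rw [Equiv.swap_apply_right]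
            simp [hbj, hua, hvj]
          · rw [Equiv.swap_apply_of_ne_of_ne hvj hvj']
            simp [hvj, hvj', hua]
      · rw [if_neg (by simp [hua, hub])]
        simp [hua, hub]
  have keyS : ∀ u v, u ∈ U → v ∉ U → (H.Adj u v ↔
      (G.Adj u v ∧ s(u, v) ≠ s(a.1, j.1) ∧ s(u, v) ≠ s(j'.1, b.1)) ∨ s(u, v) = s(a.1, j'.1) ∨
        s(u, v) = s(j.1, b.1)) := by
    intro u v hu hv
    rw [Ne, Ne, sym2_mixed_iff hu hv a.2 j.2, sym2_mixed_iff' hu hv b.2 j'.2,
      sym2_mixed_iff hu hv a.2 j'.2, sym2_mixed_iff' hu hv b.2 j.2]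
    have := key ⟨u, hu⟩ ⟨v, hv⟩
    simpa only [Subtype.ext_iff] using this
  refine ⟨a.1, j.1, j'.1, b.1, hUC a j, hUC a j', fun hh => hab (Subtype.ext hh),
    fun hh => hjj' (Subtype.ext hh), (hUC b j).symm, (hUC b j').symm, haj, hbj'.symm, haj',
    fun hh => hbj hh.symm, ?_⟩
  intro u v
  by_cases hu : u ∈ U <;> by_cases hv : v ∈ U
  · have e1 : s(u, v) ≠ s(a.1, j.1) := sym2_UU_ne hu hv j.2
    have e2 : s(u, v) ≠ s(j'.1, b.1) := by
      rw [Sym2.eq_swap (a := j'.1)]
      exact sym2_UU_ne hu hv j'.2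
    have e3 : s(u, v) ≠ s(a.1, j'.1) := sym2_UU_ne hu hv j'.2
    have e4 : s(u, v) ≠ s(j.1, b.1) := by
      rw [Sym2.eq_swap (a := j.1)]
      exact sym2_UU_ne hu hv j.2
    by_cases huv : u = v
    · subst huv
      simp [e3, e4]
    · simp only [hclH u hu v hv huv, hclG u hu v hv huv, e1, e2, e3, e4, ne_eq, not_false_eq_true,
        and_self, or_false]
  · exact keyS u v hu hv
  · have := keyS v u hv hu
    rw [H.adj_comm, G.adj_comm, Sym2.eq_swap (a := u) (b := v)]
    exact this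
  · have e3 : s(u, v) ≠ s(a.1, j'.1) := sym2_CC_ne hu hv a.2
    have e4 : s(u, v) ≠ s(j.1, b.1) := by
      rw [Sym2.eq_swap (a := j.1)]
      exact sym2_CC_ne hu hv b.2
    simp [hinH u hu v hv, hinG u hu v hv, e3, e4]

end Vale.Agent.Lib.P335
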