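import Vale.Agent.Lib.P335.Defs

namespace Vale.Agent.Lib.P335
open Finset

/-! T12 : mixing from Poincare -/

/-- Jensen for the square, finite probability weights -/
lemma mix_jensen_sq {X : Type} [Fintype X] (w g : X → ℝ) (hw : ∀ y, 0 ≤ w y)
    (h1 : ∑ y, w y = 1) : (∑ y, w y * g y) ^ 2 ≤ ∑ y, w y * g y ^ 2 := by
  have h : 0 ≤ ∑ y, w y * (g y - ∑ z, w z * g z) ^ 2 :=
    Finset.sum_nonneg (fun y _ => mul_nonneg (hw y) (sq_nonneg _))
  have h3 : ∀ y, w y * (g y - ∑ z, w z * g z) ^ 2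
      = w y * g y ^ 2 - 2 * (∑ z, w z * g z) * (w y * g y) + (∑ z, w z * g z) ^ 2 * w y := by
    intro y; ring
  rw [Finset.sum_congr rfl (fun y _ => h3 y), Finset.sum_add_distrib, Finset.sum_sub_distrib,
    ← Finset.mul_sum, ← Finset.mul_sum, h1] at h
  nlinarith [h]

/-- a lazy symmetric stochastic matrix satisfies `|Pg|^2 ≤ <g, Pg>` -/
lemma mix_sq_le_inner {X : Type} [Fintype X] [DecidableEq X] (P : Matrix X X ℝ)
    (hsymm : ∀ x y, P x y = P y x) (hnn : ∀ x y, 0 ≤ P x y) (hrow : ∀ x, ∑ y, P x y = 1)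
    (hlazy : ∀ x, 1 / 2 ≤ P x x) (g : X → ℝ) :
    ∑ x, (∑ y, P x y * g y) ^ 2 ≤ ∑ x, g x * ∑ y, P x y * g y := by
  -- the matrix `Q = 2 P - 1`
  have hQnn : ∀ x y, 0 ≤ 2 * P x y - (if x = y then (1 : ℝ) else 0) := by
    intro x y
    by_cases h : x = y
    · subst h
      simp only [if_true]
      linarith [hlazy x]
    · simp only [h, if_false]
      linarith [hnn x y]
  have hQrow : ∀ x, ∑ y, (2 * P x y - (if x = y then (1 : ℝ) else 0)) = 1 := by
    intro x
    rw [Finset.sum_sub_distrib, ← Finset.mul_sum, hrow x]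
    simp
    norm_num
  have hQg : ∀ x, ∑ y, (2 * P x y - (if x = y then (1 : ℝ) else 0)) * g y
      = 2 * (∑ y, P x y * g y) - g x := by
    intro x
    have : ∀ y, (2 * P x y - (if x = y then (1 : ℝ) else 0)) * g y
        = 2 * (P x y * g y) - (if x = y then g y else 0) := by
      intro y
      by_cases h : x = y <;> simp [h] <;> ring
    rw [Finset.sum_congr rfl (fun y _ => this y), Finset.sum_sub_distrib, ← Finset.mul_sum]
    simp
  have hJ : ∀ x, (2 * (∑ y, P x y * g y) - g x) ^ 2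
      ≤ ∑ y, (2 * P x y - (if x = y then (1 : ℝ) else 0)) * g y ^ 2 := by
    intro x
    rw [← hQg x]
    exact mix_jensen_sq _ g (hQnn x) (hQrow x)
  have hsum : ∑ x, (2 * (∑ y, P x y * g y) - g x) ^ 2 ≤ ∑ y, g y ^ 2 := by
    refine (Finset.sum_le_sum (fun x _ => hJ x)).trans (le_of_eq ?_)
    rw [Finset.sum_comm]
    refine Finset.sum_congr rfl (fun y _ => ?_)
    rw [← Finset.sum_mul]
    have : ∑ x, (2 * P x y - (if x = y then (1 : ℝ) else 0)) = 1 := by
      refine Eq.trans ?_ (hQrow y)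
      refine Finset.sum_congr rfl (fun x _ => ?_)
      rw [hsymm x y]
      by_cases h : x = y
      · simp [h]
      · have h' : ¬ y = x := fun e => h e.symm
        simp [h, h']
    rw [this, one_mul]
  have hexp : ∑ x, (2 * (∑ y, P x y * g y) - g x) ^ 2
      = 4 * ∑ x, (∑ y, P x y * g y) ^ 2 - 4 * (∑ x, g x * ∑ y, P x y * g y) + ∑ x, g x ^ 2 := by
    rw [Finset.mul_sum, Finset.mul_sum, ← Finset.sum_sub_distrib, ← Finset.sum_add_distrib]
    refine Finset.sum_congr rfl (fun x _ => ?_)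
    ring
  rw [hexp] at hsum
  linarith

/-- the energy identity -/
lemma mix_energy {X : Type} [Fintype X] (P : Matrix X X ℝ)
    (hsymm : ∀ x y, P x y = P y x) (hrow : ∀ x, ∑ y, P x y = 1) (g : X → ℝ) :
    (1 / 2) * ∑ x, ∑ y, P x y * (g x - g y) ^ 2
      = ∑ x, g x ^ 2 - ∑ x, g x * ∑ y, P x y * g y := by
  have h1 : ∀ x, ∑ y, P x y * (g x - g y) ^ 2
      = g x ^ 2 - 2 * (g x * ∑ y, P x y * g y) + ∑ y, P x y * g y ^ 2 := by
    intro x
    have : ∀ y, P x y * (g x - g y) ^ 2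
        = g x ^ 2 * P x y - 2 * (g x * (P x y * g y)) + P x y * g y ^ 2 := by
      intro y; ring
    rw [Finset.sum_congr rfl (fun y _ => this y), Finset.sum_add_distrib, Finset.sum_sub_distrib,
      ← Finset.mul_sum, ← Finset.mul_sum, ← Finset.mul_sum, hrow x, mul_one]
  have h2 : ∑ x, ∑ y, P x y * g y ^ 2 = ∑ y, g y ^ 2 := by
    rw [Finset.sum_comm]
    refine Finset.sum_congr rfl (fun y _ => ?_)
    rw [← Finset.sum_mul]
    have : ∑ x, P x y = 1 := by
      rw [← hrow y]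
      exact Finset.sum_congr rfl (fun x _ => hsymm x y)
    rw [this, one_mul]
  rw [Finset.sum_congr rfl (fun x _ => h1 x), Finset.sum_add_distrib, Finset.sum_sub_distrib,
    ← Finset.mul_sum, h2]
  ring

/-- one step contraction -/
lemma mix_contract {X : Type} [Fintype X] [DecidableEq X] (P : Matrix X X ℝ)
    (hsymm : ∀ x y, P x y = P y x) (hnn : ∀ x y, 0 ≤ P x y) (hrow : ∀ x, ∑ y, P x y = 1)
    (hlazy : ∀ x, 1 / 2 ≤ P x x) (C : ℝ) (hC : 1 ≤ C)
    (hP : ∀ f : X → ℝ, ∑ x, f x = 0 →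
      ∑ x, f x ^ 2 ≤ C * ((1 / 2) * ∑ x, ∑ y, P x y * (f x - f y) ^ 2))
    (g : X → ℝ) (hg : ∑ x, g x = 0) :
    ∑ x, (∑ y, P x y * g y) ^ 2 ≤ (1 - 1 / C) * ∑ x, g x ^ 2 := by
  have h1 := mix_sq_le_inner P hsymm hnn hrow hlazy g
  have h2 := mix_energy P hsymm hrow g
  have h3 := hP g hg
  rw [h2] at h3
  have hCpos : 0 < C := by linarith
  have h4 : (1 / C) * ∑ x, g x ^ 2 ≤ ∑ x, g x ^ 2 - ∑ x, g x * ∑ y, P x y * g y := by
    rw [div_mul_eq_mul_div, one_mul, div_le_iff₀ hCpos]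
    linarith
  linarith

theorem mixing_of_poincare {X : Type} [Fintype X] [DecidableEq X] [Nonempty X] (P : Matrix X X ℝ)
    (hsymm : ∀ x y, P x y = P y x) (hnn : ∀ x y, 0 ≤ P x y) (hrow : ∀ x, ∑ y, P x y = 1)
    (hlazy : ∀ x, 1 / 2 ≤ P x x) (C : ℝ) (hC : 1 ≤ C)
    (hP : ∀ f : X → ℝ, ∑ x, f x = 0 → ∑ x, f x ^ 2 ≤ C * ((1 / 2) * ∑ x, ∑ y, P x y * (f x - f y) ^ 2))
    (t : ℕ) (x : X) :
    (∑ y, |(P ^ t) x y - 1 / (Fintype.card X : ℝ)|) ^ 2 ≤ (Fintype.card X : ℝ) * (1 - 1 / C) ^ t := by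
  have hNpos : (0 : ℝ) < (Fintype.card X : ℝ) := by exact_mod_cast Fintype.card_pos
  have hcol : ∀ y, ∑ z, P z y = 1 := by
    intro y
    rw [← hrow y]
    exact Finset.sum_congr rfl (fun z _ => hsymm z y)
  have hq : 0 ≤ 1 - 1 / C := by
    have : 1 / C ≤ 1 := by
      rw [div_le_one (by linarith)]
      exact hC
    linarith
  -- the recursion
  have hstep : ∀ s y, (P ^ (s + 1)) x y - 1 / (Fintype.card X : ℝ)
      = ∑ z, P y z * ((P ^ s) x z - 1 / (Fintype.card X : ℝ)) := by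
    intro s y
    rw [pow_succ, Matrix.mul_apply]
    have : ∀ z, P y z * ((P ^ s) x z - 1 / (Fintype.card X : ℝ))
        = (P ^ s) x z * P z y - 1 / (Fintype.card X : ℝ) * P y z := by
      intro z
      rw [hsymm z y]; ring
    rw [Finset.sum_congr rfl (fun z _ => this z), Finset.sum_sub_distrib, ← Finset.mul_sum,
      hrow y, mul_one]
  have hmain : ∀ s, ∑ y, ((P ^ s) x y - 1 / (Fintype.card X : ℝ)) = 0 ∧
      ∑ y, ((P ^ s) x y - 1 / (Fintype.card X : ℝ)) ^ 2 ≤ (1 - 1 / C) ^ s := by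
    intro s
    induction s with
    | zero =>
      constructor
      · rw [Finset.sum_sub_distrib]
        simp [Matrix.one_apply]
      · have h1 : ∀ y, ((P ^ 0) x y - 1 / (Fintype.card X : ℝ)) ^ 2
            = (if x = y then (1 : ℝ) else 0) * (1 - 2 / (Fintype.card X : ℝ))
              + 1 / (Fintype.card X : ℝ) ^ 2 := by
          intro y
          rw [pow_zero, Matrix.one_apply]
          by_cases h : x = y
          · simp only [h, if_true]
            field_simp
            ring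
          · simp only [h, if_false]
            field_simp
            ring
        rw [Finset.sum_congr rfl (fun y _ => h1 y), Finset.sum_add_distrib, ← Finset.sum_mul]
        simp only [Finset.sum_ite_eq, Finset.mem_univ, if_true, Finset.sum_const, Finset.card_univ,
          nsmul_eq_mul, pow_zero]
        have : (Fintype.card X : ℝ) * (1 / (Fintype.card X : ℝ) ^ 2) = 1 / (Fintype.card X : ℝ) := by
          field_simp
        rw [this]
        have h2 : 0 < 1 / (Fintype.card X : ℝ) := by positivity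
        have h3 : 2 / (Fintype.card X : ℝ) = 2 * (1 / (Fintype.card X : ℝ)) := by ring
        rw [h3]
        linarith
    | succ s ih =>
      obtain ⟨ih0, ih2⟩ := ih
      constructor
      · rw [Finset.sum_congr rfl (fun y _ => hstep s y), Finset.sum_comm]
        have : ∀ z, ∑ y, P y z * ((P ^ s) x z - 1 / (Fintype.card X : ℝ))
            = (P ^ s) x z - 1 / (Fintype.card X : ℝ) := by
          intro z
          rw [← Finset.sum_mul, hcol z, one_mul]
        rw [Finset.sum_congr rfl (fun z _ => this z), ih0]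
      · rw [Finset.sum_congr rfl (fun y _ => by rw [hstep s y])]
        refine (mix_contract P hsymm hnn hrow hlazy C hC hP _ ih0).trans ?_
        rw [pow_succ, mul_comm]
        exact mul_le_mul_of_nonneg_right ih2 hq
  have hcs : (∑ y, |(P ^ t) x y - 1 / (Fintype.card X : ℝ)|) ^ 2
      ≤ (Fintype.card X : ℝ) * ∑ y, |(P ^ t) x y - 1 / (Fintype.card X : ℝ)| ^ 2 := by
    have := sq_sum_le_card_mul_sum_sq (s := (Finset.univ : Finset X))
      (f := fun y => |(P ^ t) x y - 1 / (Fintype.card X : ℝ)|)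
    simpa [Finset.card_univ] using this
  refine hcs.trans ?_
  refine mul_le_mul_of_nonneg_left ?_ hNpos.le
  have : ∀ y, |(P ^ t) x y - 1 / (Fintype.card X : ℝ)| ^ 2
      = ((P ^ t) x y - 1 / (Fintype.card X : ℝ)) ^ 2 := fun y => sq_abs _
  rw [Finset.sum_congr rfl (fun y _ => this y)]
  exact (hmain t).2

end Vale.Agent.Lib.P335
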