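import Vale.Agent.Lib.P335.Poincare
import Vale.Agent.Lib.P335.Mixing
import Vale.Agent.Lib.P335.GMat
import Vale.Agent.Lib.P335.GChain
import Vale.Agent.Lib.P335.GCount

namespace Vale.Agent.Lib.P335
open Finset
open scoped Classical

set_option linter.unusedSectionVars false

/-- the energy of the chain in terms of switches -/
theorem energy_eq (n : ℕ) (d : Fin n → ℕ) (f : St n d → ℝ) :
    (1 / 2 : ℝ) * ∑ G, ∑ H, switchP n d G H * (f G - f H) ^ 2 =
      1 / (24 * (n.choose 4 : ℝ)) * ∑ G : St n d, ∑ H : St n d,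
        if IsSwitch G.1 H.1 then (f G - f H) ^ 2 else 0 := by
  rw [mul_sum, mul_sum]
  refine sum_congr rfl fun G _ => ?_
  rw [mul_sum, mul_sum]
  refine sum_congr rfl fun H _ => ?_
  unfold switchP
  by_cases hGH : G = H
  · subst hGH
    simp
  · rw [if_neg hGH]
    by_cases hs : IsSwitch G.1 H.1
    · rw [if_pos hs, if_pos hs]
      by_cases h0 : (n.choose 4 : ℝ) = 0
      · simp [h0]
      · field_simp
        ring
    · rw [if_neg hs, if_neg hs]; ring

section Transfer

variable (n : ℕ) (d : Fin n → ℕ) (U : Finset (Fin n))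
  (hU : ∑ u ∈ U, d u = U.card * (U.card - 1) + ∑ w ∈ Uᶜ, d w)

/-- the matrix of a state -/
noncomputable def phi (G : St n d) : Mat {u : Fin n // u ∈ U} {w : Fin n // w ∉ U} := toMat U G.1

include hU in
theorem phi_inj : Function.Injective (phi n d U) := by
  intro G H h
  exact Subtype.ext ((toMat_bijOn n d U hU).injOn (mem_coe.mpr G.2) (mem_coe.mpr H.2) h)

include hU in
theorem Om_eq_image :
    Om (fun u : {u : Fin n // u ∈ U} => d u.1 - (U.card - 1)) (fun w : {w : Fin n // w ∉ U} => d w.1) =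
      univ.image (phi n d U) := by
  ext x
  simp only [mem_image, mem_univ, true_and]
  constructor
  · intro hx
    obtain ⟨G, hG, hGx⟩ := (toMat_bijOn n d U hU).surjOn (mem_coe.mpr hx)
    exact ⟨⟨G, mem_coe.mp hG⟩, hGx⟩
  · rintro ⟨G, rfl⟩
    exact mem_coe.mp ((toMat_bijOn n d U hU).mapsTo (mem_coe.mpr G.2))

include hU in
/-- the local comparison: the checkerboard tuples at `phi G` against the switches at `G` -/
theorem local_le (F : Mat {u : Fin n // u ∈ U} {w : Fin n // w ∉ U} → ℝ) (G : St n d) :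
    (∑ a, ∑ b, ∑ j, ∑ j', if Chk (phi n d U G) a b j j' then
        (F (phi n d U G) - F (colSwap {a, b} (Equiv.swap j j') (phi n d U G))) ^ 2 else 0) ≤
      2 * ∑ H : St n d, if IsSwitch G.1 H.1 then (F (phi n d U G) - F (phi n d U H)) ^ 2 else 0 := by
  set x := phi n d U G with hx
  have hxΩ : x ∈ Om (fun u : {u : Fin n // u ∈ U} => d u.1 - (U.card - 1))
      (fun w : {w : Fin n // w ∉ U} => d w.1) := by
    rw [Om_eq_image n d U hU]; exact mem_image_of_mem _ (mem_univ _)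
  -- each tuple term as a sum over `H`
  have h1 : ∀ a b j j', (if Chk x a b j j' then
        (F x - F (colSwap {a, b} (Equiv.swap j j') x)) ^ 2 else 0) =
      ∑ H : St n d, if (Chk x a b j j' ∧ colSwap {a, b} (Equiv.swap j j') x = phi n d U H) then
        (F x - F (phi n d U H)) ^ 2 else 0 := by
    intro a b j j'
    by_cases hC : Chk x a b j j'
    · rw [if_pos hC]
      have hy := chk_mem hxΩ hC
      rw [Om_eq_image n d U hU] at hy
      simp only [mem_image, mem_univ, true_and] at hy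
      obtain ⟨H0, hH0⟩ := hy
      rw [sum_eq_single H0]
      · rw [if_pos ⟨hC, hH0.symm⟩, hH0]
      · intro H _ hne
        rw [if_neg]
        rintro ⟨_, h⟩
        exact hne (phi_inj n d U hU (h.symm.trans hH0.symm ▸ rfl))
      · intro h; exact absurd (mem_univ _) h
    · rw [if_neg hC]
      symm
      exact sum_eq_zero fun H _ => by rw [if_neg (fun h => hC h.1)]
  simp only [h1]
  -- exchange the sums
  have h2 : (∑ a, ∑ b, ∑ j, ∑ j', ∑ H : St n d,
      if (Chk x a b j j' ∧ colSwap {a, b} (Equiv.swap j j') x = phi n d U H) then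
        (F x - F (phi n d U H)) ^ 2 else 0) =
      ∑ H : St n d, ∑ t : {u : Fin n // u ∈ U} × {u : Fin n // u ∈ U} × {w : Fin n // w ∉ U} ×
          {w : Fin n // w ∉ U},
        if (Chk x t.1 t.2.1 t.2.2.1 t.2.2.2 ∧
          colSwap {t.1, t.2.1} (Equiv.swap t.2.2.1 t.2.2.2) x = phi n d U H) then
        (F x - F (phi n d U H)) ^ 2 else 0 := by
    symm
    rw [sum_comm]
    simp only [Fintype.sum_prod_type]
  rw [h2, mul_sum]
  refine sum_le_sum fun H _ => ?_
  rw [← sum_filter, sum_const, nsmul_eq_mul]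
  have hcard := chk_tuple_card_le x (phi n d U H)
  by_cases hs : IsSwitch G.1 H.1
  · rw [if_pos hs]
    have : ((univ.filter fun t : {u : Fin n // u ∈ U} × {u : Fin n // u ∈ U} ×
        {w : Fin n // w ∉ U} × {w : Fin n // w ∉ U} =>
      Chk x t.1 t.2.1 t.2.2.1 t.2.2.2 ∧
        colSwap {t.1, t.2.1} (Equiv.swap t.2.2.1 t.2.2.2) x = phi n d U H).card : ℝ) ≤ 2 := by
      exact_mod_cast hcard
    exact mul_le_mul_of_nonneg_right this (sq_nonneg _)
  · rw [if_neg hs, mul_zero]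
    have : (univ.filter fun t : {u : Fin n // u ∈ U} × {u : Fin n // u ∈ U} ×
        {w : Fin n // w ∉ U} × {w : Fin n // w ∉ U} =>
      Chk x t.1 t.2.1 t.2.2.1 t.2.2.2 ∧
        colSwap {t.1, t.2.1} (Equiv.swap t.2.2.1 t.2.2.2) x = phi n d U H) = ∅ := by
      rw [filter_eq_empty_iff]
      rintro t _ ⟨hC, he⟩
      exact hs (toMat_switch n d U hU G.1 H.1 G.2 H.2 t.1 t.2.1 t.2.2.1 t.2.2.2 hC he.symm)
    rw [this]; simp

include hU in
/-- Poincare inequality for the switch chain of a split degree vector -/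
theorem poincare_switch (hn : 4 ≤ n) [Nonempty (St n d)] (f : St n d → ℝ) (hf : ∑ G, f G = 0) :
    ∑ G, f G ^ 2 ≤ (6 * (n.choose 4 : ℝ)) *
      ((1 / 2 : ℝ) * ∑ G, ∑ H, switchP n d G H * (f G - f H) ^ 2) := by
  have hinj := phi_inj n d U hU
  have hc4 : (0 : ℝ) < (n.choose 4 : ℝ) := by exact_mod_cast Nat.choose_pos hn
  set F : Mat {u : Fin n // u ∈ U} {w : Fin n // w ∉ U} → ℝ :=
    fun x => f (Function.invFun (phi n d U) x) with hF
  have hFphi : ∀ G, F (phi n d U G) = f G := fun G => by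
    simp only [hF]; rw [Function.leftInverse_invFun hinj G]
  have hP := poincare_mat (fun u : {u : Fin n // u ∈ U} => d u.1 - (U.card - 1))
    (fun w : {w : Fin n // w ∉ U} => d w.1) F
  have havg : ∀ x, avg (Om (fun u : {u : Fin n // u ∈ U} => d u.1 - (U.card - 1))
      (fun w : {w : Fin n // w ∉ U} => d w.1)) univ F x = 0 := by
    intro x
    unfold avg cE
    have hfib : fib (Om (fun u : {u : Fin n // u ∈ U} => d u.1 - (U.card - 1))
      (fun w : {w : Fin n // w ∉ U} => d w.1)) (rel univ) x = univ.image (phi n d U) := by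
      rw [← Om_eq_image n d U hU]
      unfold fib
      rw [filter_true_of_mem]
      intro y _ i hi
      exact absurd (mem_univ i) hi
    rw [hfib, sum_image (fun G _ H _ h => hinj h)]
    simp only [hFphi, hf, zero_div]
  simp only [havg, sub_zero] at hP
  rw [Om_eq_image n d U hU, sum_image (fun G _ H _ h => hinj h),
    sum_image (fun G _ H _ h => hinj h)] at hP
  have h3 : (∑ G : St n d, ∑ a, ∑ b, ∑ j, ∑ j', if Chk (phi n d U G) a b j j' then
        (F (phi n d U G) - F (colSwap {a, b} (Equiv.swap j j') (phi n d U G))) ^ 2 else 0) ≤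
      ∑ G : St n d, 2 * ∑ H : St n d, if IsSwitch G.1 H.1 then (f G - f H) ^ 2 else 0 := by
    refine sum_le_sum fun G _ => ?_
    have := local_le n d U hU F G
    simp only [hFphi] at this ⊢
    exact this
  simp only [hFphi] at hP
  simp only [hFphi] at h3
  rw [energy_eq, ← mul_sum] at *
  have h4 : (6 * (n.choose 4 : ℝ)) * (1 / (24 * (n.choose 4 : ℝ)) * ∑ G : St n d, ∑ H : St n d,
        if IsSwitch G.1 H.1 then (f G - f H) ^ 2 else 0) =
      (1 / 4) * ∑ G : St n d, ∑ H : St n d, if IsSwitch G.1 H.1 then (f G - f H) ^ 2 else 0 := by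
    field_simp
    ring
  rw [h4]
  linarith

include hU in
theorem card_St_le : (Fintype.card (St n d) : ℝ) ≤ 2 ^ (n * n) := by
  have h1 : Fintype.card (St n d) ≤
      Fintype.card (Mat {u : Fin n // u ∈ U} {w : Fin n // w ∉ U}) :=
    Fintype.card_le_of_injective _ (phi_inj n d U hU)
  have h2 : Fintype.card (Mat {u : Fin n // u ∈ U} {w : Fin n // w ∉ U}) =
      (2 ^ Fintype.card {w : Fin n // w ∉ U}) ^ Fintype.card {u : Fin n // u ∈ U} := by
    simp only [Mat, Fintype.card_fun, Fintype.card_bool]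
  have h3 : Fintype.card {w : Fin n // w ∉ U} ≤ n := by
    have := Fintype.card_subtype_le (fun w : Fin n => w ∉ U)
    simpa using this
  have h4 : Fintype.card {u : Fin n // u ∈ U} ≤ n := by
    have := Fintype.card_subtype_le (fun w : Fin n => w ∈ U)
    simpa using this
  have h5 : Fintype.card (St n d) ≤ 2 ^ (n * n) := by
    rw [h2, ← pow_mul] at h1
    exact le_trans h1 (Nat.pow_le_pow_right (by norm_num) (Nat.mul_le_mul h3 h4))
  exact_mod_cast h5

end Transfer

theorem numeric_bound (n : ℕ) (hn : 4 ≤ n) : (n * n + 2) * (6 * n.choose 4) ≤ n ^ 6 := by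
  have h1 : 24 * n.choose 4 ≤ n ^ 4 := by
    have := Nat.descFactorial_le_pow n 4
    rw [Nat.descFactorial_eq_factorial_mul_choose] at this
    simpa [Nat.factorial] using this
  have h2 : n * n + 2 ≤ 4 * (n * n) := by nlinarith
  have h3 : 4 * ((n * n + 2) * (6 * n.choose 4)) ≤ 4 * n ^ 6 := by
    calc 4 * ((n * n + 2) * (6 * n.choose 4)) = (n * n + 2) * (24 * n.choose 4) := by ring
      _ ≤ (4 * (n * n)) * n ^ 4 := Nat.mul_le_mul h2 h1
      _ = 4 * n ^ 6 := by ring
  omega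

theorem decay_bound (n : ℕ) (hn : 4 ≤ n) (t : ℕ) (ht : n ^ 6 ≤ t) :
    (2 : ℝ) ^ (n * n) * (1 - 1 / (6 * (n.choose 4 : ℝ))) ^ t ≤ 1 / 4 := by
  have hc4 : (1 : ℝ) ≤ (n.choose 4 : ℝ) := by exact_mod_cast Nat.choose_pos hn
  set C : ℝ := 6 * (n.choose 4 : ℝ) with hC
  have hC0 : 0 < C := by rw [hC]; linarith
  have hC1 : 1 ≤ C := by rw [hC]; linarith
  have h0 : 0 ≤ 1 - 1 / C := by
    rw [sub_nonneg, div_le_one hC0]; exact hC1
  have h1 : 1 - 1 / C ≤ Real.exp (-(1 / C)) := Real.one_sub_le_exp_neg _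
  have h2 : (1 - 1 / C) ^ t ≤ Real.exp (-(1 / C)) ^ t := pow_le_pow_left₀ h0 h1 t
  have h3 : Real.exp (-(1 / C)) ^ t = Real.exp (-((t : ℝ) / C)) := by
    rw [← Real.exp_nat_mul]; congr 1; ring
  have hk : ((n * n + 2 : ℕ) : ℝ) ≤ (t : ℝ) / C := by
    rw [le_div_iff₀ hC0]
    have := le_trans (numeric_bound n hn) ht
    have h' : (((n * n + 2) * (6 * n.choose 4) : ℕ) : ℝ) ≤ (t : ℝ) := by exact_mod_cast this
    rw [hC]
    push_cast at h' ⊢
    exact h'
  have h4 : Real.exp (-((t : ℝ) / C)) ≤ Real.exp (-((n * n + 2 : ℕ) : ℝ)) :=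
    Real.exp_le_exp.mpr (by linarith)
  have h5 : Real.exp (-((n * n + 2 : ℕ) : ℝ)) = Real.exp (-1) ^ (n * n + 2) := by
    rw [← Real.exp_nat_mul]; congr 1; ring
  have h6 : Real.exp (-1) ≤ 1 / 2 := by
    rw [Real.exp_neg, one_div]
    have : (2 : ℝ) ≤ Real.exp 1 := by
      have := Real.add_one_le_exp (1 : ℝ); linarith
    exact inv_anti₀ (by norm_num) this
  have h7 : Real.exp (-1) ^ (n * n + 2) ≤ (1 / 2 : ℝ) ^ (n * n + 2) :=
    pow_le_pow_left₀ (Real.exp_pos _).le h6 _
  have h8 : (1 - 1 / C) ^ t ≤ (1 / 2 : ℝ) ^ (n * n + 2) := by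
    calc (1 - 1 / C) ^ t ≤ Real.exp (-(1 / C)) ^ t := h2
      _ = Real.exp (-((t : ℝ) / C)) := h3
      _ ≤ Real.exp (-((n * n + 2 : ℕ) : ℝ)) := h4
      _ = Real.exp (-1) ^ (n * n + 2) := h5
      _ ≤ _ := h7
  calc (2 : ℝ) ^ (n * n) * (1 - 1 / C) ^ t ≤ (2 : ℝ) ^ (n * n) * (1 / 2 : ℝ) ^ (n * n + 2) :=
        mul_le_mul_of_nonneg_left h8 (by positivity)
    _ = 1 / 4 := by
        rw [pow_add, ← mul_assoc, ← mul_pow]
        norm_num

/-- the switch chain of every split degree vector mixes within `n ^ 6` steps -/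
theorem split_mixing (n : ℕ) (hn : 4 ≤ n) (d : Fin n → ℕ) (U : Finset (Fin n))
    (hne : (realizations n d).Nonempty)
    (hU : ∑ u ∈ U, d u = U.card * (U.card - 1) + ∑ w ∈ Uᶜ, d w) :
    (∀ t, n ^ 6 ≤ t → ∀ G : St n d, tvDist n d t G ≤ 1 / 4) ∧ tmix n d ≤ n ^ 6 := by
  obtain ⟨G0, hG0⟩ := hne
  haveI : Nonempty (St n d) := ⟨⟨G0, hG0⟩⟩
  have hc4 : (1 : ℝ) ≤ (n.choose 4 : ℝ) := by exact_mod_cast Nat.choose_pos hn
  have main : ∀ t, n ^ 6 ≤ t → ∀ G : St n d, tvDist n d t G ≤ 1 / 4 := by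
    intro t ht G
    have hm := mixing_of_poincare (switchP n d) (switchP_symm n d) (switchP_nonneg n hn d)
      (switchP_row n d) (switchP_lazy n hn d) (6 * (n.choose 4 : ℝ)) (by linarith)
      (fun f hf => poincare_switch n d U hU hn f hf) t G
    have hdec := decay_bound n hn t ht
    have hN := card_St_le n d U hU
    have hpow : 0 ≤ (1 - 1 / (6 * (n.choose 4 : ℝ))) ^ t := by
      apply pow_nonneg
      rw [sub_nonneg, div_le_one (by linarith)]; linarith
    have h1 : (∑ H, |(switchP n d ^ t) G H - 1 / (Fintype.card (St n d) : ℝ)|) ^ 2 ≤ 1 / 4 :=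
      le_trans hm (le_trans (mul_le_mul_of_nonneg_right hN hpow) hdec)
    have h2 : 0 ≤ ∑ H, |(switchP n d ^ t) G H - 1 / (Fintype.card (St n d) : ℝ)| :=
      sum_nonneg fun H _ => abs_nonneg _
    unfold tvDist
    nlinarith
  exact ⟨main, Nat.sInf_le (fun G => main _ le_rfl G)⟩

end Vale.Agent.Lib.P335
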