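import Vale.Agent.Lib.P335.GraphDefs
import Vale.Agent.Lib.P335.Defs

namespace Vale.Agent.Lib.P335
open Finset
open scoped Classical

/-- adjacency indicator -/
noncomputable def adjInd {n : ℕ} (G : SimpleGraph (Fin n)) (u w : Fin n) : ℕ :=
  if G.Adj u w then 1 else 0

theorem adjInd_le_one {n : ℕ} (G : SimpleGraph (Fin n)) (u w : Fin n) : adjInd G u w ≤ 1 := by
  unfold adjInd
  split_ifs <;> simp

theorem adjInd_comm {n : ℕ} (G : SimpleGraph (Fin n)) (u w : Fin n) :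
    adjInd G u w = adjInd G w u := by
  unfold adjInd
  simp only [G.adj_comm]

theorem adjInd_self {n : ℕ} (G : SimpleGraph (Fin n)) (u : Fin n) : adjInd G u u = 0 := by
  unfold adjInd
  simp

theorem deg_eq_sum_adjInd {n : ℕ} {d : Fin n → ℕ} {G : SimpleGraph (Fin n)}
    (hG : G ∈ realizations n d) (U : Finset (Fin n)) (v : Fin n) :
    d v = ∑ w ∈ U, adjInd G v w + ∑ w ∈ Uᶜ, adjInd G v w := by
  have h := (Finset.mem_filter.1 hG).2 v
  rw [Finset.sum_add_sum_compl, ← h, Finset.card_filter]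
  rfl

theorem sum_adjInd_le {n : ℕ} (G : SimpleGraph (Fin n)) (U : Finset (Fin n)) {u : Fin n}
    (hu : u ∈ U) : ∑ w ∈ U, adjInd G u w ≤ U.card - 1 := by
  rw [← Finset.add_sum_erase U _ hu, adjInd_self, zero_add, ← Finset.card_erase_of_mem hu]
  calc ∑ w ∈ U.erase u, adjInd G u w ≤ ∑ _w ∈ U.erase u, 1 :=
        Finset.sum_le_sum (fun w _ => adjInd_le_one G u w)
    _ = (U.erase u).card := by simp

/-! G1 : a degree vector with `sum_U d = |U|(|U|-1) + sum_{U^c} d` forces `U` to be a clique and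
the complement to be independent -/
theorem split_structure (n : ℕ) (d : Fin n → ℕ) (U : Finset (Fin n))
    (hU : ∑ u ∈ U, d u = U.card * (U.card - 1) + ∑ w ∈ Uᶜ, d w)
    (G : SimpleGraph (Fin n)) (hG : G ∈ realizations n d) :
    (∀ u ∈ U, ∀ v ∈ U, u ≠ v → G.Adj u v) ∧ (∀ u, u ∉ U → ∀ v, v ∉ U → ¬ G.Adj u v) := by
  have h1 : ∑ u ∈ U, d u
      = ∑ u ∈ U, ∑ w ∈ U, adjInd G u w + ∑ u ∈ U, ∑ w ∈ Uᶜ, adjInd G u w := by
    rw [← Finset.sum_add_distrib]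
    exact Finset.sum_congr rfl (fun u _ => deg_eq_sum_adjInd hG U u)
  have h2 : ∑ u ∈ Uᶜ, d u
      = ∑ u ∈ Uᶜ, ∑ w ∈ U, adjInd G u w + ∑ u ∈ Uᶜ, ∑ w ∈ Uᶜ, adjInd G u w := by
    rw [← Finset.sum_add_distrib]
    exact Finset.sum_congr rfl (fun u _ => deg_eq_sum_adjInd hG U u)
  have h3 : ∑ u ∈ Uᶜ, ∑ w ∈ U, adjInd G u w = ∑ u ∈ U, ∑ w ∈ Uᶜ, adjInd G u w := by
    rw [Finset.sum_comm]
    exact Finset.sum_congr rfl (fun u _ => Finset.sum_congr rfl (fun w _ => adjInd_comm G w u))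
  have h4 : ∑ u ∈ U, ∑ w ∈ U, adjInd G u w ≤ ∑ _u ∈ U, (U.card - 1) :=
    Finset.sum_le_sum (fun u hu => sum_adjInd_le G U hu)
  have h4' : ∑ _u ∈ U, (U.card - 1) = U.card * (U.card - 1) := by simp
  have h5 : ∑ u ∈ Uᶜ, ∑ w ∈ Uᶜ, adjInd G u w = 0 := by omega
  have h6 : ∑ u ∈ U, ∑ w ∈ U, adjInd G u w = ∑ _u ∈ U, (U.card - 1) := by omega
  constructor
  · intro u hu v hv huv
    have h7 := (Finset.sum_eq_sum_iff_of_le (fun u hu => sum_adjInd_le G U hu)).1 h6 u hu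
    rw [← Finset.add_sum_erase U _ hu, adjInd_self, zero_add, ← Finset.card_erase_of_mem hu] at h7
    have h8 : ∑ w ∈ U.erase u, adjInd G u w = ∑ _w ∈ U.erase u, 1 := by
      rw [h7]; simp
    have h9 := (Finset.sum_eq_sum_iff_of_le (fun w _ => adjInd_le_one G u w)).1 h8 v
      (Finset.mem_erase.2 ⟨huv.symm, hv⟩)
    unfold adjInd at h9
    by_contra hcon
    simp [hcon] at h9
  · intro u hu v hv hadj
    have h7 := (Finset.sum_eq_zero_iff.1 h5) u (Finset.mem_compl.2 hu)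
    have h8 := (Finset.sum_eq_zero_iff.1 h7) v (Finset.mem_compl.2 hv)
    unfold adjInd at h8
    simp [hadj] at h8

end Vale.Agent.Lib.P335
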