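import Mathlib

/-!
# P335: the switch chain on simple graphs with a given degree vector
-/

namespace Vale.Agent.Lib.P335

open Finset
open scoped Classical

/-- the set of labelled simple graphs on `Fin n` with degree `d v` at every vertex `v` -/
noncomputable def realizations (n : ℕ) (d : Fin n → ℕ) : Finset (SimpleGraph (Fin n)) :=
  univ.filter fun G => ∀ v, (univ.filter fun w => G.Adj v w).card = d v

/-- `H` arises from `G` by a switch: the disjoint edges `ab`, `cd` are removed and the absent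
edges `ac`, `bd` are inserted -/
def IsSwitch {n : ℕ} (G H : SimpleGraph (Fin n)) : Prop :=
  ∃ a b c d : Fin n, a ≠ b ∧ a ≠ c ∧ a ≠ d ∧ b ≠ c ∧ b ≠ d ∧ c ≠ d ∧
    G.Adj a b ∧ G.Adj c d ∧ ¬ G.Adj a c ∧ ¬ G.Adj b d ∧
    ∀ u v, H.Adj u v ↔
      (G.Adj u v ∧ s(u, v) ≠ s(a, b) ∧ s(u, v) ≠ s(c, d)) ∨ s(u, v) = s(a, c) ∨ s(u, v) = s(b, d)

/-- the state space of the chain -/
abbrev St (n : ℕ) (d : Fin n → ℕ) := {G : SimpleGraph (Fin n) // G ∈ realizations n d}

/-- transition matrix of the switch chain: every switch has probability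
`(1/2) * (1 / C(n,4)) * (1/6)`, the remaining mass stays put -/
noncomputable def switchP (n : ℕ) (d : Fin n → ℕ) : Matrix (St n d) (St n d) ℝ := fun G H =>
  if G = H then
    1 - ((univ.filter fun K : St n d => IsSwitch G.1 K.1).card : ℝ) / (12 * (n.choose 4 : ℝ))
  else if IsSwitch G.1 H.1 then 1 / (12 * (n.choose 4 : ℝ)) else 0

/-- total variation distance between `P^t(G, .)` and the uniform distribution -/
noncomputable def tvDist (n : ℕ) (d : Fin n → ℕ) (t : ℕ) (G : St n d) : ℝ :=
  (1 / 2) * ∑ H, |(switchP n d ^ t) G H - 1 / (Fintype.card (St n d) : ℝ)|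

/-- the mixing time -/
noncomputable def tmix (n : ℕ) (d : Fin n → ℕ) : ℕ :=
  sInf {t : ℕ | ∀ G : St n d, tvDist n d t G ≤ 1 / 4}

end Vale.Agent.Lib.P335
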