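import Vale.Agent.Lib.P335.Basic
import Vale.Agent.Lib.P335.Spec
import Vale.Agent.Lib.P335.Conn

namespace Vale.Agent.Lib.P335
open Finset

section Model
variable {ι κ : Type} [Fintype ι] [DecidableEq ι] [Fintype κ] [DecidableEq κ]

/-! T7 : level one -/

/-- the switch Laplacian in the rows `a b` -/
noncomputable def swT (a b : ι) (v : Mat ι κ → ℝ) (x : Mat ι κ) : ℝ :=
  ∑ j, ∑ j', if Chk x a b j j' then v x - v (colSwap {a, b} (Equiv.swap j j') x) else 0

omit [Fintype ι] [Fintype κ] [DecidableEq κ] in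
theorem colSwap_left (a b : ι) (σ : Equiv.Perm κ) (x : Mat ι κ) (j : κ) :
    colSwap {a, b} σ x a j = x a (σ j) := by simp [colSwap]

omit [Fintype ι] [Fintype κ] [DecidableEq κ] in
theorem colSwap_right (a b : ι) (σ : Equiv.Perm κ) (x : Mat ι κ) (j : κ) :
    colSwap {a, b} σ x b j = x b (σ j) := by simp [colSwap]

omit [Fintype ι] [Fintype κ] in
theorem chk_swap {x : Mat ι κ} {a b : ι} {j j' : κ} (h : Chk x a b j j') :
    Chk (colSwap {a, b} (Equiv.swap j j') x) a b j' j := by
  obtain ⟨h1, h2, h3, h4⟩ := h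
  refine ⟨?_, ?_, ?_, ?_⟩
  · rw [colSwap_left, Equiv.swap_apply_right]; exact h1
  · rw [colSwap_right, Equiv.swap_apply_right]; exact h2
  · rw [colSwap_left, Equiv.swap_apply_left]; exact h3
  · rw [colSwap_right, Equiv.swap_apply_left]; exact h4

/-- the set of all switches available in `Om r c` in the rows `a b` -/
def chkSet (r : ι → ℕ) (c : κ → ℕ) (a b : ι) : Finset (Mat ι κ × κ × κ) :=
  ((Om r c) ×ˢ (univ ×ˢ univ)).filter fun t => Chk t.1 a b t.2.1 t.2.2

theorem sum_chk_eq (r : ι → ℕ) (c : κ → ℕ) (a b : ι) (G : Mat ι κ → κ → κ → ℝ) :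
    ∑ x ∈ Om r c, ∑ j, ∑ j', (if Chk x a b j j' then G x j j' else 0) =
      ∑ t ∈ chkSet r c a b, G t.1 t.2.1 t.2.2 := by
  unfold chkSet
  rw [Finset.sum_filter, Finset.sum_product]
  refine Finset.sum_congr rfl fun x _ => ?_
  rw [Finset.sum_product]

/-- the involution on the set of switches -/
theorem sum_chk_invol (r : ι → ℕ) (c : κ → ℕ) (a b : ι) (F : Mat ι κ → Mat ι κ → ℝ) :
    ∑ t ∈ chkSet r c a b, F t.1 (colSwap {a, b} (Equiv.swap t.2.1 t.2.2) t.1) =
      ∑ t ∈ chkSet r c a b, F (colSwap {a, b} (Equiv.swap t.2.1 t.2.2) t.1) t.1 := by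
  have hmem : ∀ t ∈ chkSet r c a b,
      (colSwap {a, b} (Equiv.swap t.2.1 t.2.2) t.1, t.2.2, t.2.1) ∈ chkSet r c a b := by
    intro t ht
    unfold chkSet at ht ⊢
    rw [Finset.mem_filter, Finset.mem_product] at ht ⊢
    exact ⟨⟨chk_mem ht.1.1 ht.2, by simp⟩, chk_swap ht.2⟩
  have hinv : ∀ t ∈ chkSet r c a b,
      ((colSwap {a, b} (Equiv.swap t.2.2 t.2.1) (colSwap {a, b} (Equiv.swap t.2.1 t.2.2) t.1),
        t.2.1, t.2.2) : Mat ι κ × κ × κ) = t := by
    intro t _
    rw [Equiv.swap_comm t.2.2 t.2.1, colSwap_invol]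
  refine Finset.sum_nbij' (fun t => (colSwap {a, b} (Equiv.swap t.2.1 t.2.2) t.1, t.2.2, t.2.1))
    (fun t => (colSwap {a, b} (Equiv.swap t.2.1 t.2.2) t.1, t.2.2, t.2.1)) hmem hmem hinv hinv ?_
  intro t _
  simp only
  rw [Equiv.swap_comm t.2.2 t.2.1, colSwap_invol]

theorem sum_mul_swT (r : ι → ℕ) (c : κ → ℕ) (a b : ι) (f g : Mat ι κ → ℝ) :
    ∑ x ∈ Om r c, f x * swT a b g x =
      ∑ t ∈ chkSet r c a b, f t.1 * (g t.1 - g (colSwap {a, b} (Equiv.swap t.2.1 t.2.2) t.1)) := by
  rw [← sum_chk_eq r c a b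
    (fun x j j' => f x * (g x - g (colSwap {a, b} (Equiv.swap j j') x)))]
  refine Finset.sum_congr rfl fun x _ => ?_
  unfold swT
  rw [Finset.mul_sum]
  refine Finset.sum_congr rfl fun j _ => ?_
  rw [Finset.mul_sum]
  refine Finset.sum_congr rfl fun j' _ => ?_
  split_ifs <;> simp

theorem swT_symm (r : ι → ℕ) (c : κ → ℕ) (a b : ι) (f g : Mat ι κ → ℝ) :
    ∑ x ∈ Om r c, f x * swT a b g x = ∑ x ∈ Om r c, swT a b f x * g x := by
  have h2 : ∑ x ∈ Om r c, swT a b f x * g x = ∑ x ∈ Om r c, g x * swT a b f x :=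
    Finset.sum_congr rfl fun x _ => mul_comm _ _
  rw [h2, sum_mul_swT, sum_mul_swT]
  have h := sum_chk_invol r c a b (fun x y => f x * g y)
  simp only [mul_sub, Finset.sum_sub_distrib]
  rw [h]
  congr 1
  · exact Finset.sum_congr rfl fun t _ => mul_comm _ _
  · exact Finset.sum_congr rfl fun t _ => mul_comm _ _

theorem swT_dirichlet (r : ι → ℕ) (c : κ → ℕ) (a b : ι) (f : Mat ι κ → ℝ) :
    2 * ∑ x ∈ Om r c, f x * swT a b f x =
      ∑ x ∈ Om r c, ∑ j, ∑ j', if Chk x a b j j' then
        (f x - f (colSwap {a, b} (Equiv.swap j j') x)) ^ 2 else 0 := by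
  rw [sum_mul_swT, sum_chk_eq r c a b
    (fun x j j' => (f x - f (colSwap {a, b} (Equiv.swap j j') x)) ^ 2)]
  have h := sum_chk_invol r c a b (fun x _ => f x ^ 2)
  have e : ∀ t : Mat ι κ × κ × κ,
      (f t.1 - f (colSwap {a, b} (Equiv.swap t.2.1 t.2.2) t.1)) ^ 2 =
      2 * (f t.1 * (f t.1 - f (colSwap {a, b} (Equiv.swap t.2.1 t.2.2) t.1))) - f t.1 ^ 2
        + f (colSwap {a, b} (Equiv.swap t.2.1 t.2.2) t.1) ^ 2 := fun t => by ring
  simp only [e, Finset.sum_add_distrib, Finset.sum_sub_distrib, ← Finset.mul_sum]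
  rw [h]
  ring

omit [Fintype ι] [Fintype κ] in
theorem ne_after_swap {x : Mat ι κ} {a b : ι} {j j' k : κ} (h : Chk x a b j j')
    (hk : x a k ≠ x b k) :
    colSwap {a, b} (Equiv.swap j j') x a k ≠ colSwap {a, b} (Equiv.swap j j') x b k := by
  rw [colSwap_left, colSwap_right, Equiv.swap_apply_def]
  split_ifs
  · rw [h.2.2.1, h.2.2.2]; simp
  · rw [h.1, h.2.1]; simp
  · exact hk

omit [Fintype ι] [Fintype κ] in
theorem chk_trichotomy {z : Mat ι κ} {a b : ι} {j j' : κ} (h1 : z a j ≠ z b j)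
    (h2 : z a j' ≠ z b j') :
    Chk z a b j j' ∨ Chk z a b j' j ∨ colSwap {a, b} (Equiv.swap j j') z = z := by
  have key : z a j = z a j' → z b j = z b j' → colSwap {a, b} (Equiv.swap j j') z = z := by
    intro ha hb
    funext i k
    unfold colSwap
    split_ifs with hi
    · rw [Finset.mem_insert, Finset.mem_singleton] at hi
      rw [Equiv.swap_apply_def]
      rcases hi with rfl | rfl
      · split_ifs with e1 e2
        · rw [e1, ha]
        · rw [e2, ha]
        · rfl
      · split_ifs with e1 e2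
        · rw [e1, hb]
        · rw [e2, hb]
        · rfl
    · rfl
  unfold Chk
  cases e1 : z a j <;> cases e2 : z b j <;> cases e3 : z a j' <;> cases e4 : z b j' <;>
    simp_all

theorem swT_eigen (r : ι → ℕ) (c : κ → ℕ) (a b : ι) (lam : ℝ) (v : Mat ι κ → ℝ)
    (hv : ∀ x ∈ Om r c, swT a b v x = lam * v x) :
    2 ≤ lam ∨ ∀ x ∈ Om r c, ∀ y ∈ Om r c, rel {a, b} x y → v y = v x := by
  by_cases hall : ∀ t ∈ chkSet r c a b, v (colSwap {a, b} (Equiv.swap t.2.1 t.2.2) t.1) = v t.1
  · right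
    have hall' : ∀ x ∈ Om r c, ∀ j j', Chk x a b j j' →
        v (colSwap {a, b} (Equiv.swap j j') x) = v x := by
      intro x hx j j' h
      refine hall (x, j, j') ?_
      unfold chkSet
      rw [Finset.mem_filter, Finset.mem_product]
      exact ⟨⟨hx, by simp⟩, h⟩
    apply conn r c {a, b} v
    intro x hx a' ha' b' hb' j j' hchk
    rw [Finset.mem_insert, Finset.mem_singleton] at ha' hb'
    rcases ha' with rfl | rfl <;> rcases hb' with rfl | rfl
    · exact absurd (hchk.1.symm.trans hchk.2.1) (by simp)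
    · exact hall' x hx j j' hchk
    · rw [Finset.pair_comm, Equiv.swap_comm]
      exact hall' x hx j' j ⟨hchk.2.2.2, hchk.2.2.1, hchk.2.1, hchk.1⟩
    · exact absurd (hchk.1.symm.trans hchk.2.1) (by simp)
  · left
    push Not at hall
    obtain ⟨t1, ht1, hne1⟩ := hall
    obtain ⟨t0, ht0, hmax⟩ := Finset.exists_max_image (chkSet r c a b)
      (fun t => |v t.1 - v (colSwap {a, b} (Equiv.swap t.2.1 t.2.2) t.1)|) ⟨t1, ht1⟩
    obtain ⟨x0, j0, j0'⟩ := t0
    simp only at hmax
    have ht0' := ht0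
    unfold chkSet at ht0'
    rw [Finset.mem_filter, Finset.mem_product] at ht0'
    obtain ⟨⟨hx0, _⟩, hchk0⟩ := ht0'
    simp only at hx0 hchk0
    set s := Equiv.swap j0 j0' with hs
    set y0 := colSwap {a, b} s x0 with hy0
    set δ := v x0 - v y0 with hδ
    have hy0mem : y0 ∈ Om r c := chk_mem hx0 hchk0
    have hδ0 : δ ≠ 0 := by
      have h1 := hmax t1 ht1
      have h2 : 0 < |v t1.1 - v (colSwap {a, b} (Equiv.swap t1.2.1 t1.2.2) t1.1)| :=
        abs_pos.mpr (sub_ne_zero.mpr (Ne.symm hne1))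
      intro h0
      rw [h0, abs_zero] at h1
      linarith
    have hss : ∀ k, s (s k) = k := fun k => by rw [hs, Equiv.swap_apply_self]
    -- bound for all relevant `z`
    have hbound : ∀ z ∈ Om r c, z a j0 ≠ z b j0 → z a j0' ≠ z b j0' →
        |v z - v (colSwap {a, b} s z)| ≤ |δ| := by
      intro z hz h1 h2
      rcases chk_trichotomy h1 h2 with h | h | h
      · refine hmax (z, j0, j0') ?_
        unfold chkSet
        rw [Finset.mem_filter, Finset.mem_product]
        exact ⟨⟨hz, by simp⟩, h⟩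
      · have := hmax (z, j0', j0) (by
          unfold chkSet
          rw [Finset.mem_filter, Finset.mem_product]
          exact ⟨⟨hz, by simp⟩, h⟩)
        simp only at this
        rw [Equiv.swap_comm j0' j0] at this
        exact this
      · rw [h, sub_self, abs_zero]; exact abs_nonneg _
    -- reindexing of the Laplacian at `y0`
    have hTy : swT a b v y0 = ∑ j, ∑ j', if Chk x0 a b j j' then
        v y0 - v (colSwap {a, b} s (colSwap {a, b} (Equiv.swap j j') x0)) else 0 := by
      unfold swT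
      rw [← Equiv.sum_comp s]
      refine Finset.sum_congr rfl fun j _ => ?_
      rw [← Equiv.sum_comp s]
      refine Finset.sum_congr rfl fun j' _ => ?_
      have hiff : Chk y0 a b (s j) (s j') ↔ Chk x0 a b j j' := by
        unfold Chk
        rw [hy0, colSwap_left, colSwap_right, colSwap_left, colSwap_right, hss, hss]
      have hcs : colSwap {a, b} (Equiv.swap (s j) (s j')) y0 =
          colSwap {a, b} s (colSwap {a, b} (Equiv.swap j j') x0) := by
        rw [hy0, colSwap_mul, colSwap_mul, Equiv.swap_apply_apply]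
        congr 1
        have : s⁻¹ = s := by rw [hs, Equiv.swap_inv]
        have h2 : s * s = 1 := by rw [hs, Equiv.swap_mul_self]
        rw [this, ← mul_assoc, ← mul_assoc, h2, one_mul]
      simp only [hiff, hcs]
    have hdiff : δ * (swT a b v x0 - swT a b v y0) = ∑ j, ∑ j', if Chk x0 a b j j' then
        δ * (δ - (v (colSwap {a, b} (Equiv.swap j j') x0) -
          v (colSwap {a, b} s (colSwap {a, b} (Equiv.swap j j') x0)))) else 0 := by
      rw [hTy]
      unfold swT
      rw [← Finset.sum_sub_distrib, Finset.mul_sum]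
      refine Finset.sum_congr rfl fun j _ => ?_
      rw [← Finset.sum_sub_distrib, Finset.mul_sum]
      refine Finset.sum_congr rfl fun j' _ => ?_
      split_ifs
      · rw [hδ]; ring
      · simp
    have hnn : ∀ j j', 0 ≤ (if Chk x0 a b j j' then
        δ * (δ - (v (colSwap {a, b} (Equiv.swap j j') x0) -
          v (colSwap {a, b} s (colSwap {a, b} (Equiv.swap j j') x0)))) else 0) := by
      intro j j'
      split_ifs with h
      · have hb := hbound _ (chk_mem hx0 h)
          (ne_after_swap h (by rw [hchk0.1, hchk0.2.1]; simp))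
          (ne_after_swap h (by rw [hchk0.2.2.1, hchk0.2.2.2]; simp))
        set u := v (colSwap {a, b} (Equiv.swap j j') x0) -
          v (colSwap {a, b} s (colSwap {a, b} (Equiv.swap j j') x0)) with hu
        have h1 : δ * u ≤ |δ| * |u| := by rw [← abs_mul]; exact le_abs_self _
        have h2 : |δ| * |u| ≤ |δ| * |δ| := mul_le_mul_of_nonneg_left hb (abs_nonneg _)
        have h3 : |δ| * |δ| = δ * δ := abs_mul_abs_self δ
        nlinarith
      · exact le_rfl
    have hge : δ * (2 * δ) ≤ δ * (swT a b v x0 - swT a b v y0) := by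
      rw [hdiff]
      have h1 := Finset.single_le_sum (f := fun j => ∑ j', if Chk x0 a b j j' then
        δ * (δ - (v (colSwap {a, b} (Equiv.swap j j') x0) -
          v (colSwap {a, b} s (colSwap {a, b} (Equiv.swap j j') x0)))) else 0)
        (fun j _ => Finset.sum_nonneg fun j' _ => hnn j j') (mem_univ j0)
      have h2 := Finset.single_le_sum (f := fun j' => if Chk x0 a b j0 j' then
        δ * (δ - (v (colSwap {a, b} (Equiv.swap j0 j') x0) -
          v (colSwap {a, b} s (colSwap {a, b} (Equiv.swap j0 j') x0)))) else 0)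
        (fun j' _ => hnn j0 j') (mem_univ j0')
      refine le_trans ?_ (h2.trans h1)
      simp only [if_pos hchk0]
      rw [← hs, ← hy0, hy0, hs, colSwap_invol, ← hs, ← hy0]
      apply le_of_eq
      rw [hδ]; ring
    rw [hv x0 hx0, hv y0 hy0mem] at hge
    have hpos : 0 < δ * δ := mul_self_pos.mpr hδ0
    have : δ * (lam * v x0 - lam * v y0) = lam * (δ * δ) := by rw [hδ]; ring
    rw [this] at hge
    nlinarith

omit [Fintype ι] in
theorem swT_add (a b : ι) (f g : Mat ι κ → ℝ) (x : Mat ι κ) :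
    swT a b (f + g) x = swT a b f x + swT a b g x := by
  unfold swT
  rw [← Finset.sum_add_distrib]
  refine Finset.sum_congr rfl fun j _ => ?_
  rw [← Finset.sum_add_distrib]
  refine Finset.sum_congr rfl fun j' _ => ?_
  split_ifs
  · simp only [Pi.add_apply]; ring
  · simp

omit [Fintype ι] in
theorem swT_smul (a b : ι) (k : ℝ) (f : Mat ι κ → ℝ) (x : Mat ι κ) :
    swT a b (k • f) x = k * swT a b f x := by
  unfold swT
  rw [Finset.mul_sum]
  refine Finset.sum_congr rfl fun j _ => ?_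
  rw [Finset.mul_sum]
  refine Finset.sum_congr rfl fun j' _ => ?_
  split_ifs
  · simp only [Pi.smul_apply, smul_eq_mul]; ring
  · simp

theorem level_one (r : ι → ℕ) (c : κ → ℕ) (a b : ι) (hab : a ≠ b) (f : Mat ι κ → ℝ) :
    4 * ∑ x ∈ Om r c, (f x - avg (Om r c) {a, b} f x) ^ 2 ≤
      ∑ x ∈ Om r c, ∑ j, ∑ j', if Chk x a b j j' then
        (f x - f (colSwap {a, b} (Equiv.swap j j') x)) ^ 2 else 0 := by
  have hE := rel_equiv (κ := κ) ({a, b} : Finset ι)
  set m : Mat ι κ → ℝ := cE (Om r c) (rel {a, b}) f with hm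
  have hloc : ∀ f g : Mat ι κ → ℝ, (∀ x ∈ Om r c, f x = g x) →
      ∀ x ∈ Om r c, swT a b f x = swT a b g x := by
    intro f g hfg x hx
    unfold swT
    refine Finset.sum_congr rfl fun j _ => Finset.sum_congr rfl fun j' _ => ?_
    split_ifs with h
    · rw [hfg x hx, hfg _ (chk_mem hx h)]
    · rfl
  have hspec := specOn (Om r c) (swT a b) (fun f g x _ => swT_add a b f g x)
    (fun k f x _ => swT_smul a b k f x) hloc (swT_symm r c a b)
    (fun k => ∀ x ∈ Om r c, ∀ y ∈ Om r c, rel {a, b} x y → k y = k x) 2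
    (fun lam v _ hv => swT_eigen r c a b lam v hv) (f + (-1 : ℝ) • m) (by
      intro k hk
      have h1 : ∑ x ∈ Om r c, k x * m x = ∑ x ∈ Om r c, k x * f x := by
        rw [hm, cE_symm (Om r c) (rel {a, b}) hE k f]
        refine Finset.sum_congr rfl fun x hx => ?_
        rw [cE_of_inv (Om r c) (rel {a, b}) hE k hx (fun y hy hxy => hk x hx y hy hxy)]
      have h2 : ∑ x ∈ Om r c, k x * (f + (-1 : ℝ) • m) x =
          ∑ x ∈ Om r c, k x * f x - ∑ x ∈ Om r c, k x * m x := by
        rw [← Finset.sum_sub_distrib]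
        refine Finset.sum_congr rfl fun x _ => ?_
        simp only [Pi.add_apply, Pi.smul_apply, smul_eq_mul]; ring
      rw [h2, h1, sub_self])
  have hm0 : ∀ x, swT a b m x = 0 := by
    intro x
    unfold swT
    refine Finset.sum_eq_zero fun j _ => Finset.sum_eq_zero fun j' _ => ?_
    split_ifs
    · rw [hm, cE_class (Om r c) (rel {a, b}) hE f (colSwap_rel {a, b} (Equiv.swap j j') x), sub_self]
    · rfl
  have hT : ∀ x, swT a b (f + (-1 : ℝ) • m) x = swT a b f x := by
    intro x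
    rw [swT_add, swT_smul, hm0]; ring
  have h3 : ∑ x ∈ Om r c, (f + (-1 : ℝ) • m) x * swT a b (f + (-1 : ℝ) • m) x =
      ∑ x ∈ Om r c, f x * swT a b f x := by
    have h4 : ∑ x ∈ Om r c, m x * swT a b f x = 0 := by
      rw [swT_symm]
      refine Finset.sum_eq_zero fun x _ => ?_
      rw [hm0, zero_mul]
    have h5 : ∑ x ∈ Om r c, (f + (-1 : ℝ) • m) x * swT a b (f + (-1 : ℝ) • m) x =
        ∑ x ∈ Om r c, f x * swT a b f x - ∑ x ∈ Om r c, m x * swT a b f x := by
      rw [← Finset.sum_sub_distrib]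
      refine Finset.sum_congr rfl fun x _ => ?_
      rw [hT]
      simp only [Pi.add_apply, Pi.smul_apply, smul_eq_mul]; ring
    rw [h5, h4, sub_zero]
  rw [h3] at hspec
  rw [← swT_dirichlet]
  have h6 : ∑ x ∈ Om r c, (f x - avg (Om r c) {a, b} f x) ^ 2 =
      ∑ x ∈ Om r c, (f + (-1 : ℝ) • m) x ^ 2 := by
    refine Finset.sum_congr rfl fun x _ => ?_
    simp only [Pi.add_apply, Pi.smul_apply, smul_eq_mul, hm, avg]
    ring
  rw [h6]
  linarith

end Model

end Vale.Agent.Lib.P335
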