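import Vale.Agent.Lib.P335.MixedPart

namespace Vale.Agent.Lib.P335
open Finset

section Aux

theorem sum_split4 {α : Type} (Y : Finset α) (p q : α → Bool) (g : α → ℝ) :
    ∑ z ∈ Y, g z =
      ∑ z ∈ Y.filter (fun z => p z = true ∧ q z = true), g z +
      ∑ z ∈ Y.filter (fun z => p z = true ∧ q z = false), g z +
      ∑ z ∈ Y.filter (fun z => p z = false ∧ q z = true), g z +
      ∑ z ∈ Y.filter (fun z => p z = false ∧ q z = false), g z := by
  simp only [Finset.sum_filter]
  rw [← Finset.sum_add_distrib, ← Finset.sum_add_distrib, ← Finset.sum_add_distrib]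
  apply Finset.sum_congr rfl
  intro z _
  cases p z <;> cases q z <;> simp

theorem card_split4 {α : Type} (Y : Finset α) (p q : α → Bool) :
    (Y.card : ℝ) =
      ((Y.filter (fun z => p z = true ∧ q z = true)).card : ℝ) +
      ((Y.filter (fun z => p z = true ∧ q z = false)).card : ℝ) +
      ((Y.filter (fun z => p z = false ∧ q z = true)).card : ℝ) +
      ((Y.filter (fun z => p z = false ∧ q z = false)).card : ℝ) := by
  have h := sum_split4 Y p q (fun _ => (1 : ℝ))
  simpa using h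

theorem part_bij {α : Type} (X Y : Finset α) (φ : α → α) (f : α → ℝ) (L : ℝ)
    (h1 : ∀ z ∈ X, φ z ∈ Y) (h2 : ∀ u ∈ Y, φ u ∈ X) (h3 : ∀ z, φ (φ z) = z)
    (hf : ∀ z ∈ X, |f z - f (φ z)| ≤ L) :
    |(X.card : ℝ) * ∑ u ∈ Y, f u - (Y.card : ℝ) * ∑ z ∈ X, f z| ≤ L * (X.card : ℝ) * (Y.card : ℝ) := by
  have hsum : ∑ u ∈ Y, f u = ∑ z ∈ X, f (φ z) := by
    symm
    apply Finset.sum_nbij' φ φ h1 h2 (fun z _ => h3 z) (fun z _ => h3 z)
    intro z _
    rfl
  have hcard : Y.card = X.card := by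
    symm
    apply Finset.card_nbij' φ φ h1 h2 (fun z _ => h3 z) (fun z _ => h3 z)
  rw [hsum, hcard, ← mul_sub, ← Finset.sum_sub_distrib, abs_mul, Nat.abs_cast]
  have hb : |∑ z ∈ X, (f (φ z) - f z)| ≤ (X.card : ℝ) * L := by
    calc |∑ z ∈ X, (f (φ z) - f z)| ≤ ∑ z ∈ X, |f (φ z) - f z| := Finset.abs_sum_le_sum_abs _ _
      _ ≤ ∑ _z ∈ X, L := by
          apply Finset.sum_le_sum
          intro z hz
          rw [abs_sub_comm]
          exact hf z hz
      _ = (X.card : ℝ) * L := by simp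
  calc (X.card : ℝ) * |∑ z ∈ X, (f (φ z) - f z)| ≤ (X.card : ℝ) * ((X.card : ℝ) * L) :=
        mul_le_mul_of_nonneg_left hb (Nat.cast_nonneg _)
    _ = L * (X.card : ℝ) * (X.card : ℝ) := by ring

end Aux

section Model
variable {ι κ : Type} [Fintype ι] [DecidableEq ι] [Fintype κ] [DecidableEq κ]

theorem pSum_pair' {b e : ι} (hbe : b ≠ e) (z : Mat ι κ) (j : κ) :
    pSum {b, e} z j = (z b j).toNat + (z e j).toNat := by
  simp [pSum, Finset.sum_pair hbe]

theorem mem_fib' {Ω : Finset (Mat ι κ)} {R : Finset ι} {x z : Mat ι κ} :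
    z ∈ fib Ω (rel R) x ↔ z ∈ Ω ∧ rel R x z := by
  simp [fib]

/-- facts on the class of `x` -/
theorem classX_facts {r : ι → ℕ} {c : κ → ℕ} {a b e : ι} (hab : a ≠ b) (hae : a ≠ e) (hbe : b ≠ e)
    {x : Mat ι κ} (hx : x ∈ Om r c) {w w' : κ} (hN : Neu x a b e w w')
    {z : Mat ι κ} (hz : z ∈ fib (Om r c) (rel {b, e}) x) : Neu z a b e w w' := by
  obtain ⟨hzO, hzr⟩ := mem_fib'.1 hz
  obtain ⟨h1, h2, h3, h4, h5, h6⟩ := hN
  have ha : z a = x a := hzr a (by simp [hab, hae])
  have hw := pSum_eq_of_rel hx hzO hzr w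
  have hw' := pSum_eq_of_rel hx hzO hzr w'
  rw [pSum_pair' hbe, pSum_pair' hbe, h2, h3] at hw
  rw [pSum_pair' hbe, pSum_pair' hbe, h5, h6] at hw'
  refine ⟨by rw [ha]; exact h1, ?_, ?_, by rw [ha]; exact h4, ?_, ?_⟩
  · cases hb : z b w <;> simp_all
  · cases hb : z e w <;> simp_all
  · cases hb : z b w' <;> cases he : z e w' <;> simp_all
  · cases hb : z b w' <;> cases he : z e w' <;> simp_all

theorem colSwap_congr_row (R : Finset ι) (σ : Equiv.Perm κ) {z x : Mat ι κ} {i : ι} (h : z i = x i) :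
    colSwap R σ z i = colSwap R σ x i := by
  funext j
  simp [colSwap, h]

theorem neu_swap_mem {r : ι → ℕ} {c : κ → ℕ} {a b e : ι} (hab : a ≠ b)
    {x : Mat ι κ} (hx : x ∈ Om r c) {w w' : κ} (hN : Neu x a b e w w') :
    colSwap {a, b} (Equiv.swap w w') x ∈ Om r c := by
  obtain ⟨h1, h2, h3, h4, h5, h6⟩ := hN
  apply colSwap_mem hx
  rw [pSum_pair' hab, pSum_pair' hab, h1, h2, h4, h5]
  rfl

/-- the part `(1,0)` of the class of `y` is the image of the class of `x` -/
theorem part10 (r : ι → ℕ) (c : κ → ℕ) (a b e : ι) (hab : a ≠ b) (hae : a ≠ e) (hbe : b ≠ e)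
    (f : Mat ι κ → ℝ) (L : ℝ)
    (H2 : ∀ x ∈ Om r c, ∀ w w', Neu x a b e w w' → |f x - f (colSwap {a, b} (Equiv.swap w w') x)| ≤ L)
    (x : Mat ι κ) (hx : x ∈ Om r c) (w w' : κ) (hN : Neu x a b e w w') :
    |((fib (Om r c) (rel {b, e}) x).card : ℝ) *
        ∑ z ∈ (fib (Om r c) (rel {b, e}) (colSwap {a, b} (Equiv.swap w w') x)).filter
          (fun z => z b w = true ∧ z b w' = false), f z -
      (((fib (Om r c) (rel {b, e}) (colSwap {a, b} (Equiv.swap w w') x)).filter
          (fun z => z b w = true ∧ z b w' = false)).card : ℝ) *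
        ∑ z ∈ fib (Om r c) (rel {b, e}) x, f z| ≤
      L * ((fib (Om r c) (rel {b, e}) x).card : ℝ) *
        (((fib (Om r c) (rel {b, e}) (colSwap {a, b} (Equiv.swap w w') x)).filter
          (fun z => z b w = true ∧ z b w' = false)).card : ℝ) := by
  have hane : a ∉ ({b, e} : Finset ι) := by simp [hab, hae]
  apply part_bij _ _ (colSwap {a, b} (Equiv.swap w w')) f L
  · intro z hz
    have hzN := classX_facts hab hae hbe hx hN hz
    obtain ⟨hzO, hzr⟩ := mem_fib'.1 hz
    rw [Finset.mem_filter, mem_fib']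
    refine ⟨⟨neu_swap_mem hab hzO hzN, ?_⟩, ?_, ?_⟩
    · intro i hi
      exact colSwap_congr_row _ _ (hzr i hi)
    · simp [colSwap, hzN.2.2.2.2.1]
    · simp [colSwap, hzN.2.1]
  · intro u hu
    rw [Finset.mem_filter, mem_fib'] at hu
    obtain ⟨⟨huO, hur⟩, hu1, hu2⟩ := hu
    have hua : u a = colSwap {a, b} (Equiv.swap w w') x a := hur a hane
    have hua1 : u a w = false := by rw [hua]; simp [colSwap, hN.2.2.2.1]
    have hua2 : u a w' = true := by rw [hua]; simp [colSwap, hN.1]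
    rw [mem_fib']
    refine ⟨?_, ?_⟩
    · apply colSwap_mem huO
      rw [pSum_pair' hab, pSum_pair' hab, hua1, hua2, hu1, hu2]
      rfl
    · intro i hi
      rw [colSwap_congr_row _ _ (hur i hi), colSwap_invol]
  · intro z
    exact colSwap_invol _ _ _ _
  · intro z hz
    have hzN := classX_facts hab hae hbe hx hN hz
    exact H2 z (mem_fib'.1 hz).1 w w' hzN

theorem fib_eq_of_rel' (Ω : Finset (Mat ι κ)) (R : Finset ι) {x x' : Mat ι κ} (h : rel R x x') :
    fib Ω (rel R) x' = fib Ω (rel R) x := by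
  ext z
  rw [mem_fib', mem_fib']
  constructor
  · rintro ⟨h1, h2⟩
    exact ⟨h1, fun i hi => (h2 i hi).trans (h i hi)⟩
  · rintro ⟨h1, h2⟩
    exact ⟨h1, fun i hi => (h2 i hi).trans (h i hi).symm⟩

/-- facts on the class of `y` -/
theorem classY_facts {r : ι → ℕ} {c : κ → ℕ} {a b e : ι} (hab : a ≠ b) (hae : a ≠ e) (hbe : b ≠ e)
    {x : Mat ι κ} (hx : x ∈ Om r c) {w w' : κ} (hN : Neu x a b e w w')
    {z : Mat ι κ} (hz : z ∈ fib (Om r c) (rel {b, e}) (colSwap {a, b} (Equiv.swap w w') x)) :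
    z e w = !z b w ∧ z e w' = !z b w' := by
  obtain ⟨hzO, hzr⟩ := mem_fib'.1 hz
  have hyO := neu_swap_mem hab hx hN
  obtain ⟨h1, h2, h3, h4, h5, h6⟩ := hN
  have hw := pSum_eq_of_rel hyO hzO hzr w
  have hw' := pSum_eq_of_rel hyO hzO hzr w'
  rw [pSum_pair' hbe, pSum_pair' hbe] at hw hw'
  have e1 : colSwap {a, b} (Equiv.swap w w') x b w = true := by simp [colSwap, h5]
  have e2 : colSwap {a, b} (Equiv.swap w w') x b w' = false := by simp [colSwap, h2]
  have e3 : colSwap {a, b} (Equiv.swap w w') x e w = false := by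
    simp [colSwap, h3, hae.symm, hbe.symm]
  have e4 : colSwap {a, b} (Equiv.swap w w') x e w' = true := by
    simp [colSwap, h6, hae.symm, hbe.symm]
  rw [e1, e3] at hw
  rw [e2, e4] at hw'
  constructor
  · cases hb : z b w <;> cases he : z e w <;> simp_all
  · cases hb : z b w' <;> cases he : z e w' <;> simp_all

/-! T9b : three rows, mixed coupling (uses mixed_part twice) -/
theorem mixed_coupling (r : ι → ℕ) (c : κ → ℕ) (a b e : ι) (hab : a ≠ b) (hae : a ≠ e) (hbe : b ≠ e)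
    (f : Mat ι κ → ℝ) (L : ℝ)
    (H1 : ∀ x ∈ Om r c, ∀ j j', pSum {a, b, e} x j = pSum {a, b, e} x j' →
      f (colSwap {a, b, e} (Equiv.swap j j') x) = f x)
    (H2 : ∀ x ∈ Om r c, ∀ w w', Neu x a b e w w' → |f x - f (colSwap {a, b} (Equiv.swap w w') x)| ≤ L)
    (H3 : ∀ x ∈ Om r c, ∀ w w', Neu x a e b w w' → |f x - f (colSwap {a, e} (Equiv.swap w w') x)| ≤ L)
    (x : Mat ι κ) (hx : x ∈ Om r c) (w w' : κ) (hN : Neu x a b e w w') :
    |avg (Om r c) {b, e} f x - avg (Om r c) {b, e} f (colSwap {a, b} (Equiv.swap w w') x)| ≤ L := by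
  have hN' : Neu x a e b w w' :=
    ⟨hN.1, hN.2.2.1, hN.2.1, hN.2.2.2.1, hN.2.2.2.2.2, hN.2.2.2.2.1⟩
  have hyO := neu_swap_mem hab hx hN
  have H1' : ∀ x ∈ Om r c, ∀ j j', pSum {a, e, b} x j = pSum {a, e, b} x j' →
      f (colSwap {a, e, b} (Equiv.swap j j') x) = f x := by
    rw [Finset.pair_comm e b]
    exact H1
  -- the four parts
  have P11 := mixed_part r c a b e hab hae hbe f L H1 H2 H3 x hx w w' hN
  have P10 := part10 r c a b e hab hae hbe f L H2 x hx w w' hN
  have P00 := mixed_part r c a e b hae hab hbe.symm f L H1' H3 H2 x hx w w' hN'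
  have P01 := part10 r c a e b hae hab hbe.symm f L H3 x hx w w' hN'
  rw [Finset.pair_comm e b] at P00 P01
  have hrel : rel {b, e} (colSwap {a, b} (Equiv.swap w w') x) (colSwap {a, e} (Equiv.swap w w') x) := by
    intro i hi
    have hib : i ≠ b := fun h => hi (by simp [h])
    have hie : i ≠ e := fun h => hi (by simp [h])
    funext j
    by_cases hia : i = a
    · subst hia
      simp [colSwap]
    · simp [colSwap, hia, hib, hie]
  rw [fib_eq_of_rel' _ _ hrel] at P00 P01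
  have F00 : (fib (Om r c) (rel {b, e}) (colSwap {a, b} (Equiv.swap w w') x)).filter
        (fun z => z e w = true ∧ z e w' = true) =
      (fib (Om r c) (rel {b, e}) (colSwap {a, b} (Equiv.swap w w') x)).filter
        (fun z => z b w = false ∧ z b w' = false) := by
    apply Finset.filter_congr
    intro z hz
    obtain ⟨h1, h2⟩ := classY_facts hab hae hbe hx hN hz
    rw [h1, h2]
    simp
  have F01 : (fib (Om r c) (rel {b, e}) (colSwap {a, b} (Equiv.swap w w') x)).filter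
        (fun z => z e w = true ∧ z e w' = false) =
      (fib (Om r c) (rel {b, e}) (colSwap {a, b} (Equiv.swap w w') x)).filter
        (fun z => z b w = false ∧ z b w' = true) := by
    apply Finset.filter_congr
    intro z hz
    obtain ⟨h1, h2⟩ := classY_facts hab hae hbe hx hN hz
    rw [h1, h2]
    simp
  rw [F00] at P00
  rw [F01] at P01
  have hS := sum_split4 (fib (Om r c) (rel {b, e}) (colSwap {a, b} (Equiv.swap w w') x))
    (fun z => z b w) (fun z => z b w') f
  have hC := card_split4 (fib (Om r c) (rel {b, e}) (colSwap {a, b} (Equiv.swap w w') x))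
    (fun z => z b w) (fun z => z b w')
  have hXpos : (0 : ℝ) < ((fib (Om r c) (rel {b, e}) x).card : ℝ) := by
    have : x ∈ fib (Om r c) (rel {b, e}) x := mem_fib'.2 ⟨hx, fun _ _ => rfl⟩
    exact_mod_cast Finset.card_pos.2 ⟨x, this⟩
  have hYpos : (0 : ℝ) <
      ((fib (Om r c) (rel {b, e}) (colSwap {a, b} (Equiv.swap w w') x)).card : ℝ) := by
    have : colSwap {a, b} (Equiv.swap w w') x ∈
        fib (Om r c) (rel {b, e}) (colSwap {a, b} (Equiv.swap w w') x) :=
      mem_fib'.2 ⟨hyO, fun _ _ => rfl⟩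
    exact_mod_cast Finset.card_pos.2 ⟨_, this⟩
  unfold avg cE

  rw [div_sub_div _ _ hXpos.ne' hYpos.ne', abs_div, abs_of_pos (mul_pos hXpos hYpos),
    div_le_iff₀ (mul_pos hXpos hYpos), hS, hC]
  rw [abs_le] at P11 P10 P01 P00 ⊢
  constructor <;> linarith [P11.1, P11.2, P10.1, P10.2, P01.1, P01.2, P00.1, P00.2]

end Model

end Vale.Agent.Lib.P335
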