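import Vale.Agent.Lib.P335.Basic

namespace Vale.Agent.Lib.P335
open Finset

section Model
variable {ι κ : Type} [Fintype ι] [DecidableEq ι] [Fintype κ] [DecidableEq κ]

theorem mp_pSum_pair {b e : ι} (hbe : b ≠ e) (z : Mat ι κ) (l : κ) :
    pSum {b, e} z l = (z b l).toNat + (z e l).toNat := by
  simp [pSum, Finset.sum_pair hbe]

theorem mp_pSum_triple {a b e : ι} (hab : a ≠ b) (hae : a ≠ e) (hbe : b ≠ e) (z : Mat ι κ) (l : κ) :
    pSum {a, b, e} z l = (z a l).toNat + (z b l).toNat + (z e l).toNat := by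
  unfold pSum
  rw [Finset.sum_insert (by simp [hab, hae]), Finset.sum_pair hbe]; ring

theorem mp_card_S_add {b e : ι} (hbe : b ≠ e) (z : Mat ι κ) :
    (univ.filter (fun l => z b l = true ∧ z e l = false)).card
      + (univ.filter (fun l => pSum {b, e} z l = 2)).card = rowSum z b := by
  unfold rowSum
  rw [Finset.card_filter, Finset.card_filter, ← Finset.sum_add_distrib]
  apply Finset.sum_congr rfl
  intro l _
  rw [mp_pSum_pair hbe]
  cases z b l <;> cases z e l <;> simp

theorem mp_card_S'_add {b e : ι} (hbe : b ≠ e) (z : Mat ι κ) :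
    (univ.filter (fun l => z b l = false ∧ z e l = true)).card
      + (univ.filter (fun l => pSum {b, e} z l = 2)).card = rowSum z e := by
  unfold rowSum
  rw [Finset.card_filter, Finset.card_filter, ← Finset.sum_add_distrib]
  apply Finset.sum_congr rfl
  intro l _
  rw [mp_pSum_pair hbe]
  cases z b l <;> cases z e l <;> simp

/-- entries of a member of the class of `x` -/
theorem mp_factsX {r : ι → ℕ} {c : κ → ℕ} {a b e : ι} (hab : a ≠ b) (hae : a ≠ e) (hbe : b ≠ e)
    {x : Mat ι κ} (hx : x ∈ Om r c) {w w' : κ} (hN : Neu x a b e w w')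
    {z : Mat ι κ} (hz : z ∈ fib (Om r c) (rel {b, e}) x) :
    z ∈ Om r c ∧ rel {b, e} x z ∧ z a w = true ∧ z b w = false ∧ z e w = false ∧
      z a w' = false ∧ z b w' = true ∧ z e w' = true := by
  obtain ⟨h1, h2, h3, h4, h5, h6⟩ := hN
  have hz' := Finset.mem_filter.mp hz
  obtain ⟨hzO, hrel⟩ := hz'
  have hza : z a = x a := hrel a (by simp [hab, hae])
  have hw := pSum_eq_of_rel hx hzO hrel w
  have hw' := pSum_eq_of_rel hx hzO hrel w'
  rw [mp_pSum_pair hbe, mp_pSum_pair hbe] at hw hw'
  rw [h2, h3] at hw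
  rw [h5, h6] at hw'
  refine ⟨hzO, hrel, by rw [hza, h1], ?_, ?_, by rw [hza, h4], ?_, ?_⟩
  · revert hw; cases z b w <;> cases z e w <;> simp
  · revert hw; cases z b w <;> cases z e w <;> simp
  · revert hw'; cases z b w' <;> cases z e w' <;> simp
  · revert hw'; cases z b w' <;> cases z e w' <;> simp

/-- entries of a member of the `(1,1)` part of the class of `y` -/
theorem mp_factsY {r : ι → ℕ} {c : κ → ℕ} {a b e : ι} (hab : a ≠ b) (hae : a ≠ e) (hbe : b ≠ e)
    {x : Mat ι κ} (hx : x ∈ Om r c) {w w' : κ} (hN : Neu x a b e w w')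
    {z : Mat ι κ} (hz : z ∈ (fib (Om r c) (rel {b, e}) (colSwap {a, b} (Equiv.swap w w') x)).filter
          (fun z => z b w = true ∧ z b w' = true)) :
    z ∈ Om r c ∧ rel {b, e} (colSwap {a, b} (Equiv.swap w w') x) z ∧ z a w = false ∧ z b w = true ∧
      z e w = false ∧ z a w' = true ∧ z b w' = true ∧ z e w' = false := by
  obtain ⟨h1, h2, h3, h4, h5, h6⟩ := hN
  have hy : colSwap {a, b} (Equiv.swap w w') x ∈ Om r c := chk_mem hx ⟨h1, h2, h4, h5⟩
  obtain ⟨hz1, hzb, hzb'⟩ := Finset.mem_filter.mp hz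
  obtain ⟨hzO, hrel⟩ := Finset.mem_filter.mp hz1
  have hza : z a = colSwap {a, b} (Equiv.swap w w') x a := hrel a (by simp [hab, hae])
  have hw := pSum_eq_of_rel hy hzO hrel w
  have hw' := pSum_eq_of_rel hy hzO hrel w'
  rw [mp_pSum_pair hbe, mp_pSum_pair hbe] at hw hw'
  have e1 : colSwap {a, b} (Equiv.swap w w') x b w = true := by simp [colSwap, h5]
  have e2 : colSwap {a, b} (Equiv.swap w w') x e w = false := by
    simp [colSwap, h3, hae.symm, hbe.symm]
  have e3 : colSwap {a, b} (Equiv.swap w w') x b w' = false := by simp [colSwap, h2]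
  have e4 : colSwap {a, b} (Equiv.swap w w') x e w' = true := by
    simp [colSwap, h6, hae.symm, hbe.symm]
  rw [e1, e2, hzb] at hw
  rw [e3, e4, hzb'] at hw'
  refine ⟨hzO, hrel, by rw [hza]; simp [colSwap, h4], hzb, ?_, by rw [hza]; simp [colSwap, h1], hzb', ?_⟩
  · revert hw; cases z e w <;> simp
  · revert hw'; cases z e w' <;> simp

/-- the number of columns of type `(0,1)` in rows `b e` is positive in the class of `y` -/
theorem mp_pos {r : ι → ℕ} {c : κ → ℕ} {a b e : ι} (hae : a ≠ e) (hbe : b ≠ e)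
    {x : Mat ι κ} (hx : x ∈ Om r c) {w w' : κ} (hN : Neu x a b e w w') :
    0 < r e - (univ.filter (fun l => pSum {b, e} (colSwap {a, b} (Equiv.swap w w') x) l = 2)).card := by
  obtain ⟨h1, h2, h3, h4, h5, h6⟩ := hN
  have hxe := mp_card_S'_add hbe x
  have hre : rowSum x e = r e := (Finset.mem_filter.mp hx).2.1 e
  have hww' : w ≠ w' := by
    intro h; rw [h] at h1; rw [h1] at h4; exact absurd h4 (by simp)
  have hlt : (univ.filter (fun l => pSum {b, e} (colSwap {a, b} (Equiv.swap w w') x) l = 2)).card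
      < (univ.filter (fun l => pSum {b, e} x l = 2)).card := by
    apply Finset.card_lt_card
    rw [Finset.ssubset_iff_of_subset]
    · refine ⟨w', ?_, ?_⟩
      · simp [mp_pSum_pair hbe, h5, h6]
      · simp [mp_pSum_pair hbe, colSwap, h2, h6, hae.symm, hbe.symm]
    · intro l hl
      simp only [Finset.mem_filter, Finset.mem_univ, true_and] at hl ⊢
      rw [mp_pSum_pair hbe] at hl ⊢
      by_cases hlw : l = w
      · subst hlw
        simp [colSwap, h5, h3, hae.symm, hbe.symm] at hl
      · by_cases hlw' : l = w'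
        · subst hlw'
          simp [h5, h6]
        · simpa [colSwap, hae.symm, hbe.symm, Equiv.swap_apply_of_ne_of_ne hlw hlw'] using hl
  omega

theorem mp_fwd {r : ι → ℕ} {c : κ → ℕ} {a b e : ι} (hab : a ≠ b) (hae : a ≠ e) (hbe : b ≠ e)
    {x : Mat ι κ} (hx : x ∈ Om r c) {w w' : κ} (hN : Neu x a b e w w')
    {z : Mat ι κ} (hz : z ∈ fib (Om r c) (rel {b, e}) x) {l : κ} (hbl : z b l = true) (hel : z e l = false) :
    colSwap {b, e} (Equiv.swap w l) (colSwap {a, e} (Equiv.swap w w') z) ∈
      (fib (Om r c) (rel {b, e}) (colSwap {a, b} (Equiv.swap w w') x)).filter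
          (fun z => z b w = true ∧ z b w' = true) ∧
    colSwap {b, e} (Equiv.swap w l) (colSwap {a, e} (Equiv.swap w w') z) b l = false ∧
    colSwap {b, e} (Equiv.swap w l) (colSwap {a, e} (Equiv.swap w w') z) e l = true := by
  obtain ⟨hzO, hrel, z1, z2, z3, z4, z5, z6⟩ := mp_factsX hab hae hbe hx hN hz
  have hlw : l ≠ w := by intro h; rw [h, z2] at hbl; exact absurd hbl (by simp)
  have hlw' : l ≠ w' := by intro h; rw [h, z6] at hel; exact absurd hel (by simp)
  have hww' : w ≠ w' := by intro h; rw [h, z4] at z1; exact absurd z1 (by simp)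
  have hu : colSwap {a, e} (Equiv.swap w w') z ∈ Om r c := by
    apply colSwap_mem hzO
    rw [mp_pSum_pair hae, mp_pSum_pair hae, z1, z3, z4, z6]; rfl
  have hv : colSwap {b, e} (Equiv.swap w l) (colSwap {a, e} (Equiv.swap w w') z) ∈ Om r c := by
    apply colSwap_mem hu
    rw [mp_pSum_pair hbe, mp_pSum_pair hbe]
    simp [colSwap, hab.symm, hbe, Equiv.swap_apply_of_ne_of_ne hlw hlw', z2, z6, hbl, hel]
  refine ⟨?_, ?_, ?_⟩
  · rw [Finset.mem_filter]
    refine ⟨?_, ?_, ?_⟩
    · unfold fib
      rw [Finset.mem_filter]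
      refine ⟨hv, ?_⟩
      intro i hi
      have hib : i ≠ b := by intro h; apply hi; simp [h]
      have hie : i ≠ e := by intro h; apply hi; simp [h]
      have hzi : z i = x i := hrel i hi
      funext j
      by_cases hia : i = a
      · subst hia
        simp [colSwap, hib, hie, hzi]
      · simp [colSwap, hib, hie, hia, hzi]
    · simp [colSwap, hab.symm, hbe, hbl]
    · simp [colSwap, hab.symm, hbe, Equiv.swap_apply_of_ne_of_ne hww'.symm hlw'.symm, z5]
  · simp [colSwap, hab.symm, hbe, z2]
  · simp [colSwap, z6]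

theorem mp_bwd {r : ι → ℕ} {c : κ → ℕ} {a b e : ι} (hab : a ≠ b) (hae : a ≠ e) (hbe : b ≠ e)
    {x : Mat ι κ} (hx : x ∈ Om r c) {w w' : κ} (hN : Neu x a b e w w')
    {z : Mat ι κ} (hz : z ∈ (fib (Om r c) (rel {b, e}) (colSwap {a, b} (Equiv.swap w w') x)).filter
          (fun z => z b w = true ∧ z b w' = true)) {l : κ} (hbl : z b l = false) (hel : z e l = true) :
    colSwap {a, e} (Equiv.swap w w') (colSwap {b, e} (Equiv.swap w l) z) ∈
      fib (Om r c) (rel {b, e}) x ∧
    colSwap {a, e} (Equiv.swap w w') (colSwap {b, e} (Equiv.swap w l) z) b l = true ∧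
    colSwap {a, e} (Equiv.swap w w') (colSwap {b, e} (Equiv.swap w l) z) e l = false := by
  obtain ⟨hzO, hrel, z1, z2, z3, z4, z5, z6⟩ := mp_factsY hab hae hbe hx hN hz
  have hlw : l ≠ w := by intro h; rw [h, z2] at hbl; exact absurd hbl (by simp)
  have hlw' : l ≠ w' := by intro h; rw [h, z5] at hbl; exact absurd hbl (by simp)
  have hww' : w ≠ w' := by intro h; rw [h, z4] at z1; exact absurd z1 (by simp)
  have hu : colSwap {b, e} (Equiv.swap w l) z ∈ Om r c := by
    apply colSwap_mem hzO
    rw [mp_pSum_pair hbe, mp_pSum_pair hbe, z2, z3, hbl, hel]; rfl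
  have hv : colSwap {a, e} (Equiv.swap w w') (colSwap {b, e} (Equiv.swap w l) z) ∈ Om r c := by
    apply colSwap_mem hu
    rw [mp_pSum_pair hae, mp_pSum_pair hae]
    simp [colSwap, hab, hae, Equiv.swap_apply_of_ne_of_ne hww'.symm hlw'.symm, z1, z4, z6, hel]
  refine ⟨?_, ?_, ?_⟩
  · unfold fib
    rw [Finset.mem_filter]
    refine ⟨hv, ?_⟩
    intro i hi
    have hib : i ≠ b := by intro h; apply hi; simp [h]
    have hie : i ≠ e := by intro h; apply hi; simp [h]
    have hzi : z i = colSwap {a, b} (Equiv.swap w w') x i := hrel i hi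
    funext j
    by_cases hia : i = a
    · subst hia
      simp [colSwap, hib, hie, hzi]
    · simp [colSwap, hib, hie, hia, hzi]
  · simp [colSwap, hab.symm, hbe, z2]
  · simp [colSwap, Equiv.swap_apply_of_ne_of_ne hlw hlw', z3]

theorem mp_close {r : ι → ℕ} {c : κ → ℕ} {a b e : ι} (hab : a ≠ b) (hae : a ≠ e) (hbe : b ≠ e)
    (f : Mat ι κ → ℝ) (L : ℝ)
    (H1 : ∀ x ∈ Om r c, ∀ j j', pSum {a, b, e} x j = pSum {a, b, e} x j' →
      f (colSwap {a, b, e} (Equiv.swap j j') x) = f x)
    (H2 : ∀ x ∈ Om r c, ∀ w w', Neu x a b e w w' → |f x - f (colSwap {a, b} (Equiv.swap w w') x)| ≤ L)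
    (H3 : ∀ x ∈ Om r c, ∀ w w', Neu x a e b w w' → |f x - f (colSwap {a, e} (Equiv.swap w w') x)| ≤ L)
    {x : Mat ι κ} (hx : x ∈ Om r c) {w w' : κ} (hN : Neu x a b e w w')
    {z : Mat ι κ} (hz : z ∈ fib (Om r c) (rel {b, e}) x) {l : κ} (hbl : z b l = true) (hel : z e l = false) :
    |f z - f (colSwap {b, e} (Equiv.swap w l) (colSwap {a, e} (Equiv.swap w w') z))| ≤ L := by
  obtain ⟨hzO, hrel, z1, z2, z3, z4, z5, z6⟩ := mp_factsX hab hae hbe hx hN hz
  have hlw : l ≠ w := by intro h; rw [h, z2] at hbl; exact absurd hbl (by simp)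
  have hlw' : l ≠ w' := by intro h; rw [h, z6] at hel; exact absurd hel (by simp)
  have hww' : w ≠ w' := by intro h; rw [h, z4] at z1; exact absurd z1 (by simp)
  cases hal : z a l with
  | false =>
    have hu : colSwap {a, e} (Equiv.swap w w') z ∈ Om r c := by
      apply colSwap_mem hzO
      rw [mp_pSum_pair hae, mp_pSum_pair hae, z1, z3, z4, z6]; rfl
    have hEq : colSwap {b, e} (Equiv.swap w l) (colSwap {a, e} (Equiv.swap w w') z) =
        colSwap {a, b, e} (Equiv.swap w l) (colSwap {a, e} (Equiv.swap w w') z) := by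
      funext i j
      by_cases hia : i = a
      · subst hia
        by_cases hjw : j = w
        · subst hjw
          simp [colSwap, hab, hae, Equiv.swap_apply_of_ne_of_ne hlw hlw', z4, hal]
        · by_cases hjl : j = l
          · subst hjl
            simp [colSwap, hab, hae, Equiv.swap_apply_of_ne_of_ne hlw hlw', z4, hal]
          · simp [colSwap, hab, hae, Equiv.swap_apply_of_ne_of_ne hjw hjl]
      · simp [colSwap, hia]
    rw [hEq, H1 _ hu w l]
    · exact H3 z hzO w w' ⟨z1, z3, z2, z4, z6, z5⟩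
    · rw [mp_pSum_triple hab hae hbe, mp_pSum_triple hab hae hbe]
      simp [colSwap, hab.symm, hbe, Equiv.swap_apply_of_ne_of_ne hlw hlw', z4, z2, z6, hal, hbl, hel]
  | true =>
    have hu : colSwap {a, b} (Equiv.swap w w') z ∈ Om r c := by
      apply colSwap_mem hzO
      rw [mp_pSum_pair hab, mp_pSum_pair hab, z1, z2, z4, z5]; rfl
    have hEq : colSwap {b, e} (Equiv.swap w l) (colSwap {a, e} (Equiv.swap w w') z) =
        colSwap {a, b, e} (Equiv.swap w' l) (colSwap {a, b} (Equiv.swap w w') z) := by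
      funext i j
      by_cases hjw : j = w
      · subst hjw
        by_cases hia : i = a
        · subst hia
          simp [colSwap, hab, hae, Equiv.swap_apply_of_ne_of_ne hww' hlw.symm]
        · by_cases hib : i = b
          · subst hib
            simp [colSwap, hab.symm, hbe, Equiv.swap_apply_of_ne_of_ne hww' hlw.symm, hbl, z5]
          · by_cases hie : i = e
            · subst hie
              simp [colSwap, hae.symm, hbe.symm, Equiv.swap_apply_of_ne_of_ne hww' hlw.symm,
                Equiv.swap_apply_of_ne_of_ne hlw hlw', hel, z3]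
            · simp [colSwap, hia, hib, hie]
      · by_cases hjw' : j = w'
        · subst hjw'
          by_cases hia : i = a
          · subst hia
            simp [colSwap, hab, hae, Equiv.swap_apply_of_ne_of_ne hlw hlw', z1, hal]
          · by_cases hib : i = b
            · subst hib
              simp [colSwap, hab.symm, hbe, Equiv.swap_apply_of_ne_of_ne hlw hlw',
                Equiv.swap_apply_of_ne_of_ne hww'.symm hlw'.symm, hbl, z5]
            · by_cases hie : i = e
              · subst hie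
                simp [colSwap, hae.symm, hbe.symm, Equiv.swap_apply_of_ne_of_ne hww'.symm hlw'.symm,
                  hel, z3]
              · simp [colSwap, hia, hib, hie]
        · by_cases hjl : j = l
          · subst hjl
            by_cases hia : i = a
            · subst hia
              simp [colSwap, hab, hae, Equiv.swap_apply_of_ne_of_ne hlw hlw', z1, hal]
            · by_cases hib : i = b
              · subst hib
                simp [colSwap, hab.symm, hbe]
              · by_cases hie : i = e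
                · subst hie
                  simp [colSwap, hae.symm, hbe.symm]
                · simp [colSwap, hia, hib, hie]
          · by_cases hia : i = a
            · subst hia
              simp [colSwap, hab, hae, Equiv.swap_apply_of_ne_of_ne hjw' hjl]
            · by_cases hib : i = b
              · subst hib
                simp [colSwap, hab.symm, hbe, Equiv.swap_apply_of_ne_of_ne hjw' hjl,
                  Equiv.swap_apply_of_ne_of_ne hjw hjl, Equiv.swap_apply_of_ne_of_ne hjw hjw']
              · by_cases hie : i = e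
                · subst hie
                  simp [colSwap, hae.symm, hbe.symm, Equiv.swap_apply_of_ne_of_ne hjw' hjl,
                    Equiv.swap_apply_of_ne_of_ne hjw hjl, Equiv.swap_apply_of_ne_of_ne hjw hjw']
                · simp [colSwap, hia, hib, hie]
    rw [hEq, H1 _ hu w' l]
    · exact H2 z hzO w w' ⟨z1, z2, z3, z4, z5, z6⟩
    · rw [mp_pSum_triple hab hae hbe, mp_pSum_triple hab hae hbe]
      simp [colSwap, hae.symm, hbe.symm, Equiv.swap_apply_of_ne_of_ne hlw hlw', z1, z2, z6, hal, hbl, hel]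

/-! T9a : three rows, mixed coupling, the part of the class of `y` with `z b w = z b w' = true` -/
theorem mixed_part (r : ι → ℕ) (c : κ → ℕ) (a b e : ι) (hab : a ≠ b) (hae : a ≠ e) (hbe : b ≠ e)
    (f : Mat ι κ → ℝ) (L : ℝ)
    (H1 : ∀ x ∈ Om r c, ∀ j j', pSum {a, b, e} x j = pSum {a, b, e} x j' →
      f (colSwap {a, b, e} (Equiv.swap j j') x) = f x)
    (H2 : ∀ x ∈ Om r c, ∀ w w', Neu x a b e w w' → |f x - f (colSwap {a, b} (Equiv.swap w w') x)| ≤ L)
    (H3 : ∀ x ∈ Om r c, ∀ w w', Neu x a e b w w' → |f x - f (colSwap {a, e} (Equiv.swap w w') x)| ≤ L)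
    (x : Mat ι κ) (hx : x ∈ Om r c) (w w' : κ) (hN : Neu x a b e w w') :
    |((fib (Om r c) (rel {b, e}) x).card : ℝ) *
        ∑ z ∈ (fib (Om r c) (rel {b, e}) (colSwap {a, b} (Equiv.swap w w') x)).filter
          (fun z => z b w = true ∧ z b w' = true), f z -
      (((fib (Om r c) (rel {b, e}) (colSwap {a, b} (Equiv.swap w w') x)).filter
          (fun z => z b w = true ∧ z b w' = true)).card : ℝ) *
        ∑ z ∈ fib (Om r c) (rel {b, e}) x, f z| ≤
      L * ((fib (Om r c) (rel {b, e}) x).card : ℝ) *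
        (((fib (Om r c) (rel {b, e}) (colSwap {a, b} (Equiv.swap w w') x)).filter
          (fun z => z b w = true ∧ z b w' = true)).card : ℝ) := by
  have hy : colSwap {a, b} (Equiv.swap w w') x ∈ Om r c :=
    chk_mem hx ⟨hN.1, hN.2.1, hN.2.2.2.1, hN.2.2.2.2.1⟩
  refine biregular (fib (Om r c) (rel {b, e}) x)
    ((fib (Om r c) (rel {b, e}) (colSwap {a, b} (Equiv.swap w w') x)).filter
          (fun z => z b w = true ∧ z b w' = true))
    (fun z => univ.filter (fun l => z b l = true ∧ z e l = false))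
    (fun z => univ.filter (fun l => z b l = false ∧ z e l = true))
    (fun z l => colSwap {b, e} (Equiv.swap w l) (colSwap {a, e} (Equiv.swap w w') z))
    (fun z l => colSwap {a, e} (Equiv.swap w w') (colSwap {b, e} (Equiv.swap w l) z))
    f L (r e - (univ.filter (fun l => pSum {b, e} (colSwap {a, b} (Equiv.swap w w') x) l = 2)).card)
    (r b - (univ.filter (fun l => pSum {b, e} x l = 2)).card)
    (mp_pos hae hbe hx hN) ?_ ?_ ?_ ?_ ?_
  · intro z hz
    obtain ⟨hzO, hrel, -⟩ := mp_factsX hab hae hbe hx hN hz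
    have h := mp_card_S_add hbe z
    have hrb : rowSum z b = r b := (Finset.mem_filter.mp hzO).2.1 b
    have hcongr : (univ.filter (fun l => pSum {b, e} z l = 2)) =
        (univ.filter (fun l => pSum {b, e} x l = 2)) := by
      apply Finset.filter_congr
      intro l _
      rw [pSum_eq_of_rel hx hzO hrel l]
    rw [hcongr] at h
    omega
  · intro z hz
    obtain ⟨hzO, hrel, -⟩ := mp_factsY hab hae hbe hx hN hz
    have h := mp_card_S'_add hbe z
    have hre : rowSum z e = r e := (Finset.mem_filter.mp hzO).2.1 e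
    have hcongr : (univ.filter (fun l => pSum {b, e} z l = 2)) =
        (univ.filter (fun l => pSum {b, e} (colSwap {a, b} (Equiv.swap w w') x) l = 2)) := by
      apply Finset.filter_congr
      intro l _
      rw [pSum_eq_of_rel hy hzO hrel l]
    rw [hcongr] at h
    omega
  · intro z hz l hl
    obtain ⟨-, hbl, hel⟩ := Finset.mem_filter.mp hl
    obtain ⟨g1, g2, g3⟩ := mp_fwd hab hae hbe hx hN hz hbl hel
    refine ⟨g1, ?_, ?_⟩
    · exact Finset.mem_filter.mpr ⟨Finset.mem_univ _, g2, g3⟩
    · show colSwap {a, e} (Equiv.swap w w') (colSwap {b, e} (Equiv.swap w l)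
        (colSwap {b, e} (Equiv.swap w l) (colSwap {a, e} (Equiv.swap w w') z))) = z
      rw [colSwap_invol, colSwap_invol]
  · intro z hz l hl
    obtain ⟨-, hbl, hel⟩ := Finset.mem_filter.mp hl
    obtain ⟨g1, g2, g3⟩ := mp_bwd hab hae hbe hx hN hz hbl hel
    refine ⟨g1, ?_, ?_⟩
    · exact Finset.mem_filter.mpr ⟨Finset.mem_univ _, g2, g3⟩
    · show colSwap {b, e} (Equiv.swap w l) (colSwap {a, e} (Equiv.swap w w')
        (colSwap {a, e} (Equiv.swap w w') (colSwap {b, e} (Equiv.swap w l) z))) = z
      rw [colSwap_invol, colSwap_invol]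
  · intro z hz l hl
    obtain ⟨-, hbl, hel⟩ := Finset.mem_filter.mp hl
    exact mp_close hab hae hbe f L H1 H2 H3 hx hN hz hbl hel

end Model

end Vale.Agent.Lib.P335
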