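import Vale.Agent.Lib.P335.ThreeEig
import Vale.Agent.Lib.P335.LevelOne
import Vale.Agent.Lib.P335.Comm
import Vale.Agent.Lib.P335.Knabe
import Vale.Agent.Lib.P335.Spec

namespace Vale.Agent.Lib.P335
open Finset

set_option linter.unusedSectionVars false

section Model
variable {ι κ : Type} [Fintype ι] [DecidableEq ι] [Fintype κ] [DecidableEq κ]

/-- `f` minus its average over the resampling of the rows in `R` -/
noncomputable def dd (Ω : Finset (Mat ι κ)) (R : Finset ι) (f : Mat ι κ → ℝ) (x : Mat ι κ) : ℝ :=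
  f x - avg Ω R f x

theorem avg_symm (Ω : Finset (Mat ι κ)) (R : Finset ι) (f g : Mat ι κ → ℝ) :
    ∑ x ∈ Ω, f x * avg Ω R g x = ∑ x ∈ Ω, avg Ω R f x * g x :=
  cE_symm Ω (rel R) (rel_equiv R) f g

theorem avg_add (Ω : Finset (Mat ι κ)) (R : Finset ι) (f g : Mat ι κ → ℝ) (x : Mat ι κ) :
    avg Ω R (f + g) x = avg Ω R f x + avg Ω R g x := cE_add Ω (rel R) f g x

theorem avg_sub (Ω : Finset (Mat ι κ)) (R : Finset ι) (f g : Mat ι κ → ℝ) (x : Mat ι κ) :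
    avg Ω R (f - g) x = avg Ω R f x - avg Ω R g x := cE_sub Ω (rel R) f g x

theorem avg_smul (Ω : Finset (Mat ι κ)) (R : Finset ι) (t : ℝ) (f : Mat ι κ → ℝ) (x : Mat ι κ) :
    avg Ω R (t • f) x = t * avg Ω R f x := cE_smul Ω (rel R) t f x

theorem avg_ext (Ω : Finset (Mat ι κ)) (R : Finset ι) (f g : Mat ι κ → ℝ)
    (h : ∀ y ∈ Ω, f y = g y) (x : Mat ι κ) : avg Ω R f x = avg Ω R g x := cE_ext Ω (rel R) f g h x

theorem avg_idem (Ω : Finset (Mat ι κ)) (R : Finset ι) (f : Mat ι κ → ℝ) {x : Mat ι κ} (hx : x ∈ Ω) :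
    avg Ω R (avg Ω R f) x = avg Ω R f x := cE_idem Ω (rel R) (rel_equiv R) f hx

theorem rel_mono {R R' : Finset ι} (h : R ⊆ R') (x y : Mat ι κ) (hxy : rel R x y) : rel R' x y :=
  fun i hi => hxy i (fun hi' => hi (h hi'))

theorem avg_avg_of_subset (Ω : Finset (Mat ι κ)) {R R' : Finset ι} (h : R ⊆ R') (f : Mat ι κ → ℝ)
    {x : Mat ι κ} (hx : x ∈ Ω) : avg Ω R (avg Ω R' f) x = avg Ω R' f x :=
  cE_cE_of_le Ω (rel R) (rel R') (rel_equiv R) (rel_equiv R') (rel_mono h) f hx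

theorem sum_mul_dd (Ω : Finset (Mat ι κ)) (R : Finset ι) (f : Mat ι κ → ℝ) :
    ∑ x ∈ Ω, f x * dd Ω R f x = ∑ x ∈ Ω, dd Ω R f x ^ 2 :=
  sum_mul_sub_cE Ω (rel R) (rel_equiv R) f

theorem dd_add (Ω : Finset (Mat ι κ)) (R : Finset ι) (f g : Mat ι κ → ℝ) (x : Mat ι κ) :
    dd Ω R (f + g) x = dd Ω R f x + dd Ω R g x := by
  unfold dd; rw [avg_add]; simp only [Pi.add_apply]; ring

theorem dd_smul (Ω : Finset (Mat ι κ)) (R : Finset ι) (t : ℝ) (f : Mat ι κ → ℝ) (x : Mat ι κ) :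
    dd Ω R (t • f) x = t * dd Ω R f x := by
  unfold dd; rw [avg_smul]; simp only [Pi.smul_apply, smul_eq_mul]; ring

theorem dd_ext (Ω : Finset (Mat ι κ)) (R : Finset ι) (f g : Mat ι κ → ℝ)
    (h : ∀ y ∈ Ω, f y = g y) (x : Mat ι κ) (hx : x ∈ Ω) : dd Ω R f x = dd Ω R g x := by
  unfold dd; rw [avg_ext Ω R f g h, h x hx]

theorem dd_symm (Ω : Finset (Mat ι κ)) (R : Finset ι) (f g : Mat ι κ → ℝ) :
    ∑ x ∈ Ω, f x * dd Ω R g x = ∑ x ∈ Ω, dd Ω R f x * g x := by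
  unfold dd
  simp only [mul_sub, sub_mul, sum_sub_distrib]
  rw [avg_symm]

/-- subtracting a coarser average does not change `dd` -/
theorem dd_sub_avg (Ω : Finset (Mat ι κ)) {R R' : Finset ι} (h : R ⊆ R') (f : Mat ι κ → ℝ)
    {x : Mat ι κ} (hx : x ∈ Ω) : dd Ω R (f - avg Ω R' f) x = dd Ω R f x := by
  unfold dd
  rw [avg_sub, avg_avg_of_subset Ω h f hx]
  simp only [Pi.sub_apply]; ring

/-- functions that are constant on the classes are orthogonal to `f - avg f` -/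
theorem orth_of_inv (Ω : Finset (Mat ι κ)) (R : Finset ι) (f k : Mat ι κ → ℝ)
    (hk : ∀ x ∈ Ω, ∀ y ∈ Ω, rel R x y → k y = k x) :
    ∑ x ∈ Ω, k x * (f - avg Ω R f) x = 0 := by
  have h1 : ∑ x ∈ Ω, k x * avg Ω R f x = ∑ x ∈ Ω, k x * f x := by
    rw [avg_symm]
    refine sum_congr rfl fun x hx => ?_
    have : avg Ω R k x = k x := cE_of_inv Ω (rel R) (rel_equiv R) k hx (fun y hy hxy => hk x hx y hy hxy)
    rw [this]
  simp only [Pi.sub_apply, mul_sub, sum_sub_distrib, h1, sub_self]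

theorem dd_disj_nonneg (r : ι → ℕ) (c : κ → ℕ) (R R' : Finset ι) (hd : Disjoint R R')
    (f : Mat ι κ → ℝ) : 0 ≤ ∑ x ∈ Om r c, dd (Om r c) R f x * dd (Om r c) R' f x := by
  set Ω := Om r c with hΩ
  set g : Mat ι κ → ℝ := f - avg Ω R f with hg
  have hEg : ∀ x ∈ Ω, avg Ω R g x = 0 := by
    intro x hx
    rw [hg, avg_sub, avg_idem Ω R f hx, sub_self]
  have hgd : ∀ x, dd Ω R f x = g x := fun x => rfl
  have h3 : ∀ u : Mat ι κ → ℝ, ∑ x ∈ Ω, g x * avg Ω R u x = 0 := by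
    intro u
    rw [avg_symm]
    exact sum_eq_zero fun x hx => by rw [hEg x hx, zero_mul]
  have hf : f = g + avg Ω R f := by rw [hg]; abel
  have h5 : ∀ x ∈ Ω, dd Ω R' f x = dd Ω R' g x + (avg Ω R f x - avg Ω R (avg Ω R' f) x) := by
    intro x hx
    have : dd Ω R' f x = dd Ω R' (g + avg Ω R f) x := by rw [← hf]
    rw [this, dd_add]
    congr 1
    unfold dd
    rw [avg_comm r c R R' hd f x hx]
  have h6 : ∑ x ∈ Ω, dd Ω R f x * dd Ω R' f x = ∑ x ∈ Ω, g x * dd Ω R' g x := by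
    have : ∑ x ∈ Ω, dd Ω R f x * dd Ω R' f x =
        ∑ x ∈ Ω, (g x * dd Ω R' g x + (g x * avg Ω R f x - g x * avg Ω R (avg Ω R' f) x)) := by
      refine sum_congr rfl fun x hx => ?_
      rw [h5 x hx, hgd]; ring
    rw [this, sum_add_distrib, sum_sub_distrib, h3, h3]; ring
  rw [h6, sum_mul_dd]
  exact sum_nonneg fun x _ => sq_nonneg _

theorem tri_nonneg (r : ι → ℕ) (c : κ → ℕ) (a b e : ι) (hab : a ≠ b) (hae : a ≠ e) (hbe : b ≠ e)
    (f : Mat ι κ → ℝ) :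
    0 ≤ ∑ x ∈ Om r c, dd (Om r c) {a, b} f x * dd (Om r c) {a, e} f x +
      ∑ x ∈ Om r c, dd (Om r c) {a, b} f x * dd (Om r c) {b, e} f x +
      ∑ x ∈ Om r c, dd (Om r c) {a, e} f x * dd (Om r c) {b, e} f x := by
  set Ω := Om r c with hΩ
  set g : Mat ι κ → ℝ := f - avg Ω {a, b, e} f with hg
  have s1 : ({a, b} : Finset ι) ⊆ {a, b, e} := by
    intro i; simp only [mem_insert, mem_singleton]; tauto
  have s2 : ({a, e} : Finset ι) ⊆ {a, b, e} := by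
    intro i; simp only [mem_insert, mem_singleton]; tauto
  have s3 : ({b, e} : Finset ι) ⊆ {a, b, e} := by
    intro i; simp only [mem_insert, mem_singleton]; tauto
  have e1 : ∀ x ∈ Ω, dd Ω {a, b} f x = dd Ω {a, b} g x := fun x hx => (dd_sub_avg Ω s1 f hx).symm
  have e2 : ∀ x ∈ Ω, dd Ω {a, e} f x = dd Ω {a, e} g x := fun x hx => (dd_sub_avg Ω s2 f hx).symm
  have e3 : ∀ x ∈ Ω, dd Ω {b, e} f x = dd Ω {b, e} g x := fun x hx => (dd_sub_avg Ω s3 f hx).symm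
  -- the spectral bound
  have hspec := specOn Ω
    (fun v x => -(avg Ω {a, b} v x + avg Ω {a, e} v x + avg Ω {b, e} v x))
    (by intro u v x _; simp only [avg_add]; ring)
    (by intro t v x _; simp only [avg_smul]; ring)
    (by intro u v h x _; simp only [avg_ext Ω _ u v h])
    (by
      intro u v
      simp only [mul_neg, neg_mul, mul_add, add_mul, sum_neg_distrib, sum_add_distrib, avg_symm])
    (fun v => ∀ x ∈ Ω, ∀ y ∈ Ω, rel {a, b, e} x y → v y = v x) (-2)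
    (by
      intro lam v _ hv
      by_cases hl : -2 ≤ lam
      · exact Or.inl hl
      · right
        refine three_row_eig r c a b e hab hae hbe (-lam) (by linarith [not_le.mp hl]) v ?_
        intro x hx
        have := hv x hx
        linarith)
    g (fun k hk => orth_of_inv Ω {a, b, e} f k hk)
  have q1 := sum_mul_dd Ω {a, b} g
  have q2 := sum_mul_dd Ω {a, e} g
  have q3 := sum_mul_dd Ω {b, e} g
  have hs1 : ∑ x ∈ Ω, dd Ω {a, b} f x * dd Ω {a, e} f x =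
      ∑ x ∈ Ω, dd Ω {a, b} g x * dd Ω {a, e} g x :=
    sum_congr rfl fun x hx => by rw [e1 x hx, e2 x hx]
  have hs2 : ∑ x ∈ Ω, dd Ω {a, b} f x * dd Ω {b, e} f x =
      ∑ x ∈ Ω, dd Ω {a, b} g x * dd Ω {b, e} g x :=
    sum_congr rfl fun x hx => by rw [e1 x hx, e3 x hx]
  have hs3 : ∑ x ∈ Ω, dd Ω {a, e} f x * dd Ω {b, e} f x =
      ∑ x ∈ Ω, dd Ω {a, e} g x * dd Ω {b, e} g x :=
    sum_congr rfl fun x hx => by rw [e2 x hx, e3 x hx]
  rw [hs1, hs2, hs3]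
  -- algebra
  have hpos : 0 ≤ ∑ x ∈ Ω, (dd Ω {a, b} g x + dd Ω {a, e} g x + dd Ω {b, e} g x - g x) ^ 2 :=
    sum_nonneg fun x _ => sq_nonneg _
  have hexp : ∑ x ∈ Ω, (dd Ω {a, b} g x + dd Ω {a, e} g x + dd Ω {b, e} g x - g x) ^ 2 =
      2 * (∑ x ∈ Ω, dd Ω {a, b} g x * dd Ω {a, e} g x + ∑ x ∈ Ω, dd Ω {a, b} g x * dd Ω {b, e} g x +
        ∑ x ∈ Ω, dd Ω {a, e} g x * dd Ω {b, e} g x)
      + (∑ x ∈ Ω, dd Ω {a, b} g x ^ 2 + ∑ x ∈ Ω, dd Ω {a, e} g x ^ 2 + ∑ x ∈ Ω, dd Ω {b, e} g x ^ 2)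
      - 2 * (∑ x ∈ Ω, g x * dd Ω {a, b} g x + ∑ x ∈ Ω, g x * dd Ω {a, e} g x +
          ∑ x ∈ Ω, g x * dd Ω {b, e} g x) + ∑ x ∈ Ω, g x ^ 2 := by
    simp only [mul_sum, ← sum_add_distrib, ← sum_sub_distrib]
    exact sum_congr rfl fun x _ => by ring
  have hA : ∑ x ∈ Ω, g x * -(avg Ω {a, b} g x + avg Ω {a, e} g x + avg Ω {b, e} g x) =
      (∑ x ∈ Ω, g x * dd Ω {a, b} g x + ∑ x ∈ Ω, g x * dd Ω {a, e} g x +
          ∑ x ∈ Ω, g x * dd Ω {b, e} g x) - 3 * ∑ x ∈ Ω, g x ^ 2 := by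
    simp only [mul_sum, ← sum_add_distrib, ← sum_sub_distrib]
    exact sum_congr rfl fun x _ => by unfold dd; ring
  rw [hA] at hspec
  linarith [hspec, hpos, hexp, q1, q2, q3]

/-- a single row is determined by the other rows and the column sums -/
theorem dd_single (r : ι → ℕ) (c : κ → ℕ) (a : ι) (f : Mat ι κ → ℝ) {x : Mat ι κ}
    (hx : x ∈ Om r c) : dd (Om r c) {a, a} f x = 0 := by
  have h : avg (Om r c) {a, a} f x = f x := by
    refine cE_of_inv (Om r c) (rel {a, a}) (rel_equiv _) f hx ?_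
    intro y hy hxy
    have : y = x := by
      funext i
      by_cases hi : i = a
      · subst hi
        funext j
        have h1 := pSum_eq_of_rel hx hy hxy j
        simp only [pSum, pair_eq_singleton, sum_singleton] at h1
        cases hyj : y i j <;> cases hxj : x i j <;> simp_all
      · exact hxy i (by simpa using hi)
    rw [this]
  unfold dd; rw [h, sub_self]

/-- twice the sum of all the pair operators -/
noncomputable def Tt (Ω : Finset (Mat ι κ)) (f : Mat ι κ → ℝ) (x : Mat ι κ) : ℝ :=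
  ∑ a, ∑ b, dd Ω {a, b} f x

theorem sum_mul_Tt (Ω : Finset (Mat ι κ)) (f : Mat ι κ → ℝ) :
    ∑ x ∈ Ω, f x * Tt Ω f x = ∑ a, ∑ b, ∑ x ∈ Ω, dd Ω {a, b} f x ^ 2 := by
  unfold Tt
  simp only [mul_sum]
  rw [sum_comm]
  refine sum_congr rfl fun a _ => ?_
  rw [sum_comm]
  refine sum_congr rfl fun b _ => ?_
  exact sum_mul_dd Ω {a, b} f

theorem knabe_Tt (r : ι → ℕ) (c : κ → ℕ) (f : Mat ι κ → ℝ) :
    2 * ∑ x ∈ Om r c, f x * Tt (Om r c) f x ≤ ∑ x ∈ Om r c, Tt (Om r c) f x ^ 2 := by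
  set Ω := Om r c with hΩ
  have hk := knabe_comb (fun a b c' d => ∑ x ∈ Ω, dd Ω {a, b} f x * dd Ω {c', d} f x)
    (by intro a b c' d; simp only [pair_comm b a])
    (by intro a b c' d; simp only [pair_comm d c'])
    (by intro a b c' d; exact sum_congr rfl fun x _ => mul_comm _ _)
    (by
      intro a c' d
      exact sum_eq_zero fun x hx => by rw [dd_single r c a f hx, zero_mul])
    (by
      intro a b c' d h1 h2 h3 h4
      refine dd_disj_nonneg r c {a, b} {c', d} ?_ f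
      rw [disjoint_left]
      intro i hi hi'
      simp only [mem_insert, mem_singleton] at hi hi'
      rcases hi with rfl | rfl <;> rcases hi' with rfl | rfl <;> simp_all)
    (by
      intro a b e hab hae hbe
      exact tri_nonneg r c a b e hab hae hbe f)
  have h1 : ∑ a, ∑ b, ∑ x ∈ Ω, dd Ω {a, b} f x * dd Ω {a, b} f x = ∑ x ∈ Ω, f x * Tt Ω f x := by
    rw [sum_mul_Tt]
    simp only [sq]
  have h2 : ∑ a, ∑ b, ∑ c', ∑ d, ∑ x ∈ Ω, dd Ω {a, b} f x * dd Ω {c', d} f x =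
      ∑ x ∈ Ω, Tt Ω f x ^ 2 := by
    have : ∀ x, Tt Ω f x ^ 2 = ∑ a, ∑ b, ∑ c', ∑ d, dd Ω {a, b} f x * dd Ω {c', d} f x := by
      intro x
      unfold Tt
      rw [sq, sum_mul]
      refine sum_congr rfl fun a _ => ?_
      rw [sum_mul]
      refine sum_congr rfl fun b _ => ?_
      rw [mul_sum]
      refine sum_congr rfl fun c' _ => ?_
      rw [mul_sum]
    simp only [this]
    symm
    rw [sum_comm]
    refine sum_congr rfl fun a _ => ?_
    rw [sum_comm]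
    refine sum_congr rfl fun b _ => ?_
    rw [sum_comm]
    refine sum_congr rfl fun c' _ => ?_
    rw [sum_comm]
  rw [h1, h2] at hk
  exact hk

theorem Tt_eig (r : ι → ℕ) (c : κ → ℕ) (lam : ℝ) (v : Mat ι κ → ℝ)
    (hne : ∃ x ∈ Om r c, v x ≠ 0) (hv : ∀ x ∈ Om r c, Tt (Om r c) v x = lam * v x) :
    2 ≤ lam ∨ ∀ x ∈ Om r c, ∀ y ∈ Om r c, v y = v x := by
  set Ω := Om r c with hΩ
  by_cases hl : 2 ≤ lam
  · exact Or.inl hl
  right
  have hl' : lam < 2 := not_le.mp hl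
  have hN : 0 < ∑ x ∈ Ω, v x ^ 2 := by
    obtain ⟨x, hx, hx0⟩ := hne
    exact sum_pos' (fun y _ => sq_nonneg _) ⟨x, hx, by positivity⟩
  have hk := knabe_Tt r c v
  have e1 : ∑ x ∈ Ω, v x * Tt Ω v x = lam * ∑ x ∈ Ω, v x ^ 2 := by
    rw [mul_sum]; exact sum_congr rfl fun x hx => by rw [hv x hx]; ring
  have e2 : ∑ x ∈ Ω, Tt Ω v x ^ 2 = lam ^ 2 * ∑ x ∈ Ω, v x ^ 2 := by
    rw [mul_sum]; exact sum_congr rfl fun x hx => by rw [hv x hx]; ring
  rw [e1, e2] at hk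
  have hlam : lam ≤ 0 := by
    by_contra hpos
    have hpos' : 0 < lam := not_le.mp hpos
    have : lam ^ 2 * ∑ x ∈ Ω, v x ^ 2 < 2 * (lam * ∑ x ∈ Ω, v x ^ 2) := by
      have : lam ^ 2 < 2 * lam := by nlinarith
      nlinarith
    linarith
  have hz : ∑ a, ∑ b, ∑ x ∈ Ω, dd Ω {a, b} v x ^ 2 ≤ 0 := by
    rw [← sum_mul_Tt, e1]
    exact mul_nonpos_of_nonpos_of_nonneg hlam hN.le
  have hdd : ∀ a b, ∀ x ∈ Ω, dd Ω {a, b} v x = 0 := by
    intro a b x hx
    by_contra hne0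
    have h1 : 0 < ∑ x ∈ Ω, dd Ω {a, b} v x ^ 2 :=
      sum_pos' (fun y _ => sq_nonneg _) ⟨x, hx, by positivity⟩
    have h2 : 0 < ∑ b, ∑ x ∈ Ω, dd Ω {a, b} v x ^ 2 :=
      sum_pos' (fun b' _ => sum_nonneg fun y _ => sq_nonneg _) ⟨b, mem_univ _, h1⟩
    have h3 : 0 < ∑ a, ∑ b, ∑ x ∈ Ω, dd Ω {a, b} v x ^ 2 :=
      sum_pos' (fun a' _ => sum_nonneg fun b' _ => sum_nonneg fun y _ => sq_nonneg _)
        ⟨a, mem_univ _, h2⟩
    linarith
  have hc := conn r c univ v (by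
    intro x hx a _ b _ j j' hchk
    have hy := chk_mem hx hchk
    have h1 := hdd a b x hx
    have h2 := hdd a b _ hy
    unfold dd at h1 h2
    have h3 : avg Ω {a, b} v x = avg Ω {a, b} v (colSwap {a, b} (Equiv.swap j j') x) :=
      cE_class Ω (rel {a, b}) (rel_equiv _) v (colSwap_rel _ _ _)
    linarith)
  intro x hx y hy
  exact hc x hx y hy (fun i hi => absurd (mem_univ i) hi)

/-! T11 : Poincare inequality for matrices -/
theorem poincare_mat (r : ι → ℕ) (c : κ → ℕ) (f : Mat ι κ → ℝ) :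
    8 * ∑ x ∈ Om r c, (f x - avg (Om r c) univ f x) ^ 2 ≤
      ∑ x ∈ Om r c, ∑ a, ∑ b, ∑ j, ∑ j', if Chk x a b j j' then
        (f x - f (colSwap {a, b} (Equiv.swap j j') x)) ^ 2 else 0 := by
  set Ω := Om r c with hΩ
  set g : Mat ι κ → ℝ := f - avg Ω univ f with hg
  have hspec := specOn Ω (Tt Ω)
    (by intro u v x _; unfold Tt; simp only [dd_add, sum_add_distrib])
    (by intro t v x _; unfold Tt; simp only [dd_smul, mul_sum])
    (by
      intro u v h x hx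
      unfold Tt
      exact sum_congr rfl fun a _ => sum_congr rfl fun b _ => dd_ext Ω _ u v h x hx)
    (by
      intro u v
      unfold Tt
      simp only [mul_sum, sum_mul]
      rw [sum_comm]
      rw [sum_comm (s := Ω)]
      refine sum_congr rfl fun a _ => ?_
      rw [sum_comm]
      rw [sum_comm (s := Ω)]
      exact sum_congr rfl fun b _ => dd_symm Ω _ u v)
    (fun v => ∀ x ∈ Ω, ∀ y ∈ Ω, v y = v x) 2
    (fun lam v hne hv => Tt_eig r c lam v hne hv)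
    g (fun k hk => orth_of_inv Ω univ f k (fun x hx y hy _ => hk x hx y hy))
  rw [sum_mul_Tt] at hspec
  have h1 : ∀ a b, 4 * ∑ x ∈ Ω, dd Ω {a, b} g x ^ 2 ≤
      ∑ x ∈ Ω, ∑ j, ∑ j', if Chk x a b j j' then
        (f x - f (colSwap {a, b} (Equiv.swap j j') x)) ^ 2 else 0 := by
    intro a b
    have e : ∑ x ∈ Ω, dd Ω {a, b} g x ^ 2 = ∑ x ∈ Ω, dd Ω {a, b} f x ^ 2 :=
      sum_congr rfl fun x hx => by rw [hg, dd_sub_avg Ω (subset_univ _) f hx]
    rw [e]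
    by_cases hab : a = b
    · subst hab
      have : ∑ x ∈ Ω, dd Ω {a, a} f x ^ 2 = 0 :=
        sum_eq_zero fun x hx => by rw [dd_single r c a f hx]; ring
      rw [this, mul_zero]
      refine sum_nonneg fun x _ => sum_nonneg fun j _ => sum_nonneg fun j' _ => ?_
      split_ifs
      · exact sq_nonneg _
      · exact le_refl _
    · exact level_one r c a b hab f
  have h2 : ∑ x ∈ Ω, ∑ a, ∑ b, ∑ j, ∑ j', (if Chk x a b j j' then
        (f x - f (colSwap {a, b} (Equiv.swap j j') x)) ^ 2 else 0) =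
      ∑ a, ∑ b, ∑ x ∈ Ω, ∑ j, ∑ j', if Chk x a b j j' then
        (f x - f (colSwap {a, b} (Equiv.swap j j') x)) ^ 2 else 0 := by
    rw [sum_comm]
    refine sum_congr rfl fun a _ => ?_
    rw [sum_comm]
  rw [h2]
  have h3 : 4 * ∑ a, ∑ b, ∑ x ∈ Ω, dd Ω {a, b} g x ^ 2 ≤
      ∑ a, ∑ b, ∑ x ∈ Ω, ∑ j, ∑ j', if Chk x a b j j' then
        (f x - f (colSwap {a, b} (Equiv.swap j j') x)) ^ 2 else 0 := by
    simp only [mul_sum]
    refine sum_le_sum fun a _ => sum_le_sum fun b _ => ?_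
    have := h1 a b
    rw [mul_sum] at this
    exact this
  have h4 : ∑ x ∈ Ω, (f x - avg Ω univ f x) ^ 2 = ∑ x ∈ Ω, g x ^ 2 := rfl
  rw [h4]
  linarith

end Model

end Vale.Agent.Lib.P335
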