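import Vale.Agent.Lib.P335.ThreeSame
import Vale.Agent.Lib.P335.Mixed
import Vale.Agent.Lib.P335.Conn

namespace Vale.Agent.Lib.P335
open Finset

set_option linter.unusedSectionVars false

section Model
variable {ι κ : Type} [Fintype ι] [DecidableEq ι] [Fintype κ] [DecidableEq κ]

/-- eigenfunction equation for the three rows `p q s` together with the invariance under exchanges of
columns of the same type -/
def EigP (Ω : Finset (Mat ι κ)) (lam : ℝ) (v : Mat ι κ → ℝ) (p q s : ι) : Prop :=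
  (∀ x ∈ Ω, avg Ω {p, q} v x + avg Ω {p, s} v x + avg Ω {q, s} v x = lam * v x) ∧
  (∀ x ∈ Ω, ∀ j j', pSum {p, q, s} x j = pSum {p, q, s} x j' →
      v (colSwap {p, q, s} (Equiv.swap j j') x) = v x)

theorem EigP.sw1 {Ω : Finset (Mat ι κ)} {lam : ℝ} {v : Mat ι κ → ℝ} {p q s : ι}
    (h : EigP Ω lam v p q s) : EigP Ω lam v q p s := by
  obtain ⟨h1, h2⟩ := h
  refine ⟨fun x hx => ?_, ?_⟩
  · rw [pair_comm q p, ← h1 x hx]; ring
  · rw [insert_comm q p]; exact h2

theorem EigP.sw2 {Ω : Finset (Mat ι κ)} {lam : ℝ} {v : Mat ι κ → ℝ} {p q s : ι}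
    (h : EigP Ω lam v p q s) : EigP Ω lam v p s q := by
  obtain ⟨h1, h2⟩ := h
  refine ⟨fun x hx => ?_, ?_⟩
  · rw [pair_comm s q, ← h1 x hx]; ring
  · rw [pair_comm s q]; exact h2

theorem neu_chk {x : Mat ι κ} {p q s : ι} {w w' : κ} (h : Neu x p q s w w') : Chk x p q w w' :=
  ⟨h.1, h.2.1, h.2.2.2.1, h.2.2.2.2.1⟩

theorem neu_swap {x : Mat ι κ} {p q s : ι} {w w' : κ} (hps : p ≠ s) (hqs : q ≠ s)
    (h : Neu x p q s w w') : Neu (colSwap {p, q} (Equiv.swap w w') x) q p s w w' := by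
  obtain ⟨h1, h2, h3, h4, h5, h6⟩ := h
  have hs : s ∉ ({p, q} : Finset ι) := by
    simp only [mem_insert, mem_singleton, not_or]; exact ⟨hps.symm, hqs.symm⟩
  refine ⟨?_, ?_, ?_, ?_, ?_, ?_⟩ <;>
    simp [colSwap, hs, h1, h2, h3, h4, h5, h6]

/-- one step of the Lipschitz argument -/
theorem three_step (r : ι → ℕ) (c : κ → ℕ) (T : Finset ι) (lam : ℝ) (v : Mat ι κ → ℝ)
    (hP : ∀ p q s, p ∈ T → q ∈ T → s ∈ T → p ≠ q → p ≠ s → q ≠ s → EigP (Om r c) lam v p q s)
    (L : ℝ)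
    (hL : ∀ p q s, p ∈ T → q ∈ T → s ∈ T → p ≠ q → p ≠ s → q ≠ s → ∀ x ∈ Om r c, ∀ w w',
      Neu x p q s w w' → |v x - v (colSwap {p, q} (Equiv.swap w w') x)| ≤ L)
    (p q s : ι) (hp : p ∈ T) (hq : q ∈ T) (hs : s ∈ T) (hpq : p ≠ q) (hps : p ≠ s) (hqs : q ≠ s)
    (x : Mat ι κ) (hx : x ∈ Om r c) (w w' : κ) (hN : Neu x p q s w w') :
    lam * |v x - v (colSwap {p, q} (Equiv.swap w w') x)| ≤ 2 * L := by
  set Ω := Om r c with hΩ
  set y := colSwap {p, q} (Equiv.swap w w') x with hy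
  have hyΩ : y ∈ Ω := chk_mem hx (neu_chk hN)
  have hNy : Neu y q p s w w' := neu_swap hps hqs hN
  have hxy : colSwap {q, p} (Equiv.swap w w') y = x := by
    rw [hy, pair_comm q p, colSwap_invol]
  have e1 := (hP p q s hp hq hs hpq hps hqs).1 x hx
  have e2 := (hP p q s hp hq hs hpq hps hqs).1 y hyΩ
  have c1 : avg Ω {p, q} v x = avg Ω {p, q} v y :=
    cE_class Ω (rel {p, q}) (rel_equiv _) v (colSwap_rel _ _ _)
  have c3 : |avg Ω {q, s} v x - avg Ω {q, s} v y| ≤ L :=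
    mixed_coupling r c p q s hpq hps hqs v L (hP p q s hp hq hs hpq hps hqs).2
      (hL p q s hp hq hs hpq hps hqs) (hL p s q hp hs hq hps hpq hqs.symm) x hx w w' hN
  have c2 : |avg Ω {p, s} v y - avg Ω {p, s} v x| ≤ L := by
    have := mixed_coupling r c q p s hpq.symm hqs hps v L (hP q p s hq hp hs hpq.symm hqs hps).2
      (hL q p s hq hp hs hpq.symm hqs hps) (hL q s p hq hs hp hqs hpq.symm hps.symm) y hyΩ w w' hNy
    rw [hxy] at this
    exact this
  have hlam : lam * (v x - v y) =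
      (avg Ω {p, s} v x - avg Ω {p, s} v y) + (avg Ω {q, s} v x - avg Ω {q, s} v y) := by
    linarith
  have hL0 : 0 ≤ L := le_trans (abs_nonneg _) c3
  by_cases hl : 0 ≤ lam
  · calc lam * |v x - v y| = |lam * (v x - v y)| := by rw [abs_mul, abs_of_nonneg hl]
      _ = |(avg Ω {p, s} v x - avg Ω {p, s} v y) + (avg Ω {q, s} v x - avg Ω {q, s} v y)| := by
          rw [hlam]
      _ ≤ |avg Ω {p, s} v x - avg Ω {p, s} v y| + |avg Ω {q, s} v x - avg Ω {q, s} v y| :=
          abs_add_le _ _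
      _ ≤ L + L := by rw [abs_sub_comm (avg Ω {p, s} v x)]; exact add_le_add c2 c3
      _ = 2 * L := by ring
  · have : lam * |v x - v y| ≤ 0 :=
      mul_nonpos_of_nonpos_of_nonneg (not_le.mp hl).le (abs_nonneg _)
    linarith

open Classical in
/-- all mixed moves preserve an eigenfunction with eigenvalue above `2` -/
theorem three_mixed_zero (r : ι → ℕ) (c : κ → ℕ) (T : Finset ι) (lam : ℝ) (hlam : 2 < lam)
    (v : Mat ι κ → ℝ)
    (hP : ∀ p q s, p ∈ T → q ∈ T → s ∈ T → p ≠ q → p ≠ s → q ≠ s → EigP (Om r c) lam v p q s)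
    (p q s : ι) (hp : p ∈ T) (hq : q ∈ T) (hs : s ∈ T) (hpq : p ≠ q) (hps : p ≠ s) (hqs : q ≠ s)
    (x : Mat ι κ) (hx : x ∈ Om r c) (w w' : κ) (hN : Neu x p q s w w') :
    v (colSwap {p, q} (Equiv.swap w w') x) = v x := by
  let S : Finset (ι × ι × ι × κ × κ × Mat ι κ) := univ.filter fun t =>
    t.1 ∈ T ∧ t.2.1 ∈ T ∧ t.2.2.1 ∈ T ∧ t.1 ≠ t.2.1 ∧ t.1 ≠ t.2.2.1 ∧ t.2.1 ≠ t.2.2.1 ∧
      t.2.2.2.2.2 ∈ Om r c ∧ Neu t.2.2.2.2.2 t.1 t.2.1 t.2.2.1 t.2.2.2.1 t.2.2.2.2.1
  let g : ι × ι × ι × κ × κ × Mat ι κ → ℝ := fun t =>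
    |v t.2.2.2.2.2 - v (colSwap {t.1, t.2.1} (Equiv.swap t.2.2.2.1 t.2.2.2.2.1) t.2.2.2.2.2)|
  have hmem : (p, q, s, w, w', x) ∈ S := by
    simp only [S, mem_filter, mem_univ, true_and]
    exact ⟨hp, hq, hs, hpq, hps, hqs, hx, hN⟩
  obtain ⟨t0, ht0, hmax⟩ := exists_max_image S g ⟨_, hmem⟩
  have hL : ∀ p q s, p ∈ T → q ∈ T → s ∈ T → p ≠ q → p ≠ s → q ≠ s → ∀ x ∈ Om r c, ∀ w w',
      Neu x p q s w w' → |v x - v (colSwap {p, q} (Equiv.swap w w') x)| ≤ g t0 := by
    intro p q s hp hq hs hpq hps hqs x hx w w' hN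
    have : (p, q, s, w, w', x) ∈ S := by
      simp only [S, mem_filter, mem_univ, true_and]
      exact ⟨hp, hq, hs, hpq, hps, hqs, hx, hN⟩
    exact hmax _ this
  simp only [S, mem_filter, mem_univ, true_and] at ht0
  obtain ⟨a1, a2, a3, a4, a5, a6, a7, a8⟩ := ht0
  have hstep := three_step r c T lam v hP (g t0) hL _ _ _ a1 a2 a3 a4 a5 a6 _ a7 _ _ a8
  have hg0 : 0 ≤ g t0 := abs_nonneg _
  have hstep' : lam * g t0 ≤ 2 * g t0 := hstep
  have hz : g t0 ≤ 0 := by nlinarith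
  have := hL p q s hp hq hs hpq hps hqs x hx w w' hN
  have h0 : |v x - v (colSwap {p, q} (Equiv.swap w w') x)| = 0 :=
    le_antisymm (le_trans this hz) (abs_nonneg _)
  have := abs_eq_zero.mp h0
  linarith

/-- every switch inside the three rows preserves such an eigenfunction -/
theorem three_switch_zero (r : ι → ℕ) (c : κ → ℕ) (T : Finset ι) (lam : ℝ) (hlam : 2 < lam)
    (v : Mat ι κ → ℝ)
    (hP : ∀ p q s, p ∈ T → q ∈ T → s ∈ T → p ≠ q → p ≠ s → q ≠ s → EigP (Om r c) lam v p q s)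
    (p q s : ι) (hp : p ∈ T) (hq : q ∈ T) (hs : s ∈ T) (hpq : p ≠ q) (hps : p ≠ s) (hqs : q ≠ s)
    (x : Mat ι κ) (hx : x ∈ Om r c) (j j' : κ) (hC : Chk x p q j j') :
    v (colSwap {p, q} (Equiv.swap j j') x) = v x := by
  obtain ⟨h1, h2, h3, h4⟩ := hC
  by_cases hsj : x s j = x s j'
  · -- same type
    have hsum : pSum {p, q, s} x j = pSum {p, q, s} x j' := by
      unfold pSum
      rw [sum_insert (by simp [hpq, hps]), sum_insert (by simp [hqs]), sum_singleton,
        sum_insert (by simp [hpq, hps]), sum_insert (by simp [hqs]), sum_singleton,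
        h1, h2, h3, h4, hsj]
      simp
    have heq : colSwap {p, q} (Equiv.swap j j') x = colSwap {p, q, s} (Equiv.swap j j') x := by
      funext i l
      unfold colSwap
      by_cases hi : i = s
      · subst hi
        have h5 : i ∉ ({p, q} : Finset ι) := by
          simp only [mem_insert, mem_singleton, not_or]; exact ⟨hps.symm, hqs.symm⟩
        have h6 : i ∈ ({p, q, i} : Finset ι) := by simp
        rw [if_neg h5, if_pos h6]
        by_cases hl : l = j
        · subst hl; rw [Equiv.swap_apply_left, hsj]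
        · by_cases hl' : l = j'
          · subst hl'; rw [Equiv.swap_apply_right, hsj]
          · rw [Equiv.swap_apply_of_ne_of_ne hl hl']
      · have : (i ∈ ({p, q} : Finset ι)) ↔ (i ∈ ({p, q, s} : Finset ι)) := by
          simp only [mem_insert, mem_singleton]; tauto
        simp only [this]
    rw [heq]
    exact (hP p q s hp hq hs hpq hps hqs).2 x hx j j' hsum
  · cases h5 : x s j <;> cases h6 : x s j' <;> simp only [h5, h6] at hsj
    · exact absurd trivial hsj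
    · exact three_mixed_zero r c T lam hlam v hP p q s hp hq hs hpq hps hqs x hx j j'
        ⟨h1, h2, h5, h3, h4, h6⟩
    · have := three_mixed_zero r c T lam hlam v hP q p s hq hp hs hpq.symm hqs hps x hx j' j
        ⟨h4, h3, h6, h2, h1, h5⟩
      rw [pair_comm q p, Equiv.swap_comm] at this
      exact this
    · exact absurd trivial hsj

/-! T10 : three rows, eigenfunctions above 2 are class constant -/
theorem three_row_eig (r : ι → ℕ) (c : κ → ℕ) (a b e : ι) (hab : a ≠ b) (hae : a ≠ e) (hbe : b ≠ e)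
    (lam : ℝ) (hlam : 2 < lam) (v : Mat ι κ → ℝ)
    (hv : ∀ x ∈ Om r c, avg (Om r c) {a, b} v x + avg (Om r c) {a, e} v x + avg (Om r c) {b, e} v x = lam * v x) :
    ∀ x ∈ Om r c, ∀ y ∈ Om r c, rel {a, b, e} x y → v y = v x := by
  have P0 : EigP (Om r c) lam v a b e := ⟨hv, three_row_same r c a b e hab hae hbe lam hlam v hv⟩
  have hP : ∀ p q s, p ∈ ({a, b, e} : Finset ι) → q ∈ ({a, b, e} : Finset ι) →
      s ∈ ({a, b, e} : Finset ι) → p ≠ q → p ≠ s → q ≠ s → EigP (Om r c) lam v p q s := by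
    intro p q s hp hq hs h1 h2 h3
    simp only [mem_insert, mem_singleton] at hp hq hs
    rcases hp with rfl | rfl | rfl <;> rcases hq with rfl | rfl | rfl <;>
      rcases hs with rfl | rfl | rfl <;>
    first
    | exact absurd rfl h1
    | exact absurd rfl h2
    | exact absurd rfl h3
    | exact P0
    | exact P0.sw1
    | exact P0.sw2
    | exact P0.sw1.sw2
    | exact P0.sw2.sw1
    | exact P0.sw1.sw2.sw1
  refine conn r c {a, b, e} v ?_
  intro x hx p hp q hq j j' hC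
  have hpq : p ≠ q := by
    rintro rfl
    have := hC.1.symm.trans hC.2.1
    exact absurd this (by simp)
  obtain ⟨s, hs, hps, hqs⟩ : ∃ s ∈ ({a, b, e} : Finset ι), p ≠ s ∧ q ≠ s := by
    have hp' := hp
    have hq' := hq
    simp only [mem_insert, mem_singleton] at hp' hq'
    rcases hp' with rfl | rfl | rfl <;> rcases hq' with rfl | rfl | rfl
    · exact absurd rfl hpq
    · exact ⟨e, by simp, hae, hbe⟩
    · exact ⟨b, by simp, hab, hbe.symm⟩
    · exact ⟨e, by simp, hbe, hae⟩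
    · exact absurd rfl hpq
    · exact ⟨a, by simp, hab.symm, hae.symm⟩
    · exact ⟨b, by simp, hbe.symm, hab⟩
    · exact ⟨a, by simp, hae.symm, hab.symm⟩
    · exact absurd rfl hpq
  exact three_switch_zero r c {a, b, e} lam hlam v hP p q s hp hq hs hpq hps hqs x hx j j' hC

end Model

end Vale.Agent.Lib.P335
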