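import Vale.Agent.Lib.P335.Basic

namespace Vale.Agent.Lib.P335
open Finset

set_option linter.unusedSectionVars false

section Model
variable {ι κ : Type} [Fintype ι] [DecidableEq ι] [Fintype κ] [DecidableEq κ]

/-! T8 : three rows, columns of the same type -/

theorem rel_mono_ts {P T : Finset ι} (h : P ⊆ T) {x y : Mat ι κ} (hxy : rel P x y) : rel T x y :=
  fun i hi => hxy i (fun hP => hi (h hP))

theorem colSwap_rel_colSwap_ts (T P : Finset ι) (σ : Equiv.Perm κ) {x z : Mat ι κ} (h : rel P x z) :
    rel P (colSwap T σ x) (colSwap T σ z) := by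
  intro i hi
  funext k
  simp only [colSwap, h i hi]

theorem pSum_colSwap_ts (T : Finset ι) (σ : Equiv.Perm κ) (x : Mat ι κ) (k : κ) :
    pSum T (colSwap T σ x) k = pSum T x (σ k) := by
  unfold pSum
  apply Finset.sum_congr rfl
  intro i hi
  simp [colSwap, hi]

theorem pSum_three_ts (a b e : ι) (hab : a ≠ b) (hae : a ≠ e) (hbe : b ≠ e) (x : Mat ι κ) (k : κ) :
    pSum {a, b, e} x k = (x a k).toNat + (x b k).toNat + (x e k).toNat := by
  unfold pSum
  rw [Finset.sum_insert (by simp [hab, hae]), Finset.sum_insert (by simp [hbe]),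
    Finset.sum_singleton]
  ring

/-- if row `t` has equal entries in columns `j j'`, the swap does not change it -/
theorem row_swap_eq_ts (x : Mat ι κ) (t : ι) (j j' : κ) (h : x t j = x t j') (k : κ) :
    x t (Equiv.swap j j' k) = x t k := by
  by_cases h1 : k = j
  · subst h1; simp [h]
  · by_cases h2 : k = j'
    · subst h2; simp [h]
    · rw [Equiv.swap_apply_of_ne_of_ne h1 h2]

/-- if the rows of `T` outside `P` have equal entries in columns `j j'` then the swap on `T`
only changes the rows of `P` -/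
theorem rel_of_rows_eq_ts (T P : Finset ι) (x : Mat ι κ) (j j' : κ)
    (h : ∀ t ∈ T, t ∉ P → x t j = x t j') : rel P x (colSwap T (Equiv.swap j j') x) := by
  intro i hi
  funext k
  by_cases hT : i ∈ T
  · simp only [colSwap, hT, if_true]
    exact row_swap_eq_ts x i j j' (h i hT hi) k
  · simp [colSwap, hT]

theorem exists_row_eq_ts (a b e : ι) (hab : a ≠ b) (hae : a ≠ e) (hbe : b ≠ e) (x : Mat ι κ)
    (j j' : κ) (h : pSum {a, b, e} x j = pSum {a, b, e} x j') :
    x a j = x a j' ∨ x b j = x b j' ∨ x e j = x e j' := by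
  rw [pSum_three_ts a b e hab hae hbe, pSum_three_ts a b e hab hae hbe] at h
  cases h1 : x a j <;> cases h2 : x a j' <;> cases h3 : x b j <;> cases h4 : x b j' <;>
    cases h5 : x e j <;> cases h6 : x e j' <;> simp_all

/-- the swap maps the class of `y` into the class of the swapped `y` -/
theorem swap_mapsTo_ts (r : ι → ℕ) (c : κ → ℕ) (T P : Finset ι) (hPT : P ⊆ T) (j j' : κ)
    (y : Mat ι κ) (hy : y ∈ Om r c) (hy2 : pSum T y j = pSum T y j') :
    Set.MapsTo (colSwap T (Equiv.swap j j')) (fib (Om r c) (rel P) y)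
      (fib (Om r c) (rel P) (colSwap T (Equiv.swap j j') y)) := by
  intro z hz
  have hz' : z ∈ Om r c ∧ rel P y z := by
    simpa [fib] using hz
  have hzs : ∀ k, pSum T z k = pSum T y k :=
    fun k => pSum_eq_of_rel hy hz'.1 (rel_mono_ts hPT hz'.2) k
  have hmem : colSwap T (Equiv.swap j j') z ∈ Om r c :=
    colSwap_mem hz'.1 T j j' (by rw [hzs, hzs, hy2])
  have : colSwap T (Equiv.swap j j') z ∈ Om r c ∧
      rel P (colSwap T (Equiv.swap j j') y) (colSwap T (Equiv.swap j j') z) :=
    ⟨hmem, colSwap_rel_colSwap_ts T P _ hz'.2⟩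
  simpa [fib] using this

theorem swap_bijOn_ts (r : ι → ℕ) (c : κ → ℕ) (T P : Finset ι) (hPT : P ⊆ T) (j j' : κ)
    (y : Mat ι κ) (hy : y ∈ Om r c) (hy2 : pSum T y j = pSum T y j') :
    Set.BijOn (colSwap T (Equiv.swap j j')) (fib (Om r c) (rel P) y)
      (fib (Om r c) (rel P) (colSwap T (Equiv.swap j j') y)) := by
  refine ⟨swap_mapsTo_ts r c T P hPT j j' y hy hy2, ?_, ?_⟩
  · intro z _ z' _ h
    have := congrArg (colSwap T (Equiv.swap j j')) h
    rwa [colSwap_invol, colSwap_invol] at this
  · intro u hu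
    have hy' : colSwap T (Equiv.swap j j') y ∈ Om r c := colSwap_mem hy T j j' hy2
    have hy2' : pSum T (colSwap T (Equiv.swap j j') y) j
        = pSum T (colSwap T (Equiv.swap j j') y) j' := by
      rw [pSum_colSwap_ts, pSum_colSwap_ts]
      simp [hy2]
    have h := swap_mapsTo_ts r c T P hPT j j' _ hy' hy2' hu
    rw [colSwap_invol] at h
    exact ⟨_, h, colSwap_invol T j j' u⟩

theorem three_row_same (r : ι → ℕ) (c : κ → ℕ) (a b e : ι) (hab : a ≠ b) (hae : a ≠ e) (hbe : b ≠ e)
    (lam : ℝ) (hlam : 2 < lam) (v : Mat ι κ → ℝ)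
    (hv : ∀ x ∈ Om r c, avg (Om r c) {a, b} v x + avg (Om r c) {a, e} v x + avg (Om r c) {b, e} v x = lam * v x) :
    ∀ x ∈ Om r c, ∀ j j', pSum {a, b, e} x j = pSum {a, b, e} x j' →
      v (colSwap {a, b, e} (Equiv.swap j j') x) = v x := by
  intro x hx j j' hxs
  set T : Finset ι := {a, b, e} with hT
  set Ω2 : Finset (Mat ι κ) := (Om r c).filter (fun y => pSum T y j = pSum T y j') with hΩ2
  have hx2 : x ∈ Ω2 := by simp [hΩ2, hx, hxs]
  obtain ⟨x0, hx0, hmax⟩ := Finset.exists_max_image Ω2
    (fun y => |v y - v (colSwap T (Equiv.swap j j') y)|) ⟨x, hx2⟩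
  set M : ℝ := |v x0 - v (colSwap T (Equiv.swap j j') x0)| with hM
  have hx0' : x0 ∈ Om r c ∧ pSum T x0 j = pSum T x0 j' := by simpa [hΩ2] using hx0
  have hpx0 : colSwap T (Equiv.swap j j') x0 ∈ Om r c := colSwap_mem hx0'.1 T j j' hx0'.2
  -- generic bound for each pair
  have hpair : ∀ P : Finset ι, P ⊆ T →
      |avg (Om r c) P v x0 - avg (Om r c) P v (colSwap T (Equiv.swap j j') x0)| ≤ M := by
    intro P hP
    unfold avg
    apply cE_sub_le_of_bij (Om r c) (rel P) v M x0 _ ?_ (colSwap T (Equiv.swap j j'))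
      (swap_bijOn_ts r c T P hP j j' x0 hx0'.1 hx0'.2)
    · intro z hz
      have hz' : z ∈ Om r c ∧ rel P x0 z := by simpa [fib] using hz
      have hzs : ∀ k, pSum T z k = pSum T x0 k :=
        fun k => pSum_eq_of_rel hx0'.1 hz'.1 (rel_mono_ts hP hz'.2) k
      have hz2 : z ∈ Ω2 := by
        simp only [hΩ2, Finset.mem_filter]
        exact ⟨hz'.1, by rw [hzs, hzs, hx0'.2]⟩
      exact hmax z hz2
    · refine ⟨x0, ?_⟩
      have : x0 ∈ Om r c ∧ rel P x0 x0 := ⟨hx0'.1, fun _ _ => rfl⟩
      simpa [fib] using this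
  -- vanishing of one pair
  have hzero : ∀ P : Finset ι, rel P x0 (colSwap T (Equiv.swap j j') x0) →
      avg (Om r c) P v x0 - avg (Om r c) P v (colSwap T (Equiv.swap j j') x0) = 0 := by
    intro P hP
    unfold avg
    rw [cE_class (Om r c) (rel P) (rel_equiv P) v hP, sub_self]
  have hab' : ({a, b} : Finset ι) ⊆ T := by
    intro i hi; simp only [Finset.mem_insert, Finset.mem_singleton] at hi
    simp only [hT, Finset.mem_insert, Finset.mem_singleton]; tauto
  have hae' : ({a, e} : Finset ι) ⊆ T := by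
    intro i hi; simp only [Finset.mem_insert, Finset.mem_singleton] at hi
    simp only [hT, Finset.mem_insert, Finset.mem_singleton]; tauto
  have hbe' : ({b, e} : Finset ι) ⊆ T := by
    intro i hi; simp only [Finset.mem_insert, Finset.mem_singleton] at hi
    simp only [hT, Finset.mem_insert, Finset.mem_singleton]; tauto
  have e1 := hv x0 hx0'.1
  have e2 := hv _ hpx0
  have h1 := hpair _ hab'
  have h2 := hpair _ hae'
  have h3 := hpair _ hbe'
  have hkey : lam * (v x0 - v (colSwap T (Equiv.swap j j') x0)) =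
      (avg (Om r c) {a, b} v x0 - avg (Om r c) {a, b} v (colSwap T (Equiv.swap j j') x0)) +
      (avg (Om r c) {a, e} v x0 - avg (Om r c) {a, e} v (colSwap T (Equiv.swap j j') x0)) +
      (avg (Om r c) {b, e} v x0 - avg (Om r c) {b, e} v (colSwap T (Equiv.swap j j') x0)) := by
    linarith
  have hM0 : 0 ≤ M := abs_nonneg _
  have hbound : lam * M ≤ 2 * M := by
    have habs : lam * M = |lam * (v x0 - v (colSwap T (Equiv.swap j j') x0))| := by
      rw [abs_mul, abs_of_pos (by linarith : (0 : ℝ) < lam)]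
    rw [habs, hkey]
    rcases exists_row_eq_ts a b e hab hae hbe x0 j j' hx0'.2 with h | h | h
    · have hz := hzero {b, e} (rel_of_rows_eq_ts T {b, e} x0 j j' (by
        intro t ht htP
        simp only [hT, Finset.mem_insert, Finset.mem_singleton] at ht htP
        rcases ht with rfl | rfl | rfl
        · exact h
        · exact absurd (Or.inl rfl) htP
        · exact absurd (Or.inr rfl) htP))
      rw [hz, add_zero]
      exact (abs_add_le _ _).trans (by linarith)
    · have hz := hzero {a, e} (rel_of_rows_eq_ts T {a, e} x0 j j' (by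
        intro t ht htP
        simp only [hT, Finset.mem_insert, Finset.mem_singleton] at ht htP
        rcases ht with rfl | rfl | rfl
        · exact absurd (Or.inl rfl) htP
        · exact h
        · exact absurd (Or.inr rfl) htP))
      rw [hz, add_zero]
      exact (abs_add_le _ _).trans (by linarith)
    · have hz := hzero {a, b} (rel_of_rows_eq_ts T {a, b} x0 j j' (by
        intro t ht htP
        simp only [hT, Finset.mem_insert, Finset.mem_singleton] at ht htP
        rcases ht with rfl | rfl | rfl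
        · exact absurd (Or.inl rfl) htP
        · exact absurd (Or.inr rfl) htP
        · exact h))
      rw [hz, zero_add]
      exact (abs_add_le _ _).trans (by linarith)
  have hMz : M = 0 := by nlinarith
  have hxle := hmax x hx2
  have : |v x - v (colSwap T (Equiv.swap j j') x)| ≤ 0 := by
    have h' : |v x - v (colSwap T (Equiv.swap j j') x)| ≤ M := hxle
    linarith
  have h0 : v x - v (colSwap T (Equiv.swap j j') x) = 0 := abs_nonpos_iff.1 this
  linarith

end Model

end Vale.Agent.Lib.P335
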